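import Vale.Agent.P064F.Defs

/-! # P064F leaf: branches of the pattern and downward maps -/

namespace Vale.Agent.P064F

open Finset

variable {V : Type} [Fintype V] [DecidableEq V]

lemma self_mem_Br (F : SimpleGraph V) (h : ℕ) (u b : V) : u ∈ Br F h u b := by
  cases h <;> simp [Br]

lemma Br_mono (F : SimpleGraph V) (h : ℕ) (u b : V) : Br F h u b ⊆ Br F (h + 1) u b := by
  induction h generalizing u b with
  | zero =>
    intro a ha
    simp only [Br, Finset.mem_singleton] at ha
    rw [ha]
    exact self_mem_Br F 1 u b
  | succ h ih =>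
    rw [Br, Br]
    apply Finset.insert_subset_insert
    apply Finset.biUnion_mono
    intro u' _
    exact ih u' u

lemma Br_mono' (F : SimpleGraph V) {h h' : ℕ} (hh : h ≤ h') (u b : V) :
    Br F h u b ⊆ Br F h' u b := by
  induction hh with
  | refl => exact Finset.Subset.refl _
  | step _ ih => exact ih.trans (Br_mono F _ u b)

/-- Every vertex of a branch other than its root is non-isolated. -/
lemma mem_Br_supp (F : SimpleGraph V) (h : ℕ) (u b a : V) (ha : a ∈ Br F h u b) :
    a = u ∨ a ∈ suppF F := by
  induction h generalizing u b with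
  | zero =>
    simp only [Br, Finset.mem_singleton] at ha
    exact Or.inl ha
  | succ h ih =>
    rw [Br, Finset.mem_insert, Finset.mem_biUnion] at ha
    rcases ha with ha | ⟨u', hu', ha⟩
    · exact Or.inl ha
    · right
      rcases ih u' u ha with h1 | h1
      · rw [h1]
        have hadj : F.Adj u u' := by
          simp only [Nb, Finset.mem_filter] at hu'
          exact hu'.2.1
        simp only [suppF, Finset.mem_filter, Finset.mem_univ, true_and]
        exact ⟨u, hadj.symm⟩
      · exact h1

/-- A downward map sends the branch at `u` into the descendants of the image of `u`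
(induction on `h`; `y ∈ chP par x` means `par y = x`, `y ≠ x`, hence `dep y = dep x + 1`). -/
lemma Down_desc (F : SimpleGraph V) (par : V → V) (dep : V → ℕ)
    (hdep : ∀ v, par v ≠ v → dep v = dep (par v) + 1) (π : V → V) (h : ℕ) (u b : V)
    (hD : Down F (chP par) π h u b) (a : V) (ha : a ∈ Br F h u b) :
    ∃ k, k ≤ h ∧ par^[k] (π a) = π u ∧ dep (π a) = dep (π u) + k := by
  induction h generalizing u b with
  | zero =>
    simp only [Br, Finset.mem_singleton] at ha
    exact ⟨0, le_rfl, by rw [ha]; rfl, by rw [ha]; rfl⟩
  | succ h ih =>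
    rw [Br, Finset.mem_insert, Finset.mem_biUnion] at ha
    rcases ha with ha | ⟨u', hu', ha⟩
    · exact ⟨0, Nat.zero_le _, by rw [ha]; rfl, by rw [ha]; rfl⟩
    · obtain ⟨hc, hD'⟩ := hD u' hu'
      simp only [chP, Finset.mem_filter, Finset.mem_univ, true_and] at hc
      obtain ⟨k, hk, h1, h2⟩ := ih u' u hD' ha
      refine ⟨k + 1, Nat.succ_le_succ hk, ?_, ?_⟩
      · rw [Function.iterate_succ_apply', h1, hc.1]
      · have h3 := hdep (π u') (by rw [hc.1]; exact hc.2.symm)
        rw [hc.1] at h3
        omega

/-- If some injective map is downward on the branch, then the sub-branches are pairwise disjoint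
and do not contain `u` (use `Down_desc`: the images lie below distinct children of `π u`; two
vertices of equal depth that are both ancestors of the same vertex coincide). -/
lemma Br_card_succ (F : SimpleGraph V) (par : V → V) (dep : V → ℕ)
    (hdep : ∀ v, par v ≠ v → dep v = dep (par v) + 1) (π : V → V) (hπ : Function.Injective π)
    (h : ℕ) (u b : V) (hD : Down F (chP par) π (h + 1) u b) :
    (Br F (h + 1) u b).card = 1 + ∑ u' ∈ Nb F u b, (Br F h u' u).card := by
  have hchild : ∀ u' ∈ Nb F u b, dep (π u') = dep (π u) + 1 := by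
    intro u' hu'
    obtain ⟨hc, -⟩ := hD u' hu'
    simp only [chP, Finset.mem_filter, Finset.mem_univ, true_and] at hc
    have h3 := hdep (π u') (by rw [hc.1]; exact hc.2.symm)
    rw [hc.1] at h3
    exact h3
  have hnot : u ∉ (Nb F u b).biUnion fun u' => Br F h u' u := by
    intro hu
    rw [Finset.mem_biUnion] at hu
    obtain ⟨u', hu', ha⟩ := hu
    obtain ⟨k, -, -, h2⟩ := Down_desc F par dep hdep π h u' u (hD u' hu').2 u ha
    have := hchild u' hu'
    omega
  rw [Br, Finset.card_insert_of_notMem hnot, Finset.card_biUnion, Nat.add_comm]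
  intro u' hu' u'' hu'' hne
  rw [Finset.mem_coe] at hu' hu''
  change Disjoint (Br F h u' u) (Br F h u'' u)
  rw [Finset.disjoint_left]
  intro a ha ha'
  obtain ⟨k, -, h1, h2⟩ := Down_desc F par dep hdep π h u' u (hD u' hu').2 a ha
  obtain ⟨k', -, h1', h2'⟩ := Down_desc F par dep hdep π h u'' u (hD u'' hu'').2 a ha'
  have e1 := hchild u' hu'
  have e2 := hchild u'' hu''
  have hk : k = k' := by omega
  subst hk
  exact hne (hπ (h1.symm.trans h1'))

end Vale.Agent.P064F
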