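import Vale.Agent.P064F.Defs
import Vale.Agent.P064F.Emb1

/-! # P064F leaf: tops, downward maps and the covering of the support by branches -/

namespace Vale.Agent.P064F

open Finset

variable {V : Type} [Fintype V] [DecidableEq V]

/-- General form: `π` maps `F` into `H`; either `b = u` and `u` is not adjacent in `F` to its
pattern parent `upP par π u`, or `π b = par (π u)`.  Then `π` is downward on the branch at `u` away
from `b`.  Induction on `h`: for `u' ∈ Nb F u b`, `π u'` is adjacent to `π u` in `H`, so
`par (π u') = π u` or `par (π u) = π u'`; the second case is excluded (it gives `u' = upP par π u`,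
which is `b` or is not adjacent to `u`).  So `π u' ∈ chP par (π u)` and we recurse with `(u', u)`. -/
lemma down_gen (H : SimpleGraph V) (R : Rooting H) (F : SimpleGraph V) (π : Equiv.Perm V)
    (hπ : π ∈ PiSet F H) (h : ℕ) (u b : V)
    (hb : (b = u ∧ ¬ F.Adj u (upP R.par π u)) ∨ π b = R.par (π u)) :
    Down F (chP R.par) π h u b := by
  have hπ' : ∀ a b, F.Adj a b → H.Adj (π a) (π b) := by
    simpa [PiSet] using hπ
  induction h generalizing u b with
  | zero => trivial
  | succ h ih =>
    intro u' hu'
    have hu2 : F.Adj u u' ∧ u' ≠ b := by simpa [Nb] using hu'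
    have hadj := (R.adj_iff (π u) (π u')).1 (hπ' u u' hu2.1)
    rcases hadj.2 with hc | hc
    · exfalso
      have hup : upP R.par π u = u' := by
        unfold upP
        rw [hc]
        simp
      rcases hb with ⟨_, hb2⟩ | hb
      · rw [hup] at hb2
        exact hb2 hu2.1
      · rw [hc] at hb
        exact hu2.2 (π.injective hb).symm
    · refine ⟨?_, ih u' u (Or.inr hc.symm)⟩
      simp only [chP, mem_filter, mem_univ, true_and]
      exact ⟨hc, fun h => hadj.1 h.symm⟩

lemma down_of_top (H : SimpleGraph V) (R : Rooting H) (F : SimpleGraph V) (π : Equiv.Perm V)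
    (hπ : π ∈ PiSet F H) (h : ℕ) (u : V) (hu : u ∈ tops F R.par π) :
    Down F (chP R.par) π h u u := by
  apply down_gen H R F π hπ h u u
  left
  refine ⟨rfl, ?_⟩
  have : u ∈ suppF F ∧ ¬ F.Adj u (π.symm (R.par (π u))) := by
    simpa [tops] using hu
  exact this.2

end Vale.Agent.P064F
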