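import Vale.Agent.P064F.Defs
import Vale.Agent.P064F.Emb1
import Vale.Agent.P064F.Glob1

/-! # P064F leaf: the branches of the tops cover the support -/

namespace Vale.Agent.P064F

open Finset

variable {V : Type} [Fintype V] [DecidableEq V]

/-- Along an edge of `F` to the pattern parent the depth of the image drops by one. -/
lemma cover_dep (H : SimpleGraph V) (R : Rooting H) (F : SimpleGraph V) (π : Equiv.Perm V)
    (hπ : π ∈ PiSet F H) (x : V) (hx : F.Adj x (upP R.par π x)) :
    R.dep (π x) = R.dep (π (upP R.par π x)) + 1 := by
  have hH : H.Adj (π x) (π (upP R.par π x)) := by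
    simp only [PiSet, mem_filter, mem_univ, true_and] at hπ
    exact hπ _ _ hx
  have e : π (upP R.par π x) = R.par (π x) := by
    simp [upP]
  rw [e] at hH ⊢
  exact R.dep_par _ ((R.adj_iff _ _).1 hH).1.symm

/-- Peeling a chain of pattern parents from its upper end. -/
lemma cover_peel (H : SimpleGraph V) (R : Rooting H) (F : SimpleGraph V) (π : Equiv.Perm V)
    (hπ : π ∈ PiSet F H) (k : ℕ) : ∀ (a u b : V), (upP R.par π)^[k] a = u →
    (∀ i, i < k → F.Adj ((upP R.par π)^[i] a) ((upP R.par π)^[i + 1] a)) →
    (∀ j, k = j + 1 → (upP R.par π)^[j] a ≠ b) → a ∈ Br F k u b := by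
  induction k with
  | zero =>
    intro a u b hu _ _
    simp only [Function.iterate_zero, id_eq] at hu
    simp [Br, hu]
  | succ k ih =>
    intro a u b hu hadj hb
    set f := upP R.par π with hf
    set c := f^[k] a with hc
    have hcu : f c = u := by
      rw [hc, ← Function.iterate_succ_apply' f k a]; exact hu
    have hadjc : F.Adj c u := by
      have := hadj k (Nat.lt_succ_self k)
      rw [hu] at this
      exact this
    have hcN : c ∈ Nb F u b := by
      simp only [Nb, mem_filter, mem_univ, true_and]
      exact ⟨hadjc.symm, hb k rfl⟩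
    have hin : a ∈ Br F k c u := by
      apply ih a c u rfl (fun i hi => hadj i (Nat.lt_succ_of_lt hi))
      intro j hj hcontra
      -- depth argument
      subst hj
      have h1 := hadj j (by omega)
      rw [Function.iterate_succ_apply' f j a] at h1
      have h2 := cover_dep H R F π hπ _ h1
      have h3 : F.Adj c (f c) := by rw [hcu]; exact hadjc
      have h4 := cover_dep H R F π hπ _ h3
      rw [← hf] at h2 h4
      rw [← Function.iterate_succ_apply' f j a, ← hc, hcontra] at h2
      rw [hcu] at h4
      omega
    simp only [Br, mem_insert, mem_biUnion]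
    exact Or.inr ⟨c, hcN, hin⟩

/-- Existence of the chain of pattern parents up to a top. -/
lemma cover_chain (H : SimpleGraph V) (R : Rooting H) (F : SimpleGraph V) (π : Equiv.Perm V)
    (hπ : π ∈ PiSet F H) (d : ℕ) : ∀ a, a ∈ suppF F → R.dep (π a) = d →
    ∃ k, k ≤ d ∧ (upP R.par π)^[k] a ∈ tops F R.par π ∧
      ∀ i, i < k → F.Adj ((upP R.par π)^[i] a) ((upP R.par π)^[i + 1] a) := by
  induction d with
  | zero =>
    intro a ha hd
    refine ⟨0, le_rfl, ?_, fun i hi => absurd hi (Nat.not_lt_zero i)⟩
    simp only [Function.iterate_zero, id_eq, tops, mem_filter]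
    refine ⟨ha, fun hadj => ?_⟩
    have := cover_dep H R F π hπ a hadj
    omega
  | succ d ih =>
    intro a ha hd
    by_cases hadj : F.Adj a (upP R.par π a)
    · have h1 := cover_dep H R F π hπ a hadj
      have hsupp : upP R.par π a ∈ suppF F := by
        simp only [suppF, mem_filter, mem_univ, true_and]
        exact ⟨a, hadj.symm⟩
      obtain ⟨k, hk, htop, hch⟩ := ih (upP R.par π a) hsupp (by omega)
      refine ⟨k + 1, by omega, ?_, ?_⟩
      · rw [Function.iterate_succ_apply]; exact htop
      · intro i hi
        cases i with
        | zero => simpa using hadj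
        | succ i =>
          have := hch i (by omega)
          rw [Function.iterate_succ_apply, Function.iterate_succ_apply]
          exact this
    · refine ⟨0, Nat.zero_le _, ?_, fun i hi => absurd hi (Nat.not_lt_zero i)⟩
      simp only [Function.iterate_zero, id_eq, tops, mem_filter]
      exact ⟨ha, hadj⟩

/-- Every non-isolated vertex `a` lies in the branch of a top.  Strong induction on
`R.dep (π a)`, in the general form: for all `a ∈ suppF F` there are a top `u` and `k ≤ dep (π a)`
with `a ∈ Br F k u u`, and moreover `a = u` or `a` entered the branch from `upP par π a`.  A convenient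
auxiliary statement: if `a' ∈ Br F k u b` was reached with predecessor different from `a`, and
`F.Adj a' a`, then `a ∈ Br F (k+1) u b`.  Alternatively prove by induction on `k` (peeling at the
root): if the `k`-th iterate of `upP par π` at `a` is `u`, all steps being edges of `F`, and `upP`-chains go strictly up in
`H`, then `a ∈ Br F k u b` for every `b` that is not the first vertex of the chain below `u`. -/
lemma cover (H : SimpleGraph V) (R : Rooting H) (F : SimpleGraph V) (π : Equiv.Perm V)
    (hπ : π ∈ PiSet F H) (hh : ℕ) (hhh : ∀ v, R.dep v ≤ hh) :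
    suppF F ⊆ (tops F R.par π).biUnion fun u => Br F hh u u := by
  intro a ha
  obtain ⟨k, hk, htop, hch⟩ := cover_chain H R F π hπ _ a ha rfl
  rw [mem_biUnion]
  refine ⟨_, htop, ?_⟩
  apply Br_mono' F (le_trans hk (hhh _))
  apply cover_peel H R F π hπ k a _ _ rfl hch
  intro j hj hcontra
  subst hj
  have h1 := hch j (Nat.lt_succ_self j)
  rw [Function.iterate_succ_apply' (upP R.par π) j a] at h1
  have h2 := cover_dep H R F π hπ _ h1
  rw [← Function.iterate_succ_apply' (upP R.par π) j a, ← hcontra] at h2
  omega

end Vale.Agent.P064F
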