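import Mathlib
import Vale.Agent.P064.Defs

/-!
# P064F: definitions for the forest case of the Dubroff-Kahn-Park counting inequality

Blueprint (see `Vale/Agent/P064F/README.md`).  `H` is a forest on `V` with a rooting
(`par`, `dep`), `ch x` is the set of children of `x`.

* `Y ch z h x` is the weighted number of ordered rooted subtrees of height at most `h` hanging
  below `x`: `Y (h+1) x = ∑_{K ⊆ ch x} |K|! ∏_{y ∈ K} z * Y h y`.
* a stage `St V T` assigns to every vertex a witness type `wit x : T`; types carry a level, a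
  formal measure `mu`, an edge number and a set of realizations inside the complete graph.
* `St.next` builds the next stage, whose types are multisets of types.
-/

namespace Vale.Agent.P064F

open Polynomial Finset

/-! ## Polynomial tools -/

/-- The linear functional on real polynomials with `Lam (X ^ k) = k !`. -/
noncomputable def Lam (p : ℝ[X]) : ℝ := p.sum fun k a => (k.factorial : ℝ) * a

/-- `Dom p K a`: the coefficients of `p` are nonnegative and dominated by those of
`K * exp (a X)`. -/
def Dom (p : ℝ[X]) (K a : ℝ) : Prop :=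
  ∀ r : ℕ, 0 ≤ p.coeff r ∧ p.coeff r ≤ K * a ^ r / (r.factorial : ℝ)

/-- `G s u = ∑_{K ⊆ s} |K|! ∏_{i ∈ K} u i`. -/
noncomputable def G {ι : Type*} (s : Finset ι) (u : ι → ℝ) : ℝ :=
  ∑ K ∈ s.powerset, (K.card.factorial : ℝ) * ∏ i ∈ K, u i

/-- The one-level polynomial
`1 + ∑_{m < M ≤ N} d^M / M! * (1 + 2 w X)^M`. -/
noncomputable def Q (d w m : ℝ) (N : ℕ) : ℝ[X] :=
  1 + ∑ M ∈ (range (N + 1)).filter (fun M : ℕ => m < (M : ℝ)),
    C (d ^ M / (M.factorial : ℝ)) * (1 + C (2 * w) * X) ^ M

/-- The truncated exponential tail `∑_{m < M ≤ N} d^M / M!`. -/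
noncomputable def epsT (d m : ℝ) (N : ℕ) : ℝ :=
  ∑ M ∈ (range (N + 1)).filter (fun M : ℕ => m < (M : ℝ)), d ^ M / (M.factorial : ℝ)

/-! ## The generating function -/

/-- Weighted number of ordered rooted subtrees of height at most `h` below `x`. -/
noncomputable def Y {V : Type} (ch : V → Finset V) (z : ℝ) : ℕ → V → ℝ
  | 0, _ => 1
  | h + 1, x => G (ch x) fun y => z * Y ch z h y

/-! ## Multiset weights -/

/-- `D p S = ∏_{t ∈ S} p t / ∏_t (count t S)!`. -/
noncomputable def D {T : Type} [DecidableEq T] (p : T → ℝ) (S : Multiset T) : ℝ :=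
  (S.map p).prod / ∏ t ∈ S.toFinset, ((S.count t).factorial : ℝ)

/-- The polynomial weight of a multiset of types. -/
noncomputable def Phi {T : Type} [DecidableEq T] (p : T → ℝ) (w : ℕ → ℝ) (lev : T → ℕ)
    (S : Multiset T) : ℝ[X] :=
  C (D p S) * (S.map fun t => (1 + C (2 * w (lev t)) * X : ℝ[X])).prod

/-! ## Parameters -/

/-- Weight of level `i`: `w J i = 2 ^ (i - J) / 48`. -/
noncomputable def wL (J : ℤ) (i : ℕ) : ℝ := (1 / 48) * (2 : ℝ) ^ ((i : ℤ) - J)

/-- The activity `z = 2 ^ (-J) / 96`, so that `2 * z * 2 ^ i = wL J i`. -/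
noncomputable def zJ (J : ℤ) : ℝ := (1 / 96) * (2 : ℝ) ^ (-J)

/-! ## Stages -/

/-- A rooted realization inside the complete graph: a root and a set of edges. -/
abbrev Rl (V : Type) := V × Finset (Sym2 V)

/-- Action of a permutation on realizations. -/
def Rl.mapP {V : Type} [DecidableEq V] (π : Equiv.Perm V) (R : Rl V) : Rl V :=
  (π R.1, R.2.image (Sym2.map π))

/-- The data of a stage. -/
structure St (V T : Type) where
  /-- witness type of a vertex -/
  wit : V → T
  /-- level of a type -/
  lev : T → ℕ
  /-- formal measure of a type -/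
  mu : T → ℝ
  /-- number of edges of a type -/
  ec : T → ℕ
  /-- realizations of a type in the complete graph -/
  RS : T → Finset (Rl V)
  /-- vertices (other than the root `x`) of the realization below `x` -/
  RV : V → Finset V

section next

variable {V T : Type} [Fintype V] [DecidableEq V] [DecidableEq T]

/-- Total measure of level `i` (times `δ`). -/
noncomputable def St.dl (s : St V T) (δ : ℝ) (i : ℕ) : ℝ :=
  δ * ∑ t ∈ (univ.image s.wit).filter (fun t => s.lev t = i), s.mu t

/-- Allowance of level `i`. -/
noncomputable def St.al (s : St V T) (δ : ℝ) (J : ℤ) (i : ℕ) : ℝ :=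
  15 * s.dl δ i + 3 * ((J + 1 - (i : ℤ)).toNat : ℝ)

/-- Number of children of `x` of level `i`. -/
def St.cnt (s : St V T) (ch : V → Finset V) (x : V) (i : ℕ) : ℕ :=
  ((ch x).filter fun y => s.lev (s.wit y) = i).card

/-- The recorded children of `x`: those whose level is over its allowance. -/
noncomputable def St.rcd (s : St V T) (ch : V → Finset V) (δ : ℝ) (J : ℤ) (x : V) : Finset V :=
  (ch x).filter fun y => s.al δ J (s.lev (s.wit y)) < (s.cnt ch x (s.lev (s.wit y)) : ℝ)

/-- The value bound attached to a multiset of types. -/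
noncomputable def St.Vb (s : St V T) (J : ℤ) (S : Multiset T) : ℝ :=
  2 * Lam ((S.map fun t => (1 + C (2 * wL J (s.lev t)) * X : ℝ[X])).prod)

/-- Level of a multiset of types: the least `l` with `Vb S ≤ 2 * 2 ^ l`. -/
noncomputable def St.levN (s : St V T) (J : ℤ) (S : Multiset T) : ℕ :=
  Nat.clog 2 ⌈s.Vb J S / 2⌉₊

/-- Realizations of a multiset of types. -/
noncomputable def St.RSN (s : St V T) (S : Multiset T) : Finset (Rl V) :=
  open Classical in
  univ.filter fun R : Rl V => ∃ g : T → Finset (Rl V),
    (∀ t, g t ⊆ s.RS t ∧ (g t).card = S.count t) ∧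
    R.2 = S.toFinset.biUnion fun t => (g t).biUnion fun c => insert s(R.1, c.1) c.2

/-- The next stage, for a given choice `rc` of recorded children. -/
noncomputable def St.nextOf (s : St V T) (δ : ℝ) (J : ℤ) (rc : V → Finset V) :
    St V (Multiset T) where
  wit x := (rc x).val.map s.wit
  lev := s.levN J
  mu := D fun t => δ * s.mu t
  ec S := (S.map fun t => s.ec t + 1).sum
  RS := s.RSN
  RV x := (rc x).biUnion fun y => insert y (s.RV y)

/-- The next stage. -/
noncomputable def St.next (s : St V T) (ch : V → Finset V) (δ : ℝ) (J : ℤ) :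
    St V (Multiset T) :=
  s.nextOf δ J (s.rcd ch δ J)

/-- The initial stage. -/
noncomputable def St.init (V : Type) [Fintype V] [DecidableEq V] : St V Unit where
  wit _ := ()
  lev _ := 0
  mu _ := 1
  ec _ := 0
  RS _ := open Classical in univ.filter fun R : Rl V => R.2 = ∅
  RV _ := ∅

/-- The analytic invariants of a stage (at height `h`). -/
structure GoodC (s : St V T) (ch : V → Finset V) (J : ℤ) (h : ℕ) : Prop where
  mu_nonneg : ∀ t, 0 ≤ s.mu t
  val_le : ∀ x, Y ch (zJ J) h x ≤ 2 * (2 : ℝ) ^ s.lev (s.wit x)
  sum_le : ∑ t ∈ univ.image s.wit, (2 : ℝ) ^ s.lev t * s.mu t ≤ 2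

/-- The combinatorial invariants of a stage. -/
structure GoodB (s : St V T) (par : V → V) (dep : V → ℕ) (q : ℝ) : Prop where
  mu_nonneg : ∀ t, 0 ≤ s.mu t
  card_RS : ∀ t, ((s.RS t).card : ℝ) * (2 * q) ^ s.ec t ≤ (Fintype.card V : ℝ) * s.mu t
  RS_perm : ∀ (π : Equiv.Perm V) (t : T) (R : Rl V), R ∈ s.RS t → Rl.mapP π R ∈ s.RS t
  mem_RS : ∀ x, (x, (s.RV x).image fun v => s(v, par v)) ∈ s.RS (s.wit x)
  card_RV : ∀ x, (s.RV x).card = s.ec (s.wit x)
  desc : ∀ x, ∀ v ∈ s.RV x, ∃ k, 1 ≤ k ∧ k ≤ s.ec (s.wit x) ∧ par^[k] v = x ∧ dep v = dep x + k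

end next

/-! ## Rooted forests -/

section rooted

variable {V : Type} [Fintype V] [DecidableEq V]

/-- A rooting of a graph: a parent function (roots are their own parents) and a depth. -/
structure Rooting (H : SimpleGraph V) where
  /-- parent -/
  par : V → V
  /-- depth -/
  dep : V → ℕ
  adj_iff : ∀ a b, H.Adj a b ↔ a ≠ b ∧ (par a = b ∨ par b = a)
  dep_par : ∀ v, par v ≠ v → dep v = dep (par v) + 1

/-- Children of `x` for a parent function. -/
def chP (par : V → V) (x : V) : Finset V := univ.filter fun y => par y = x ∧ y ≠ x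

/-! ## Patterns -/

open Classical in
/-- Neighbours of `u` in `F` other than `b`. -/
noncomputable def Nb (F : SimpleGraph V) (u b : V) : Finset V :=
  univ.filter fun u' => F.Adj u u' ∧ u' ≠ b

/-- The branch of `F` at `u` away from `b`, up to distance `h`. -/
noncomputable def Br (F : SimpleGraph V) : ℕ → V → V → Finset V
  | 0, u, _ => {u}
  | h + 1, u, b => insert u ((Nb F u b).biUnion fun u' => Br F h u' u)

/-- `π` maps the branch of `F` at `u` away from `b` downwards, up to distance `h`. -/
def Down (F : SimpleGraph V) (ch : V → Finset V) (π : V → V) : ℕ → V → V → Prop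
  | 0, _, _ => True
  | h + 1, u, b => ∀ u' ∈ Nb F u b, π u' ∈ ch (π u) ∧ Down F ch π h u' u

/-- Restriction of a map to a finite set. -/
def res (B : Finset V) (π : V → V) : V → Option V := fun a => if a ∈ B then some (π a) else none

open Classical in
/-- The permutations mapping `F` into `H`. -/
noncomputable def PiSet (F H : SimpleGraph V) : Finset (Equiv.Perm V) :=
  univ.filter fun π => ∀ a b, F.Adj a b → H.Adj (π a) (π b)

open Classical in
/-- The non-isolated vertices of `F`. -/
noncomputable def suppF (F : SimpleGraph V) : Finset V := univ.filter fun a => ∃ b, F.Adj a b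

open Classical in
/-- The vertices of `F` whose image is the top vertex of its component of the image of `F`. -/
noncomputable def tops (F : SimpleGraph V) (par : V → V) (π : Equiv.Perm V) : Finset V :=
  (suppF F).filter fun u => ¬ F.Adj u (π.symm (par (π u)))

open Classical in
/-- The permutations that map `u` to `x` and the branch at `u` away from `b` downwards. -/
noncomputable def DownSet (F : SimpleGraph V) (ch : V → Finset V) (h : ℕ) (u b x : V) :
    Finset (Equiv.Perm V) :=
  univ.filter fun π : Equiv.Perm V => π u = x ∧ Down F ch π h u b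

/-- Number of restrictions to the branch of the permutations that map `u` to `x` and the branch
downwards. -/
noncomputable def cntR (F : SimpleGraph V) (ch : V → Finset V) (h : ℕ) (u b x : V) : ℕ :=
  ((DownSet F ch h u b x).image fun π : Equiv.Perm V => res (Br F h u b) π).card

open Classical in
/-- The permutations mapping `F` into `H` with a given set of tops. -/
noncomputable def PiTop (F H : SimpleGraph V) (par : V → V) (U : Finset V) :
    Finset (Equiv.Perm V) :=
  (PiSet F H).filter fun π => tops F par π = U

/-- The pattern parent of `a` under `π`. -/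
def upP (par : V → V) (π : Equiv.Perm V) (a : V) : V := π.symm (par (π a))

end rooted

end Vale.Agent.P064F
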