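import Vale.Agent.P064F.Defs

/-! # P064F leaf: edges of the pattern versus non-top vertices -/

namespace Vale.Agent.P064F

open Finset

variable {V : Type} [Fintype V] [DecidableEq V]

/-- `a ↦ s(a, upP par π a)` is a bijection from the non-top vertices of the support onto the edges
of `F` (each edge of `F` is mapped by `π` to an edge `{y, par y}` of `H`; injectivity by depths). -/
lemma edges_add_tops (H : SimpleGraph V) (R : Rooting H) (F : SimpleGraph V) (π : Equiv.Perm V)
    (hπ : π ∈ PiSet F H) :
    F.edgeSet.ncard + (tops F R.par π).card = (suppF F).card := by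
  classical
  have hmap : ∀ a b, F.Adj a b → H.Adj (π a) (π b) := by
    rw [PiSet, Finset.mem_filter] at hπ
    exact hπ.2
  obtain ⟨N, hN⟩ : ∃ N : Finset V,
      N = (suppF F).filter fun u => F.Adj u (π.symm (R.par (π u))) := ⟨_, rfl⟩
  have hsplit : N.card + (tops F R.par π).card = (suppF F).card := by
    rw [hN, tops]
    exact Finset.card_filter_add_card_filter_not _
  have hmemN : ∀ a, a ∈ N ↔ F.Adj a (π.symm (R.par (π a))) := by
    intro a
    rw [hN, Finset.mem_filter, suppF, Finset.mem_filter]
    constructor
    · exact fun h => h.2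
    · exact fun h => ⟨⟨Finset.mem_univ _, _, h⟩, h⟩
  have hdep : ∀ a ∈ N, R.dep (π a) = R.dep (R.par (π a)) + 1 := by
    intro a ha
    apply R.dep_par
    intro hcon
    have hadj := (hmemN a).mp ha
    rw [hcon, Equiv.symm_apply_apply] at hadj
    exact F.loopless.irrefl a hadj
  have hinj : Set.InjOn (fun a => s(a, π.symm (R.par (π a)))) (N : Set V) := by
    intro a ha a' ha' heq
    simp only at heq
    rw [Sym2.eq_iff] at heq
    rcases heq with ⟨h1, _⟩ | ⟨h1, h2⟩
    · exact h1
    · exfalso
      have e1 : π a = R.par (π a') := by rw [h1, Equiv.apply_symm_apply]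
      have e2 : π a' = R.par (π a) := by rw [← h2, Equiv.apply_symm_apply]
      have d1 := hdep a ha
      have d2 := hdep a' ha'
      rw [← e2] at d1
      rw [← e1] at d2
      omega
  have hset : F.edgeSet = ((N.image fun a => s(a, π.symm (R.par (π a)))) : Finset (Sym2 V)) := by
    ext e
    induction e using Sym2.ind with
    | _ a b =>
      rw [SimpleGraph.mem_edgeSet, Finset.mem_coe, Finset.mem_image]
      constructor
      · intro hab
        have hH := (R.adj_iff _ _).mp (hmap a b hab)
        rcases hH.2 with h | h
        · refine ⟨a, ?_, ?_⟩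
          · rw [hmemN, h, Equiv.symm_apply_apply]; exact hab
          · rw [h, Equiv.symm_apply_apply]
        · refine ⟨b, ?_, ?_⟩
          · rw [hmemN, h, Equiv.symm_apply_apply]; exact hab.symm
          · rw [h, Equiv.symm_apply_apply]; exact Sym2.eq_swap
      · rintro ⟨c, hc, hce⟩
        have hadj := (hmemN c).mp hc
        rw [← SimpleGraph.mem_edgeSet, hce, SimpleGraph.mem_edgeSet] at hadj
        exact hadj
  rw [hset, Set.ncard_coe_finset, Finset.card_image_of_injOn hinj]
  exact hsplit

end Vale.Agent.P064F
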