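import Vale.Agent.P064F.Defs

/-! # P064F leaf: counting injections by their range -/

namespace Vale.Agent.P064F

open Finset

variable {V : Type} [Fintype V] [DecidableEq V]

/-- Let `Sg` be a set of restrictions `res A π` of maps `π` that are injective on `A` and map `A`
into `B`.  Group them by the range `K = π(A)`, a subset of `B` of size `|A|`; for fixed `K` there are
at most `|A|!` of them (bijections `A → K`), and `∏_{a ∈ A} f (π a) = ∏_{y ∈ K} f y`. -/
lemma sum_res_prod_le (A B : Finset V) (Sg : Finset (V → Option V))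
    (hSg : ∀ σ ∈ Sg, ∃ π : V → V, σ = res A π ∧ Set.InjOn π A ∧ ∀ a ∈ A, π a ∈ B)
    (f : V → ℝ) (hf : ∀ y, 0 ≤ f y) :
    ∑ σ ∈ Sg, ∏ a ∈ A, f ((σ a).getD a) ≤
      ∑ K ∈ B.powersetCard A.card, (A.card.factorial : ℝ) * ∏ y ∈ K, f y := by
  classical
  set rng : (V → Option V) → Finset V := fun σ => A.image (fun a => (σ a).getD a) with hrng
  have key : ∀ σ ∈ Sg, ∃ π : V → V, σ = res A π ∧ Set.InjOn π A ∧ (∀ a ∈ A, π a ∈ B) ∧
      rng σ = A.image π := by
    intro σ hσ
    obtain ⟨π, rfl, hinj, hB⟩ := hSg σ hσ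
    refine ⟨π, rfl, hinj, hB, ?_⟩
    apply Finset.image_congr
    intro a ha
    have ha' : a ∈ A := Finset.mem_coe.mp ha
    simp [res, ha']
  have hmaps : ∀ σ ∈ Sg, rng σ ∈ B.powersetCard A.card := by
    intro σ hσ
    obtain ⟨π, -, hinj, hB, hr⟩ := key σ hσ
    rw [hr, Finset.mem_powersetCard]
    exact ⟨Finset.image_subset_iff.mpr hB, Finset.card_image_of_injOn hinj⟩
  rw [← Finset.sum_fiberwise_of_maps_to hmaps]
  apply Finset.sum_le_sum
  intro K hK
  have hprod : ∀ σ ∈ Sg.filter (fun σ => rng σ = K),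
      ∏ a ∈ A, f ((σ a).getD a) = ∏ y ∈ K, f y := by
    intro σ hσ
    obtain ⟨hσS, hσK⟩ := Finset.mem_filter.mp hσ
    obtain ⟨π, rfl, hinj, hB, hr⟩ := key σ hσS
    rw [← hσK, hr, Finset.prod_image (fun x hx y hy h => hinj hx hy h)]
    apply Finset.prod_congr rfl
    intro a ha
    simp [res, ha]
  rw [Finset.sum_congr rfl hprod, Finset.sum_const, nsmul_eq_mul]
  apply mul_le_mul_of_nonneg_right _ (Finset.prod_nonneg (fun y _ => hf y))
  have hKcard : K.card = A.card := (Finset.mem_powersetCard.mp hK).2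
  let ψ : (↥A ↪ ↥K) → (V → Option V) :=
    fun e a => if h : a ∈ A then some ((e ⟨a, h⟩ : ↥K) : V) else none
  have hsub : Sg.filter (fun σ => rng σ = K) ⊆ Finset.univ.image ψ := by
    intro σ hσ
    obtain ⟨hσS, hσK⟩ := Finset.mem_filter.mp hσ
    obtain ⟨π, rfl, hinj, hB, hr⟩ := key σ hσS
    have hmem : ∀ a : ↥A, π a ∈ K := by
      intro a
      rw [← hσK, hr]
      exact Finset.mem_image_of_mem π a.2
    refine Finset.mem_image.mpr ⟨⟨fun a => ⟨π a, hmem a⟩, ?_⟩, Finset.mem_univ _, ?_⟩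
    · intro a b hab
      have h1 : π a = π b := congrArg Subtype.val hab
      exact Subtype.ext (hinj a.2 b.2 h1)
    · funext a
      by_cases ha : a ∈ A
      · simp only [ψ, res, ha, dif_pos, if_true]
        rfl
      · simp [ψ, res, ha]
  have h1 : (Sg.filter (fun σ => rng σ = K)).card ≤ A.card.factorial := by
    calc (Sg.filter (fun σ => rng σ = K)).card ≤ (Finset.univ.image ψ).card :=
          Finset.card_le_card hsub
      _ ≤ (Finset.univ : Finset (↥A ↪ ↥K)).card := Finset.card_image_le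
      _ = A.card.factorial := by
          rw [Finset.card_univ, Fintype.card_embedding_eq]
          simp [hKcard, Nat.descFactorial_self]
  exact_mod_cast h1

end Vale.Agent.P064F
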