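import Vale.Agent.P064F.Defs

/-! # P064F leaf: restrictions to a union are determined by the restrictions to the parts -/

namespace Vale.Agent.P064F

open Finset

variable {V : Type} [Fintype V] [DecidableEq V]

/-- If `A ⊆ ⋃_{u ∈ U} B u`, then `res A π` is determined by the family `(res (B u) π)_{u ∈ U}`
(injection into `Finset.pi`, `Finset.card_pi`). -/
lemma card_image_res_le {ι : Type*} [DecidableEq ι] (Cs : Finset ι) (ev : ι → V → V)
    (A : Finset V) (U : Finset V) (B : V → Finset V) (hA : A ⊆ U.biUnion B) :
    (Cs.image fun π => res A (ev π)).card ≤ ∏ u ∈ U, (Cs.image fun π => res (B u) (ev π)).card := by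
  classical
  obtain ⟨g, hg⟩ : ∃ g : ι → (∀ u ∈ U, V → Option V), g = fun π u _ => res (B u) (ev π) :=
    ⟨_, rfl⟩
  obtain ⟨φ, hφ⟩ : ∃ φ : (∀ u ∈ U, V → Option V) → V → Option V,
      φ = fun G a => if h : ∃ u, u ∈ U ∧ a ∈ B u then
        (if a ∈ A then G (Classical.choose h) (Classical.choose_spec h).1 a else none)
        else none := ⟨_, rfl⟩
  have h1 : (Cs.image g) ⊆ U.pi (fun u => Cs.image fun π => res (B u) (ev π)) := by
    intro G hG
    obtain ⟨π, hπ, rfl⟩ := Finset.mem_image.mp hG
    rw [Finset.mem_pi]
    intro u hu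
    rw [hg]
    exact Finset.mem_image_of_mem _ hπ
  have h2 : (Cs.image fun π => res A (ev π)) = (Cs.image g).image φ := by
    rw [Finset.image_image]
    apply Finset.image_congr
    intro π _
    funext a
    simp only [Function.comp_apply]
    rw [hφ, hg]
    simp only
    by_cases haA : a ∈ A
    · have hex : ∃ u, u ∈ U ∧ a ∈ B u := by
        have := hA haA
        rw [Finset.mem_biUnion] at this
        exact this
      rw [dif_pos hex, if_pos haA]
      have hmem := (Classical.choose_spec hex).2
      unfold res
      rw [if_pos haA, if_pos hmem]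
    · have e1 : res A (ev π) a = none := by
        unfold res
        rw [if_neg haA]
      rw [e1]
      split_ifs <;> rfl
  calc (Cs.image fun π => res A (ev π)).card = ((Cs.image g).image φ).card := by rw [h2]
    _ ≤ (Cs.image g).card := Finset.card_image_le
    _ ≤ (U.pi (fun u => Cs.image fun π => res (B u) (ev π))).card := Finset.card_le_card h1
    _ = ∏ u ∈ U, (Cs.image fun π => res (B u) (ev π)).card := Finset.card_pi _ _

lemma cntR_zero_le (F : SimpleGraph V) (ch : V → Finset V) (u b x : V) :
    cntR F ch 0 u b x ≤ 1 := by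
  classical
  unfold cntR
  rw [Finset.card_le_one]
  intro f hf f' hf'
  obtain ⟨π, hπ, rfl⟩ := Finset.mem_image.mp hf
  obtain ⟨π', hπ', rfl⟩ := Finset.mem_image.mp hf'
  have h1 : π u = x := by
    rw [DownSet, Finset.mem_filter] at hπ
    exact hπ.2.1
  have h2 : π' u = x := by
    rw [DownSet, Finset.mem_filter] at hπ'
    exact hπ'.2.1
  funext a
  unfold res
  by_cases ha : a ∈ Br F 0 u b
  · rw [if_pos ha, if_pos ha]
    have hau : a = u := by
      simpa [Br] using ha
    rw [hau, h1, h2]
  · rw [if_neg ha, if_neg ha]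

end Vale.Agent.P064F
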