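import Vale.Agent.P064F.Defs

/-! # P064F leaf: the recursive step of the count of restrictions -/

namespace Vale.Agent.P064F

open Finset

variable {V : Type} [Fintype V] [DecidableEq V]

lemma mem_Br_succ_e4 (F : SimpleGraph V) (h : ℕ) (u b a : V) :
    a ∈ Br F (h + 1) u b ↔ a = u ∨ ∃ u' ∈ Nb F u b, a ∈ Br F h u' u := by
  simp [Br]

lemma mem_DownSet_e4 (F : SimpleGraph V) (ch : V → Finset V) (h : ℕ) (u b x : V)
    (π : Equiv.Perm V) : π ∈ DownSet F ch h u b x ↔ π u = x ∧ Down F ch π h u b := by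
  simp [DownSet]

/-- The count for a fixed restriction to the neighbours. -/
lemma card_fibre_le_e4 (F : SimpleGraph V) (ch : V → Finset V) (h : ℕ) (u b x : V)
    (π0 : Equiv.Perm V) :
    (((DownSet F ch (h + 1) u b x).filter
        fun π : Equiv.Perm V => res (Nb F u b) π = res (Nb F u b) π0).image
      fun π : Equiv.Perm V => res (Br F (h + 1) u b) π).card ≤
      ∏ u' ∈ Nb F u b, cntR F ch h u' u ((res (Nb F u b) π0 u').getD u') := by
  show _ ≤ ∏ u' ∈ Nb F u b,
    ((DownSet F ch h u' u ((res (Nb F u b) π0 u').getD u')).image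
      fun π : Equiv.Perm V => res (Br F h u' u) π).card
  rw [← Finset.card_pi]
  apply Finset.card_le_card_of_injOn
    (fun (ρ : V → Option V) (u' : V) (_ : u' ∈ Nb F u b) (a : V) =>
      if a ∈ Br F h u' u then ρ a else none)
  · intro ρ hρ
    obtain ⟨π, hπ, rfl⟩ := Finset.mem_image.1 (Finset.mem_coe.1 hρ)
    obtain ⟨hπD, hπσ⟩ := Finset.mem_filter.1 hπ
    obtain ⟨_, hdown⟩ := (mem_DownSet_e4 F ch (h + 1) u b x π).1 hπD
    rw [Finset.mem_coe, Finset.mem_pi]
    intro u' hu'
    refine Finset.mem_image.2 ⟨π, ?_, ?_⟩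
    · rw [mem_DownSet_e4]
      refine ⟨?_, (hdown u' hu').2⟩
      rw [← hπσ]
      simp [res, hu']
    · funext a
      by_cases ha : a ∈ Br F h u' u
      · have ha' : a ∈ Br F (h + 1) u b := (mem_Br_succ_e4 F h u b a).2 (Or.inr ⟨u', hu', ha⟩)
        simp [res, ha, ha']
      · simp [res, ha]
  · intro ρ1 hρ1 ρ2 hρ2 heq
    obtain ⟨π1, hπ1, rfl⟩ := Finset.mem_image.1 (Finset.mem_coe.1 hρ1)
    obtain ⟨π2, hπ2, rfl⟩ := Finset.mem_image.1 (Finset.mem_coe.1 hρ2)
    have h1 := ((mem_DownSet_e4 F ch (h + 1) u b x π1).1 (Finset.mem_filter.1 hπ1).1).1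
    have h2 := ((mem_DownSet_e4 F ch (h + 1) u b x π2).1 (Finset.mem_filter.1 hπ2).1).1
    funext a
    by_cases ha : a ∈ Br F (h + 1) u b
    · rcases (mem_Br_succ_e4 F h u b a).1 ha with rfl | ⟨u', hu', hau'⟩
      · simp [res, ha, h1, h2]
      · have h3 := congrFun (congrFun (congrFun heq u') hu') a
        simpa [hau'] using h3
    · simp [res, ha]

/-- The recursive step of the count.  A restriction to `Br F (h+1) u b` of a permutation `π` with
`π u = x` that is downward is determined by `σ = res (Nb F u b) π` and by the restrictions of `π` to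
the sub-branches `Br F h u' u`, `u' ∈ Nb F u b`; the latter is one of the `cntR F ch h u' u (π u')`
restrictions counted at `u'`. -/
lemma cntR_succ_le (F : SimpleGraph V) (ch : V → Finset V) (h : ℕ) (u b x : V) :
    cntR F ch (h + 1) u b x ≤
      ∑ σ ∈ (DownSet F ch (h + 1) u b x).image (fun π : Equiv.Perm V => res (Nb F u b) π),
        ∏ u' ∈ Nb F u b, cntR F ch h u' u ((σ u').getD u') := by
  have h1 : ((DownSet F ch (h + 1) u b x).image
        fun π : Equiv.Perm V => res (Br F (h + 1) u b) π) ⊆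
      ((DownSet F ch (h + 1) u b x).image fun π : Equiv.Perm V => res (Nb F u b) π).biUnion
        fun σ => ((DownSet F ch (h + 1) u b x).filter
          fun π : Equiv.Perm V => res (Nb F u b) π = σ).image
            fun π : Equiv.Perm V => res (Br F (h + 1) u b) π := by
    intro ρ hρ
    obtain ⟨π, hπ, rfl⟩ := Finset.mem_image.1 hρ
    exact Finset.mem_biUnion.2 ⟨res (Nb F u b) π, Finset.mem_image_of_mem _ hπ,
      Finset.mem_image_of_mem _ (Finset.mem_filter.2 ⟨hπ, rfl⟩)⟩
  calc cntR F ch (h + 1) u b x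
      = ((DownSet F ch (h + 1) u b x).image
          fun π : Equiv.Perm V => res (Br F (h + 1) u b) π).card := rfl
    _ ≤ _ := Finset.card_le_card h1
    _ ≤ _ := Finset.card_biUnion_le
    _ ≤ _ := by
        apply Finset.sum_le_sum
        intro σ hσ
        obtain ⟨π0, _, rfl⟩ := Finset.mem_image.1 hσ
        exact card_fibre_le_e4 F ch h u b x π0

end Vale.Agent.P064F
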