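import Vale.Agent.P064F.Defs

/-! # P064F leaf: basic properties of `Lam` and `G` -/

namespace Vale.Agent.P064F

open Polynomial Finset

lemma Lam_add (p q : ℝ[X]) : Lam (p + q) = Lam p + Lam q := by
  unfold Lam
  exact Polynomial.sum_add_index p q _ (fun i => by simp) (fun a b c => by ring)

lemma Lam_eq_sum_range_aux (p : ℝ[X]) (N : ℕ) (hN : p.natDegree ≤ N) :
    Lam p = ∑ k ∈ range (N + 1), (k.factorial : ℝ) * p.coeff k := by
  unfold Lam
  exact Polynomial.sum_over_range' p (fun n => by simp) (N + 1) (Nat.lt_succ_of_le hN)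

lemma Lam_C_mul (a : ℝ) (p : ℝ[X]) : Lam (C a * p) = a * Lam p := by
  rw [Lam_eq_sum_range_aux (C a * p) p.natDegree (Polynomial.natDegree_C_mul_le a p),
    Lam_eq_sum_range_aux p p.natDegree le_rfl, Finset.mul_sum]
  apply Finset.sum_congr rfl
  intro k _
  rw [Polynomial.coeff_C_mul]
  ring

lemma Lam_zero_aux : Lam 0 = 0 := by
  unfold Lam
  exact Polynomial.sum_zero_index _

lemma Lam_sum {ι : Type*} (s : Finset ι) (f : ι → ℝ[X]) :
    Lam (∑ i ∈ s, f i) = ∑ i ∈ s, Lam (f i) := by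
  classical
  induction s using Finset.induction_on with
  | empty => simp [Lam_zero_aux]
  | insert a s ha ih => rw [Finset.sum_insert ha, Finset.sum_insert ha, Lam_add, ih]

lemma Lam_C_mul_X_pow (a : ℝ) (k : ℕ) : Lam (C a * X ^ k) = (k.factorial : ℝ) * a := by
  rw [Polynomial.C_mul_X_pow_eq_monomial]
  unfold Lam
  exact Polynomial.sum_monomial_index a _ (by simp)

lemma Lam_one : Lam 1 = 1 := by
  have h := Lam_C_mul_X_pow 1 0
  simpa using h

lemma Lam_eq_sum_range (p : ℝ[X]) (N : ℕ) (hN : p.natDegree ≤ N) :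
    Lam p = ∑ k ∈ range (N + 1), (k.factorial : ℝ) * p.coeff k :=
  Lam_eq_sum_range_aux p N hN

lemma Lam_mono (p q : ℝ[X]) (h : ∀ r, p.coeff r ≤ q.coeff r) : Lam p ≤ Lam q := by
  rw [Lam_eq_sum_range p (max p.natDegree q.natDegree) (le_max_left _ _),
    Lam_eq_sum_range q (max p.natDegree q.natDegree) (le_max_right _ _)]
  apply Finset.sum_le_sum
  intro k _
  exact mul_le_mul_of_nonneg_left (h k) (Nat.cast_nonneg _)

/-- Expand the product with `Finset.prod_one_add` (or `Finset.prod_add`) and use linearity. -/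
lemma G_eq_Lam {ι : Type*} (s : Finset ι) (u : ι → ℝ) :
    G s u = Lam (∏ i ∈ s, (1 + C (u i) * X)) := by
  classical
  rw [Finset.prod_one_add, Lam_sum]
  unfold G
  apply Finset.sum_congr rfl
  intro K _
  rw [Finset.prod_mul_distrib, Finset.prod_const, ← map_prod, Lam_C_mul_X_pow]

lemma G_mono {ι : Type*} (s : Finset ι) (u u' : ι → ℝ) (h0 : ∀ i ∈ s, 0 ≤ u i)
    (h : ∀ i ∈ s, u i ≤ u' i) : G s u ≤ G s u' := by
  unfold G
  apply Finset.sum_le_sum
  intro K hK
  have hK' : K ⊆ s := Finset.mem_powerset.1 hK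
  exact mul_le_mul_of_nonneg_left
    (Finset.prod_le_prod (fun i hi => h0 i (hK' hi)) (fun i hi => h i (hK' hi)))
    (Nat.cast_nonneg _)

lemma G_term_nonneg_aux {ι : Type*} (s : Finset ι) (u : ι → ℝ) (h0 : ∀ i ∈ s, 0 ≤ u i) :
    ∀ K ∈ s.powerset, 0 ≤ (K.card.factorial : ℝ) * ∏ i ∈ K, u i := by
  intro K hK
  have hK' : K ⊆ s := Finset.mem_powerset.1 hK
  exact mul_nonneg (Nat.cast_nonneg _) (Finset.prod_nonneg fun i hi => h0 i (hK' hi))

lemma one_le_G {ι : Type*} (s : Finset ι) (u : ι → ℝ) (h0 : ∀ i ∈ s, 0 ≤ u i) : 1 ≤ G s u := by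
  have h := Finset.single_le_sum (G_term_nonneg_aux s u h0) (Finset.empty_mem_powerset s)
  simpa [G] using h

/-- One term of the sum. -/
lemma term_le_G {ι : Type*} (s K : Finset ι) (hK : K ⊆ s) (u : ι → ℝ) (h0 : ∀ i ∈ s, 0 ≤ u i) :
    (K.card.factorial : ℝ) * ∏ i ∈ K, u i ≤ G s u :=
  Finset.single_le_sum (G_term_nonneg_aux s u h0) (Finset.mem_powerset.2 hK)

/-- All subsets of a given size. -/
lemma sum_card_le_G {ι : Type*} (s : Finset ι) (k : ℕ) (u : ι → ℝ) (h0 : ∀ i ∈ s, 0 ≤ u i) :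
    ∑ K ∈ s.powersetCard k, (k.factorial : ℝ) * ∏ i ∈ K, u i ≤ G s u := by
  have h1 : ∑ K ∈ s.powersetCard k, (k.factorial : ℝ) * ∏ i ∈ K, u i
      = ∑ K ∈ s.powersetCard k, (K.card.factorial : ℝ) * ∏ i ∈ K, u i := by
    apply Finset.sum_congr rfl
    intro K hK
    rw [(Finset.mem_powersetCard.1 hK).2]
  rw [h1]
  unfold G
  apply Finset.sum_le_sum_of_subset_of_nonneg
  · intro K hK
    exact Finset.mem_powerset.2 (Finset.mem_powersetCard.1 hK).1
  · intro K hK _
    exact G_term_nonneg_aux s u h0 K hK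

lemma one_le_Y {V : Type} (ch : V → Finset V) (z : ℝ) (hz : 0 ≤ z) (h : ℕ) (x : V) :
    1 ≤ Y ch z h x := by
  induction h generalizing x with
  | zero => simp [Y]
  | succ h ih =>
    rw [Y]
    apply one_le_G
    intro y _
    exact mul_nonneg hz (le_trans zero_le_one (ih y))

end Vale.Agent.P064F
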