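import Vale.Agent.P064F.Defs
import Vale.Agent.P064F.Poly1
import Vale.Agent.P064F.Emb1
import Vale.Agent.P064F.Emb2
import Vale.Agent.P064F.Emb3
import Vale.Agent.P064F.Emb4

/-! # P064F: the number of downward embeddings of a branch is controlled by `Y` -/

namespace Vale.Agent.P064F

open Finset

variable {V : Type} [Fintype V] [DecidableEq V]

/-- Induction on `h`.  Step: if no permutation is counted the left side is `0`.  Otherwise
`Br_card_succ` gives `z^(|Br (h+1)| - 1) = ∏_{u'} z * z^(|Br h u' u| - 1)`; by `cntR_succ_le` and the
induction hypothesis the left side is at most `∑_σ ∏_{u'} z * Y h (σ u')`, which by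
`sum_res_prod_le` (with `A = Nb F u b`, `B = chP par x`) and `sum_card_le_G` is at most
`G (chP par x) (z * Y h ·) = Y (h+1) x`. -/
theorem cntR_le (F : SimpleGraph V) (par : V → V) (dep : V → ℕ)
    (hdep : ∀ v, par v ≠ v → dep v = dep (par v) + 1) (z : ℝ) (hz : 0 ≤ z) (h : ℕ) (u b x : V) :
    (cntR F (chP par) h u b x : ℝ) * z ^ ((Br F h u b).card - 1) ≤ Y (chP par) z h x := by
  induction h generalizing u b x with
  | zero =>
    have h1 : cntR F (chP par) 0 u b x ≤ 1 := cntR_zero_le F (chP par) u b x
    have h2 : (cntR F (chP par) 0 u b x : ℝ) ≤ 1 := by exact_mod_cast h1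
    simpa [Br, Y] using h2
  | succ h ih =>
    have hY0 : ∀ y, 0 ≤ z * Y (chP par) z h y := fun y =>
      mul_nonneg hz (le_trans zero_le_one (one_le_Y (chP par) z hz h y))
    by_cases hne : (DownSet F (chP par) (h + 1) u b x).Nonempty
    · obtain ⟨π, hπ⟩ := hne
      have hπ' : π u = x ∧ Down F (chP par) π (h + 1) u b := by
        simpa [DownSet] using hπ
      have hcard := Br_card_succ F par dep hdep π π.injective h u b hπ'.2
      have hpow : z ^ ((Br F (h + 1) u b).card - 1)
          = ∏ u' ∈ Nb F u b, (z * z ^ ((Br F h u' u).card - 1)) := by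
        rw [hcard, Nat.add_sub_cancel_left, ← Finset.prod_pow_eq_pow_sum]
        apply Finset.prod_congr rfl
        intro u' _
        have hpos : 1 ≤ (Br F h u' u).card :=
          Finset.card_pos.2 ⟨u', self_mem_Br F h u' u⟩
        rw [← pow_succ']
        congr 1
        omega
      have hstep := cntR_succ_le F (chP par) h u b x
      have hstep' : (cntR F (chP par) (h + 1) u b x : ℝ) ≤
          ∑ σ ∈ (DownSet F (chP par) (h + 1) u b x).image
              (fun π : Equiv.Perm V => res (Nb F u b) π),
            ∏ u' ∈ Nb F u b, (cntR F (chP par) h u' u ((σ u').getD u') : ℝ) := by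
        exact_mod_cast hstep
      have hzn : 0 ≤ ∏ u' ∈ Nb F u b, (z * z ^ ((Br F h u' u).card - 1)) :=
        Finset.prod_nonneg fun u' _ => mul_nonneg hz (pow_nonneg hz _)
      rw [hpow]
      calc (cntR F (chP par) (h + 1) u b x : ℝ)
            * ∏ u' ∈ Nb F u b, (z * z ^ ((Br F h u' u).card - 1))
          ≤ (∑ σ ∈ (DownSet F (chP par) (h + 1) u b x).image
              (fun π : Equiv.Perm V => res (Nb F u b) π),
              ∏ u' ∈ Nb F u b, (cntR F (chP par) h u' u ((σ u').getD u') : ℝ))
            * ∏ u' ∈ Nb F u b, (z * z ^ ((Br F h u' u).card - 1)) :=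
            mul_le_mul_of_nonneg_right hstep' hzn
        _ = ∑ σ ∈ (DownSet F (chP par) (h + 1) u b x).image
              (fun π : Equiv.Perm V => res (Nb F u b) π),
              ∏ u' ∈ Nb F u b, ((cntR F (chP par) h u' u ((σ u').getD u') : ℝ)
                * (z * z ^ ((Br F h u' u).card - 1))) := by
            rw [Finset.sum_mul]
            apply Finset.sum_congr rfl
            intro σ _
            exact Finset.prod_mul_distrib.symm
        _ ≤ ∑ σ ∈ (DownSet F (chP par) (h + 1) u b x).image
              (fun π : Equiv.Perm V => res (Nb F u b) π),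
              ∏ u' ∈ Nb F u b, (fun y => z * Y (chP par) z h y) ((σ u').getD u') := by
            apply Finset.sum_le_sum
            intro σ _
            apply Finset.prod_le_prod
            · intro u' _
              exact mul_nonneg (Nat.cast_nonneg _) (mul_nonneg hz (pow_nonneg hz _))
            · intro u' _
              have := ih u' u ((σ u').getD u')
              calc (cntR F (chP par) h u' u ((σ u').getD u') : ℝ)
                    * (z * z ^ ((Br F h u' u).card - 1))
                  = z * ((cntR F (chP par) h u' u ((σ u').getD u') : ℝ)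
                    * z ^ ((Br F h u' u).card - 1)) := by ring
                _ ≤ z * Y (chP par) z h ((σ u').getD u') :=
                    mul_le_mul_of_nonneg_left this hz
        _ ≤ ∑ K ∈ (chP par x).powersetCard (Nb F u b).card,
              ((Nb F u b).card.factorial : ℝ) * ∏ y ∈ K, (fun y => z * Y (chP par) z h y) y := by
            apply sum_res_prod_le (Nb F u b) (chP par x) _ _ _ hY0
            intro σ hσ
            obtain ⟨ρ, hρ, rfl⟩ := Finset.mem_image.1 hσ
            have hρ' : ρ u = x ∧ Down F (chP par) ρ (h + 1) u b := by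
              simpa [DownSet] using hρ
            refine ⟨ρ, rfl, ρ.injective.injOn, ?_⟩
            intro a ha
            have := (hρ'.2 a ha).1
            rwa [hρ'.1] at this
        _ ≤ G (chP par x) (fun y => z * Y (chP par) z h y) :=
            sum_card_le_G (chP par x) _ _ (fun y _ => hY0 y)
        _ = Y (chP par) z (h + 1) x := rfl
    · rw [Finset.not_nonempty_iff_eq_empty] at hne
      have h0 : cntR F (chP par) (h + 1) u b x = 0 := by
        unfold cntR
        rw [hne]
        simp
      rw [h0]
      simp only [Nat.cast_zero, zero_mul]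
      exact le_trans zero_le_one (one_le_Y (chP par) z hz (h + 1) x)

end Vale.Agent.P064F
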