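import Vale.Agent.P064F.Defs

/-! # P064F leaf: final arithmetic -/

namespace Vale.Agent.P064F

open Finset

/-- `exists_mem_Ioc_zpow` with base `2`. -/
lemma exists_J (δ : ℝ) (hδ : 0 < δ) : ∃ J : ℤ, 1 / 40000 ≤ zJ J * δ ∧ zJ J * δ ≤ 1 / 20000 := by
  have hx : 0 < 40000 * δ / 96 := by positivity
  obtain ⟨J, hJ1, hJ2⟩ := exists_mem_Ico_zpow hx (one_lt_two : (1 : ℝ) < 2)
  refine ⟨J, ?_, ?_⟩
  · have hpos : (0 : ℝ) < 2 ^ J := by positivity
    unfold zJ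
    rw [zpow_neg]
    rw [show (1 / 96 : ℝ) * ((2 : ℝ) ^ J)⁻¹ * δ = (δ / 96) / 2 ^ J by field_simp]
    rw [le_div_iff₀ hpos]
    linarith
  · have hpos : (0 : ℝ) < 2 ^ J := by positivity
    unfold zJ
    rw [zpow_neg]
    rw [show (1 / 96 : ℝ) * ((2 : ℝ) ^ J)⁻¹ * δ = (δ / 96) / 2 ^ J by field_simp]
    rw [div_le_iff₀ hpos]
    rw [zpow_add₀ (two_ne_zero), zpow_one] at hJ2
    linarith

lemma bern_aux (n v : ℕ) (hv : v ≤ n) :
    ((n : ℝ) + 1) ^ v * ((n : ℝ) + 1 - v) ≤ ((n : ℝ) + 1) * (n : ℝ) ^ v := by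
  have hn1 : (0 : ℝ) < (n : ℝ) + 1 := by positivity
  have hb := one_add_mul_le_pow (a := -(1 / ((n : ℝ) + 1))) (by
    have : 1 / ((n : ℝ) + 1) ≤ 1 := by
      rw [div_le_one hn1]; linarith [Nat.cast_nonneg (α := ℝ) n]
    linarith) v
  have h1 : 1 + -(1 / ((n : ℝ) + 1)) = (n : ℝ) / ((n : ℝ) + 1) := by field_simp; ring
  rw [h1, div_pow] at hb
  have hp : (0 : ℝ) < ((n : ℝ) + 1) ^ v := by positivity
  rw [le_div_iff₀ hp] at hb
  have h2 : ((n : ℝ) + 1) ^ v * ((n : ℝ) + 1 - v)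
      = ((n : ℝ) + 1) * ((1 + (v : ℝ) * -(1 / ((n : ℝ) + 1))) * ((n : ℝ) + 1) ^ v) := by
    field_simp
    ring
  rw [h2]
  exact mul_le_mul_of_nonneg_left hb hn1.le

/-- `n^v / (n)_v = ∏_{i<v} 1/(1 - i/n) ≤ v^v / v! ≤ e^v`. -/
lemma pow_le_exp_mul (n v : ℕ) (hv : v ≤ n) :
    (n : ℝ) ^ v * ((n - v).factorial : ℝ) ≤ Real.exp v * (n.factorial : ℝ) := by
  induction n, hv using Nat.le_induction with
  | base =>
    have h := Real.pow_div_factorial_le_exp (v : ℝ) (Nat.cast_nonneg v) v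
    have hf : (0 : ℝ) < (v.factorial : ℝ) := by exact_mod_cast Nat.factorial_pos v
    rw [div_le_iff₀ hf] at h
    simpa using h
  | succ n hn ih =>
    have hsub : n + 1 - v = (n - v) + 1 := by omega
    rw [hsub, Nat.factorial_succ, Nat.factorial_succ]
    push_cast
    have hc : ((n - v : ℕ) : ℝ) = (n : ℝ) - v := by
      rw [Nat.cast_sub hn]
    rw [hc]
    have hb := bern_aux n v hn
    have hf : (0 : ℝ) ≤ ((n - v).factorial : ℝ) := Nat.cast_nonneg _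
    have hn1 : (0 : ℝ) ≤ (n : ℝ) + 1 := by positivity
    calc ((n : ℝ) + 1) ^ v * (((n : ℝ) - v + 1) * ((n - v).factorial : ℝ))
        = (((n : ℝ) + 1) ^ v * ((n : ℝ) + 1 - v)) * ((n - v).factorial : ℝ) := by ring
      _ ≤ (((n : ℝ) + 1) * (n : ℝ) ^ v) * ((n - v).factorial : ℝ) :=
          mul_le_mul_of_nonneg_right hb hf
      _ = ((n : ℝ) + 1) * ((n : ℝ) ^ v * ((n - v).factorial : ℝ)) := by ring
      _ ≤ ((n : ℝ) + 1) * (Real.exp v * (n.factorial : ℝ)) :=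
          mul_le_mul_of_nonneg_left ih hn1
      _ = Real.exp v * (((n : ℝ) + 1) * (n.factorial : ℝ)) := by ring

/-- Put everything together: `z ≥ 1/(80000 n q)`, `S ≤ 4 e n ≤ 11 n`, `2^v ≤ 4^e`, `11^(v-e) ≤ 11^e`,
`n^v (n-v)! ≤ e^v n! ≤ 8^e n!`, and `8 * 4 * 11 * 80000 ≤ 30000000`. -/
lemma final_arith (n v e : ℕ) (P S z q : ℝ) (hv : v ≤ n) (hev : e ≤ v) (hve : v ≤ 2 * e)
    (hn : 1 ≤ n) (hq : 0 < q) (hz0 : 0 < z) (hP : 0 ≤ P)
    (hz : 1 / 40000 ≤ z * (2 * (n : ℝ) * q)) (hS0 : 0 ≤ S) (hS : S ≤ 4 * Real.exp 1 * (n : ℝ))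
    (h : P * z ^ e ≤ (2 : ℝ) ^ v * (((n - v).factorial : ℝ) * S ^ (v - e))) :
    P ≤ (n.factorial : ℝ) * (30000000 * q) ^ e := by
  have hnpos : (0 : ℝ) < (n : ℝ) := by exact_mod_cast hn
  have hexp1 : Real.exp 1 < 2.7182818286 := Real.exp_one_lt_d9
  have hexp0 : 0 < Real.exp 1 := Real.exp_pos 1
  -- w = 80000 n q, z * w ≥ 1
  set w : ℝ := 80000 * (n : ℝ) * q with hw
  have hwpos : 0 < w := by positivity
  have hzw : 1 ≤ z * w := by
    rw [hw]; nlinarith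
  have hzwe : 1 ≤ (z * w) ^ e := one_le_pow₀ hzw
  have hfac : (0 : ℝ) ≤ ((n - v).factorial : ℝ) := Nat.cast_nonneg _
  have hS11 : S ≤ 11 * (n : ℝ) := by
    have : 4 * Real.exp 1 ≤ 11 := by linarith
    calc S ≤ 4 * Real.exp 1 * (n : ℝ) := hS
      _ ≤ 11 * (n : ℝ) := mul_le_mul_of_nonneg_right this hnpos.le
  have hSp : S ^ (v - e) ≤ (11 * (n : ℝ)) ^ (v - e) := pow_le_pow_left₀ hS0 hS11 _
  have h1 : P ≤ P * z ^ e * w ^ e := by
    have : P * z ^ e * w ^ e = P * (z * w) ^ e := by rw [mul_pow]; ring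
    rw [this]
    exact le_mul_of_one_le_right hP hzwe
  have h2 : P * z ^ e * w ^ e ≤
      ((2 : ℝ) ^ v * (((n - v).factorial : ℝ) * (11 * (n : ℝ)) ^ (v - e))) * w ^ e := by
    apply mul_le_mul_of_nonneg_right _ (by positivity)
    refine h.trans ?_
    apply mul_le_mul_of_nonneg_left _ (by positivity)
    exact mul_le_mul_of_nonneg_left hSp hfac
  have hnv : (n : ℝ) ^ (v - e) * (n : ℝ) ^ e = (n : ℝ) ^ v := by
    rw [← pow_add]; congr 1; omega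
  have h3 : ((2 : ℝ) ^ v * (((n - v).factorial : ℝ) * (11 * (n : ℝ)) ^ (v - e))) * w ^ e
      = ((2 : ℝ) ^ v * (11 : ℝ) ^ (v - e) * (80000 * q) ^ e) *
        ((n : ℝ) ^ v * ((n - v).factorial : ℝ)) := by
    rw [hw, ← hnv]
    rw [show (80000 * (n : ℝ) * q) = (80000 * q) * (n : ℝ) by ring, mul_pow, mul_pow (80000 * q)]
    ring
  have h4 := pow_le_exp_mul n v hv
  have h2v : (2 : ℝ) ^ v ≤ 4 ^ e := by
    calc (2 : ℝ) ^ v ≤ 2 ^ (2 * e) := pow_le_pow_right₀ (by norm_num) hve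
      _ = 4 ^ e := by rw [pow_mul]; norm_num
  have h11 : (11 : ℝ) ^ (v - e) ≤ 11 ^ e := pow_le_pow_right₀ (by norm_num) (by omega)
  have hev8 : Real.exp v ≤ 8 ^ e := by
    have hvv : Real.exp v = Real.exp 1 ^ v := by
      rw [← Real.exp_nat_mul]; simp
    rw [hvv]
    calc Real.exp 1 ^ v ≤ Real.exp 1 ^ (2 * e) :=
          pow_le_pow_right₀ (by
            have := Real.add_one_le_exp (1 : ℝ); linarith) hve
      _ = (Real.exp 1 ^ 2) ^ e := by rw [pow_mul]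
      _ ≤ 8 ^ e := by
          apply pow_le_pow_left₀ (by positivity)
          nlinarith
  have hnf : (0 : ℝ) ≤ (n.factorial : ℝ) := Nat.cast_nonneg _
  have hq80 : (0 : ℝ) ≤ (80000 * q) ^ e := by positivity
  calc P ≤ P * z ^ e * w ^ e := h1
    _ ≤ _ := h2
    _ = ((2 : ℝ) ^ v * (11 : ℝ) ^ (v - e) * (80000 * q) ^ e) *
        ((n : ℝ) ^ v * ((n - v).factorial : ℝ)) := h3
    _ ≤ ((2 : ℝ) ^ v * (11 : ℝ) ^ (v - e) * (80000 * q) ^ e) *
        (Real.exp v * (n.factorial : ℝ)) := mul_le_mul_of_nonneg_left h4 (by positivity)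
    _ ≤ ((4 : ℝ) ^ e * (11 : ℝ) ^ e * (80000 * q) ^ e) *
        ((8 : ℝ) ^ e * (n.factorial : ℝ)) := by
        apply mul_le_mul
        · apply mul_le_mul_of_nonneg_right _ hq80
          exact mul_le_mul h2v h11 (by positivity) (by positivity)
        · exact mul_le_mul_of_nonneg_right hev8 hnf
        · positivity
        · positivity
    _ = (n.factorial : ℝ) * (28160000 * q) ^ e := by
        rw [← mul_pow, ← mul_pow]
        rw [show ((4 : ℝ) * 11 * (80000 * q)) ^ e * ((8 : ℝ) ^ e * (n.factorial : ℝ))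
          = (n.factorial : ℝ) * (((4 : ℝ) * 11 * (80000 * q)) ^ e * (8 : ℝ) ^ e) by ring]
        rw [← mul_pow]
        congr 2
        ring
    _ ≤ (n.factorial : ℝ) * (30000000 * q) ^ e := by
        apply mul_le_mul_of_nonneg_left _ hnf
        apply pow_le_pow_left₀ (by positivity)
        nlinarith

end Vale.Agent.P064F
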