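import Vale.Agent.P064F.Defs
import Vale.Agent.P064F.Emb1
import Vale.Agent.P064F.Glob1

/-! # P064F leaf: the branches of the tops partition the support; edge count -/

namespace Vale.Agent.P064F

open Finset

variable {V : Type} [Fintype V] [DecidableEq V]

/-- If `π` is downward on the branch at `u` away from `b`, every `a` in the branch is joined to `u`
by an `upP`-chain all of whose steps are edges of `F` (induction on `h`; for `u' ∈ Nb F u b` we have
`par (π u') = π u`, i.e. `upP par π u' = u`). -/
lemma Br_chain (F : SimpleGraph V) (par : V → V) (π : Equiv.Perm V) (h : ℕ) (u b : V)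
    (hD : Down F (chP par) π h u b) (a : V) (ha : a ∈ Br F h u b) :
    ∃ k, (upP par π)^[k] a = u ∧
      ∀ j < k, F.Adj ((upP par π)^[j] a) ((upP par π)^[j + 1] a) := by
  induction h generalizing u b with
  | zero =>
    have hau : a = u := by simpa [Br] using ha
    exact ⟨0, hau, fun j hj => absurd hj (Nat.not_lt_zero j)⟩
  | succ h ih =>
    have ha' : a = u ∨ ∃ u' ∈ Nb F u b, a ∈ Br F h u' u := by simpa [Br] using ha
    rcases ha' with hau | ⟨u', hu', hau'⟩
    · exact ⟨0, hau, fun j hj => absurd hj (Nat.not_lt_zero j)⟩
    · obtain ⟨hch, hD'⟩ := hD u' hu'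
      obtain ⟨k, hk, hchain⟩ := ih u' u hD' hau'
      have hpar : par (π u') = π u := by
        have := hch
        simp only [chP, Finset.mem_filter, Finset.mem_univ, true_and] at this
        exact this.1
      have hup : upP par π u' = u := by
        unfold upP
        rw [hpar, Equiv.symm_apply_apply]
      have hadj : F.Adj u u' := by
        have := hu'
        simp only [Nb, Finset.mem_filter, Finset.mem_univ, true_and] at this
        exact this.1
      refine ⟨k + 1, ?_, ?_⟩
      · rw [Function.iterate_succ_apply', hk, hup]
      · intro j hj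
        rcases Nat.lt_succ_iff_lt_or_eq.1 hj with hlt | rfl
        · exact hchain j hlt
        · rw [Function.iterate_succ_apply', hk, hup]
          exact hadj.symm

/-- Branches of distinct tops are disjoint: by `Br_chain` a common vertex has chains to both tops;
the shorter chain ends at a top, which is not adjacent to its `upP`. -/
lemma Br_tops_disjoint (H : SimpleGraph V) (R : Rooting H) (F : SimpleGraph V) (π : Equiv.Perm V)
    (hπ : π ∈ PiSet F H) (hh : ℕ) (u u' : V) (hu : u ∈ tops F R.par π) (hu' : u' ∈ tops F R.par π)
    (hne : u ≠ u') : Disjoint (Br F hh u u) (Br F hh u' u') := by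
  have key : ∀ (v v' : V), v ∈ tops F R.par π → v ≠ v' → ∀ (a : V) (k k' : ℕ), k ≤ k' →
      (upP R.par π)^[k] a = v → (upP R.par π)^[k'] a = v' →
      (∀ j < k', F.Adj ((upP R.par π)^[j] a) ((upP R.par π)^[j + 1] a)) → False := by
    intro v v' hv hvv a k k' hkk h1 h2 hchain
    rcases Nat.lt_or_eq_of_le hkk with hlt | rfl
    · have h3 := hchain k hlt
      rw [Function.iterate_succ_apply', h1] at h3
      have hv' := hv
      simp only [tops, Finset.mem_filter] at hv'
      exact hv'.2 h3
    · exact hvv (h1.symm.trans h2)
  rw [Finset.disjoint_left]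
  intro a ha ha'
  obtain ⟨k, hk, hc⟩ := Br_chain F R.par π hh u u (down_of_top H R F π hπ hh u hu) a ha
  obtain ⟨k', hk', hc'⟩ := Br_chain F R.par π hh u' u' (down_of_top H R F π hπ hh u' hu') a ha'
  rcases le_total k k' with hle | hle
  · exact key u u' hu hne a k k' hle hk hk' hc'
  · exact key u' u hu' hne.symm a k' k hle hk' hk hc

end Vale.Agent.P064F
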