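import Vale.Agent.P064F.Defs

/-! # P064F leaf: permutations with a prescribed restriction -/

namespace Vale.Agent.P064F

open Finset

variable {V : Type} [Fintype V] [DecidableEq V]

/-- The permutations with a given restriction to `A` are at most `(n - |A|)!`: if `π₀` is one of
them, `π ↦ π₀⁻¹ * π` maps them injectively to the permutations fixing `A` pointwise, which
correspond to the permutations of the complement. -/
lemma card_fiber_res_le (A : Finset V) (f : V → Option V) :
    (univ.filter fun π : Equiv.Perm V => res A π = f).card ≤
      (Fintype.card V - A.card).factorial := by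
  classical
  rcases (univ.filter fun π : Equiv.Perm V => res A π = f).eq_empty_or_nonempty with h | ⟨π₀, h₀⟩
  · rw [h]
    simp
  · have h₀' : res A π₀ = f := by simpa using h₀
    have hcard : Fintype.card {g : Equiv.Perm V // ∀ a, ¬ (a ∉ A) → g a = a}
        = (Fintype.card V - A.card).factorial := by
      rw [← Fintype.card_congr (Equiv.Perm.subtypeEquivSubtypePerm (fun a => a ∉ A)),
        Fintype.card_perm]
      congr 1
      rw [Fintype.card_subtype_compl, Fintype.card_coe]
    rw [← hcard, ← Fintype.card_coe]
    have hfix : ∀ π : {π // π ∈ univ.filter fun π : Equiv.Perm V => res A π = f},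
        ∀ a, ¬ (a ∉ A) → (π₀⁻¹ * π.1) a = a := by
      intro π a ha
      have ha' : a ∈ A := by simpa using ha
      have hπ : res A π.1 = f := (Finset.mem_filter.1 π.2).2
      have h1 : res A π.1 a = res A π₀ a := by rw [hπ, h₀']
      simp only [res, ha', if_true, Option.some.injEq] at h1
      simp [h1]
    apply Fintype.card_le_of_injective
      (fun π : {π // π ∈ univ.filter fun π : Equiv.Perm V => res A π = f} =>
        (⟨π₀⁻¹ * π.1, hfix π⟩ : {g : Equiv.Perm V // ∀ a, ¬ (a ∉ A) → g a = a}))
    intro π π' h
    apply Subtype.ext
    have h2 := congrArg Subtype.val h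
    simpa using h2

/-- Consequence (`Finset.card_le_mul_card_image`). -/
lemma card_le_mul_image_res (Cs : Finset (Equiv.Perm V)) (A : Finset V) :
    Cs.card ≤ (Fintype.card V - A.card).factorial *
      (Cs.image fun π : Equiv.Perm V => res A π).card := by
  apply Finset.card_le_mul_card_image
  intro f _
  refine le_trans (Finset.card_le_card ?_) (card_fiber_res_le A f)
  intro π hπ
  simp only [mem_filter, mem_univ, true_and] at hπ ⊢
  exact hπ.2

end Vale.Agent.P064F
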