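import Vale.Agent.P064F.Defs
import Vale.Agent.P064F.Emb1
import Vale.Agent.P064F.Cover
import Vale.Agent.P064F.Glob2
import Vale.Agent.P064F.Edges

/-! # P064F leaf: total size of the branches of the tops -/

namespace Vale.Agent.P064F

open Finset

variable {V : Type} [Fintype V] [DecidableEq V]

/-- From `cover`, `mem_Br_supp`, `Br_tops_disjoint`, `edges_add_tops`, `self_mem_Br`. -/
lemma sum_Br_card (H : SimpleGraph V) (R : Rooting H) (F : SimpleGraph V) (π : Equiv.Perm V)
    (hπ : π ∈ PiSet F H) (hh : ℕ) (hhh : ∀ v, R.dep v ≤ hh) :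
    ∑ u ∈ tops F R.par π, ((Br F hh u u).card - 1) = F.edgeSet.ncard := by
  have htop : ∀ u ∈ tops F R.par π, u ∈ suppF F := by
    intro u hu
    simp only [tops, Finset.mem_filter] at hu
    exact hu.1
  have hB : (tops F R.par π).biUnion (fun u => Br F hh u u) = suppF F := by
    apply Finset.Subset.antisymm
    · intro a ha
      rw [Finset.mem_biUnion] at ha
      obtain ⟨u, hu, ha⟩ := ha
      rcases mem_Br_supp F hh u u a ha with h1 | h1
      · rw [h1]; exact htop u hu
      · exact h1
    · exact cover H R F π hπ hh hhh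
  have hcard : ∑ u ∈ tops F R.par π, (Br F hh u u).card = (suppF F).card := by
    rw [← hB, Finset.card_biUnion]
    intro u hu u' hu' hne
    exact Br_tops_disjoint H R F π hπ hh u u' hu hu' hne
  have hsplit : ∑ u ∈ tops F R.par π, ((Br F hh u u).card - 1) + (tops F R.par π).card
      = ∑ u ∈ tops F R.par π, (Br F hh u u).card := by
    rw [Finset.card_eq_sum_ones, ← Finset.sum_add_distrib]
    apply Finset.sum_congr rfl
    intro u _
    exact Nat.sub_add_cancel (Finset.card_pos.2 ⟨u, self_mem_Br F hh u u⟩)
  have hE := edges_add_tops H R F π hπ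
  omega

end Vale.Agent.P064F
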