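import Vale.Agent.P064F.Defs
import Vale.Agent.P064F.Poly1
import Vale.Agent.P064F.Emb3
import Vale.Agent.P064F.EmbRec
import Vale.Agent.P064F.Glob1
import Vale.Agent.P064F.Cover
import Vale.Agent.P064F.Glob2
import Vale.Agent.P064F.Edges
import Vale.Agent.P064F.SumBr
import Vale.Agent.P064F.Glob3

/-! # P064F glue: the number of permutations mapping `F` into the rooted forest `H` -/

namespace Vale.Agent.P064F

open Finset

variable {V : Type} [Fintype V] [DecidableEq V]

theorem class_le (H : SimpleGraph V) (R : Rooting H) (F : SimpleGraph V) (z : ℝ) (hz : 0 ≤ z)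
    (hh : ℕ) (hhh : ∀ v, R.dep v ≤ hh) (U : Finset V) :
    ((PiTop F H R.par U).card : ℝ) * z ^ F.edgeSet.ncard ≤
      ((Fintype.card V - (suppF F).card).factorial : ℝ) *
        (∑ x, Y (chP R.par) z hh x) ^ U.card := by
  have hY0 : ∀ x, 0 ≤ Y (chP R.par) z hh x := fun x =>
    le_trans zero_le_one (one_le_Y _ z hz hh x)
  have hS0 : 0 ≤ ∑ x, Y (chP R.par) z hh x := Finset.sum_nonneg fun x _ => hY0 x
  rcases (PiTop F H R.par U).eq_empty_or_nonempty with he | ⟨π₀, hπ₀⟩
  · rw [he]
    simp only [Finset.card_empty, Nat.cast_zero, zero_mul]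
    positivity
  have hπ₀' : π₀ ∈ PiSet F H ∧ tops F R.par π₀ = U := by
    simpa [PiTop] using hπ₀
  obtain ⟨hP, hU⟩ := hπ₀'
  have c1 := card_le_mul_image_res (PiTop F H R.par U) (suppF F)
  have c2 := card_image_res_le (PiTop F H R.par U) (fun π : Equiv.Perm V => (π : V → V))
    (suppF F) U (fun u => Br F hh u u) (by rw [← hU]; exact cover H R F π₀ hP hh hhh)
  have c3 : ∀ u ∈ U, ((PiTop F H R.par U).image
      fun π : Equiv.Perm V => res (Br F hh u u) π).card ≤
      ∑ x, cntR F (chP R.par) hh u u x := by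
    intro u hu
    have hsub : ((PiTop F H R.par U).image fun π : Equiv.Perm V => res (Br F hh u u) π) ⊆
        univ.biUnion fun x => (DownSet F (chP R.par) hh u u x).image
          fun π : Equiv.Perm V => res (Br F hh u u) π := by
      intro f hf
      obtain ⟨π, hπ, rfl⟩ := Finset.mem_image.mp hf
      have hπ' : π ∈ PiSet F H ∧ tops F R.par π = U := by simpa [PiTop] using hπ
      refine Finset.mem_biUnion.mpr ⟨π u, Finset.mem_univ _, Finset.mem_image.mpr ⟨π, ?_, rfl⟩⟩
      simp only [DownSet, Finset.mem_filter, Finset.mem_univ, true_and]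
      exact down_of_top H R F π hπ'.1 hh u (by rw [hπ'.2]; exact hu)
    exact (Finset.card_le_card hsub).trans Finset.card_biUnion_le
  have c4 : z ^ F.edgeSet.ncard = ∏ u ∈ U, z ^ ((Br F hh u u).card - 1) := by
    rw [Finset.prod_pow_eq_pow_sum, ← hU, sum_Br_card H R F π₀ hP hh hhh]
  have c5 : ((PiTop F H R.par U).card : ℝ) ≤
      ((Fintype.card V - (suppF F).card).factorial : ℝ) *
        ∏ u ∈ U, ∑ x, (cntR F (chP R.par) hh u u x : ℝ) := by
    have : (PiTop F H R.par U).card ≤ (Fintype.card V - (suppF F).card).factorial *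
        ∏ u ∈ U, ∑ x, cntR F (chP R.par) hh u u x :=
      c1.trans (Nat.mul_le_mul_left _ (c2.trans (Finset.prod_le_prod' c3)))
    exact_mod_cast this
  calc ((PiTop F H R.par U).card : ℝ) * z ^ F.edgeSet.ncard
      ≤ (((Fintype.card V - (suppF F).card).factorial : ℝ) *
        ∏ u ∈ U, ∑ x, (cntR F (chP R.par) hh u u x : ℝ)) * z ^ F.edgeSet.ncard :=
        mul_le_mul_of_nonneg_right c5 (by positivity)
    _ = ((Fintype.card V - (suppF F).card).factorial : ℝ) *
        ∏ u ∈ U, ∑ x, (cntR F (chP R.par) hh u u x : ℝ) * z ^ ((Br F hh u u).card - 1) := by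
        rw [c4, mul_assoc, ← Finset.prod_mul_distrib]
        congr 1
        exact Finset.prod_congr rfl fun u _ => by rw [Finset.sum_mul]
    _ ≤ ((Fintype.card V - (suppF F).card).factorial : ℝ) *
        ∏ _u ∈ U, ∑ x, Y (chP R.par) z hh x := by
        apply mul_le_mul_of_nonneg_left _ (by positivity)
        apply Finset.prod_le_prod
        · intro u _
          exact Finset.sum_nonneg fun x _ => by positivity
        · intro u _
          exact Finset.sum_le_sum fun x _ => cntR_le F R.par R.dep R.dep_par z hz hh u u x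
    _ = _ := by rw [Finset.prod_const]

theorem perm_count_le (H : SimpleGraph V) (R : Rooting H) (F : SimpleGraph V) (z : ℝ)
    (hz : 0 ≤ z) (hh : ℕ) (hhh : ∀ v, R.dep v ≤ hh) :
    ((PiSet F H).card : ℝ) * z ^ F.edgeSet.ncard ≤
      (2 : ℝ) ^ (suppF F).card * (((Fintype.card V - (suppF F).card).factorial : ℝ) *
        (∑ x, Y (chP R.par) z hh x) ^ ((suppF F).card - F.edgeSet.ncard)) := by
  have hY0 : ∀ x, 0 ≤ Y (chP R.par) z hh x := fun x =>
    le_trans zero_le_one (one_le_Y _ z hz hh x)
  have hS0 : 0 ≤ ∑ x, Y (chP R.par) z hh x := Finset.sum_nonneg fun x _ => hY0 x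
  have h1 : (PiSet F H).card = ∑ U ∈ (suppF F).powerset, (PiTop F H R.par U).card := by
    classical
    have := Finset.card_eq_sum_card_fiberwise (s := PiSet F H) (t := (suppF F).powerset)
      (f := fun π => tops F R.par π)
      (fun π _ => Finset.mem_coe.mpr (Finset.mem_powerset.mpr (Finset.filter_subset _ _)))
    rw [this]
    apply Finset.sum_congr rfl
    intro U _
    simp only [PiTop]
  have h2 : ∀ U ∈ (suppF F).powerset, ((PiTop F H R.par U).card : ℝ) * z ^ F.edgeSet.ncard ≤
      ((Fintype.card V - (suppF F).card).factorial : ℝ) *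
        (∑ x, Y (chP R.par) z hh x) ^ ((suppF F).card - F.edgeSet.ncard) := by
    intro U _
    rcases (PiTop F H R.par U).eq_empty_or_nonempty with he | ⟨π₀, hπ₀⟩
    · rw [he]
      simp only [Finset.card_empty, Nat.cast_zero, zero_mul]
      positivity
    have hπ₀' : π₀ ∈ PiSet F H ∧ tops F R.par π₀ = U := by
      simpa [PiTop] using hπ₀
    have := edges_add_tops H R F π₀ hπ₀'.1
    rw [hπ₀'.2] at this
    have hU : U.card = (suppF F).card - F.edgeSet.ncard := by omega
    rw [← hU]
    exact class_le H R F z hz hh hhh U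
  calc ((PiSet F H).card : ℝ) * z ^ F.edgeSet.ncard
      = ∑ U ∈ (suppF F).powerset, ((PiTop F H R.par U).card : ℝ) * z ^ F.edgeSet.ncard := by
        rw [h1]; push_cast; rw [Finset.sum_mul]
    _ ≤ ∑ _U ∈ (suppF F).powerset, ((Fintype.card V - (suppF F).card).factorial : ℝ) *
        (∑ x, Y (chP R.par) z hh x) ^ ((suppF F).card - F.edgeSet.ncard) :=
        Finset.sum_le_sum h2
    _ = _ := by
        rw [Finset.sum_const, Finset.card_powerset, nsmul_eq_mul]
        push_cast
        ring

end Vale.Agent.P064F
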