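import Mathlib

/-! # P064F leaf (phase 2): logarithms -/

namespace Vale.Agent.P064F

lemma one_le_two_log (n : ℕ) (hn : 2 ≤ n) : 1 ≤ 2 * Real.log n := by
  have h2 : Real.log 2 ≤ Real.log n :=
    Real.log_le_log (by norm_num) (by exact_mod_cast hn)
  have := Real.log_two_gt_d9
  linarith

/-- `clog 2 (n+1) ≤ log₂(n+1) + 1 ≤ 2 log₂ n + 1 ≤ 3 log₂ n ≤ 5 ln n` for `n ≥ 2`. -/
lemma clog_le_log (n : ℕ) (hn : 2 ≤ n) : (Nat.clog 2 (n + 1) : ℝ) ≤ 5 * Real.log n := by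
  -- `2 ^ (clog - 1) < n + 1 ≤ n ^ 2`
  set c := Nat.clog 2 (n + 1) with hc
  have hcpos : 0 < c := Nat.clog_pos (by norm_num) (by omega)
  have h1 : 2 ^ (c - 1) < n + 1 := Nat.pow_pred_clog_lt_self (by norm_num) (by omega)
  have h2 : n + 1 ≤ n ^ 2 := by nlinarith
  have h3 : ((2 : ℝ) ^ (c - 1)) ≤ (n : ℝ) ^ 2 := by
    exact_mod_cast (h1.le.trans h2)
  have h4 : Real.log ((2 : ℝ) ^ (c - 1)) ≤ Real.log ((n : ℝ) ^ 2) :=
    Real.log_le_log (by positivity) h3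
  rw [Real.log_pow, Real.log_pow] at h4
  have h5 : ((c - 1 : ℕ) : ℝ) = (c : ℝ) - 1 := by
    rw [Nat.cast_sub hcpos]; simp
  rw [h5] at h4
  have hl2 := Real.log_two_gt_d9
  have hl2' := Real.log_two_lt_d9
  have hln : Real.log 2 ≤ Real.log n :=
    Real.log_le_log (by norm_num) (by exact_mod_cast hn)
  push_cast at h4
  -- (c - 1) * log 2 ≤ 2 log n
  have hc1 : (0 : ℝ) ≤ (c : ℝ) - 1 := by
    have : (1 : ℝ) ≤ c := by exact_mod_cast hcpos
    linarith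
  nlinarith

end Vale.Agent.P064F
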