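import Mathlib
import Vale.Agent.P064.Defs

/-!
# P064F, phase 2: the random graph `G(n,p)` and the thresholds of the problem file
-/

namespace Vale.Agent.P064F

open Vale.Agent.P064

/-- The probability of the graph `G` in `G(n,p)`: `p^{e(G)} (1-p)^{C(n,2) - e(G)}`. -/
noncomputable def gnpW (n : ℕ) (p : ℝ) (G : SimpleGraph (Fin n)) : ℝ :=
  p ^ G.edgeSet.ncard * (1 - p) ^ (n.choose 2 - G.edgeSet.ncard)

open Classical in
/-- The probability that `G(n,p)` contains a copy of `H`. -/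
noncomputable def probHas (n : ℕ) (H : SimpleGraph (Fin n)) (p : ℝ) : ℝ :=
  ∑ G : SimpleGraph (Fin n), if 0 < copies G H then gnpW n p G else 0

/-- The expected number of copies of `F` in `G(n,p)`. -/
noncomputable def expN (n : ℕ) (F : SimpleGraph (Fin n)) (p : ℝ) : ℝ :=
  ∑ G : SimpleGraph (Fin n), gnpW n p G * (copies G F : ℝ)

/-- The threshold `p_c(n,H)`. -/
noncomputable def pC (n : ℕ) (H : SimpleGraph (Fin n)) : ℝ :=
  sInf {p : ℝ | 0 ≤ p ∧ p ≤ 1 ∧ 1 / 2 ≤ probHas n H p}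

/-- The expectation threshold `p_E(n,H)`. -/
noncomputable def pE (n : ℕ) (H : SimpleGraph (Fin n)) : ℝ :=
  sInf {p : ℝ | 0 ≤ p ∧ p ≤ 1 ∧ ∀ F : SimpleGraph (Fin n), F ≤ H → 1 / 2 ≤ expN n F p}

/-- The modified expectation threshold `tilde p_E(n,H)`. -/
noncomputable def pEt (n : ℕ) (H : SimpleGraph (Fin n)) : ℝ :=
  sInf {p : ℝ | 0 ≤ p ∧ p ≤ 1 ∧
    ∀ F : SimpleGraph (Fin n), F ≤ H → (copies H F : ℝ) / 2 ≤ expN n F p}

end Vale.Agent.P064F
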