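import Vale.Agent.P064F.PPDefs

/-! # P064F leaf (phase 2): the product measure -/

namespace Vale.Agent.P064F

open Finset

variable {α : Type*} [DecidableEq α]

lemma bern_nonneg (E : Finset α) (p : ℝ) (h0 : 0 ≤ p) (h1 : p ≤ 1) (W : Finset α) :
    0 ≤ bern E p W := by
  unfold bern
  have : 0 ≤ 1 - p := by linarith
  positivity

/-- `Finset.sum_pow_mul_eq_add_pow`. -/
lemma sum_bern (E : Finset α) (p : ℝ) : ∑ W ∈ E.powerset, bern E p W = 1 := by
  unfold bern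
  rw [Finset.sum_pow_mul_eq_add_pow]
  simp

lemma failP_nonneg (E : Finset α) (p : ℝ) (h0 : 0 ≤ p) (h1 : p ≤ 1) (Hs : Finset (Finset α)) :
    0 ≤ failP E p Hs := by
  unfold failP
  apply Finset.sum_nonneg
  intro W _
  split_ifs
  · exact le_rfl
  · exact bern_nonneg E p h0 h1 W

lemma failP_le_one (E : Finset α) (p : ℝ) (h0 : 0 ≤ p) (h1 : p ≤ 1) (Hs : Finset (Finset α)) :
    failP E p Hs ≤ 1 := by
  rw [← sum_bern E p]
  unfold failP
  apply Finset.sum_le_sum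
  intro W _
  split_ifs
  · exact bern_nonneg E p h0 h1 W
  · exact le_rfl

lemma failP_eq_zero_of_empty_mem (E : Finset α) (p : ℝ) (Hs : Finset (Finset α))
    (h : ∅ ∈ Hs) : failP E p Hs = 0 := by
  unfold failP
  apply Finset.sum_eq_zero
  intro W _
  rw [if_pos ⟨∅, h, empty_subset W⟩]

/-- `bern W * p^|T| = p^(|W|+|T|) (1-p)^(|E|-|W|) ≤ p^(|W|+|T|) (1-p)^(|E|-|W|-|T|)`. -/
lemma bern_mul_pow_le (E : Finset α) (p : ℝ) (h0 : 0 ≤ p) (h1 : p ≤ 1) (W T : Finset α)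
    (hd : Disjoint T W) (hE : W ∪ T ⊆ E) :
    bern E p W * p ^ T.card ≤ bern E p (W ∪ T) := by
  unfold bern
  have hc : (W ∪ T).card = W.card + T.card := card_union_of_disjoint hd.symm
  have hq0 : 0 ≤ 1 - p := by linarith
  have hq1 : 1 - p ≤ 1 := by linarith
  rw [hc, pow_add]
  have h2 : (1 - p) ^ (E.card - W.card) ≤ (1 - p) ^ (E.card - (W.card + T.card)) :=
    pow_le_pow_of_le_one hq0 hq1 (by omega)
  calc p ^ W.card * (1 - p) ^ (E.card - W.card) * p ^ T.card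
      = (p ^ W.card * p ^ T.card) * (1 - p) ^ (E.card - W.card) := by ring
    _ ≤ (p ^ W.card * p ^ T.card) * (1 - p) ^ (E.card - (W.card + T.card)) :=
        mul_le_mul_of_nonneg_left h2 (by positivity)

lemma rho_succ (p : ℝ) (g : ℕ) : rho p (g + 1) = 1 - (1 - p) * (1 - rho p g) := by
  unfold rho
  rw [pow_succ]
  ring

lemma rho_mem (p : ℝ) (h0 : 0 ≤ p) (h1 : p ≤ 1) (g : ℕ) : 0 ≤ rho p g ∧ rho p g ≤ 1 := by
  unfold rho
  have hq0 : 0 ≤ 1 - p := by linarith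
  have hq1 : 1 - p ≤ 1 := by linarith
  have a : (1 - p) ^ g ≤ 1 := pow_le_one₀ hq0 hq1
  have b : 0 ≤ (1 - p) ^ g := pow_nonneg hq0 g
  constructor <;> linarith

/-- Bernoulli: `(1 - p)^g ≥ 1 - g p` (`one_add_mul_le_pow`). -/
lemma rho_le (p : ℝ) (h0 : 0 ≤ p) (h1 : p ≤ 1) (g : ℕ) : rho p g ≤ g * p := by
  unfold rho
  have h := one_add_mul_le_pow (a := -p) (by linarith) g
  have e : (1 : ℝ) + -p = 1 - p := by ring
  rw [e] at h
  linarith

/-- `∑_j (1/16)^(2^j) ≤ ∑_j (1/16)^(j+1) ≤ 1/15`. -/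
lemma errS_le (g : ℕ) : errS g ≤ 1 / 8 := by
  unfold errS
  have h1 : ∀ j ∈ range g, (1 / 16 : ℝ) ^ (2 ^ j) ≤ (1 / 16 : ℝ) * (1 / 16 : ℝ) ^ j := by
    intro j _
    rw [← pow_succ']
    apply pow_le_pow_of_le_one (by norm_num) (by norm_num)
    exact Nat.lt_two_pow_self
  refine (Finset.sum_le_sum h1).trans ?_
  rw [← Finset.mul_sum, geom_sum_eq (by norm_num)]
  have h2 : (0 : ℝ) ≤ (1 / 16 : ℝ) ^ g := by positivity
  have e : ((1 / 16 : ℝ) ^ g - 1) / (1 / 16 - 1) = (16 / 15) * (1 - (1 / 16 : ℝ) ^ g) := by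
    field_simp
    ring
  rw [e]
  nlinarith

lemma errS_succ (g : ℕ) : errS (g + 1) = errS g + (1 / 16 : ℝ) ^ (2 ^ g) := by
  unfold errS
  rw [Finset.sum_range_succ]

end Vale.Agent.P064F
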