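import Mathlib

/-!
# P064F, phase 2: a Park-Pham type theorem in the product measure (definitions)

`E` is a finite ground set, `W` a random subset of `E` (each element independently with
probability `p`), `Hs` a family of subsets of `E`.
-/

namespace Vale.Agent.P064F

open Finset

variable {α : Type*} [DecidableEq α]

/-- Probability of the subset `W` of `E` in the product measure of density `p`. -/
noncomputable def bern (E : Finset α) (p : ℝ) (W : Finset α) : ℝ :=
  p ^ W.card * (1 - p) ^ (E.card - W.card)

open Classical in
/-- Probability that the random subset contains no member of `Hs`. -/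
noncomputable def failP (E : Finset α) (p : ℝ) (Hs : Finset (Finset α)) : ℝ :=
  ∑ W ∈ E.powerset, if (∃ A ∈ Hs, A ⊆ W) then 0 else bern E p W

/-- `Us` covers `Hs`: every member of `Hs` contains a member of `Us`. -/
def Covers (Us Hs : Finset (Finset α)) : Prop := ∀ A ∈ Hs, ∃ U ∈ Us, U ⊆ A

/-- The cost of a family at `κ`. -/
noncomputable def cost (κ : ℝ) (Us : Finset (Finset α)) : ℝ := ∑ U ∈ Us, κ ^ U.card

/-- Density after `g` independent rounds of density `p`. -/
noncomputable def rho (p : ℝ) (g : ℕ) : ℝ := 1 - (1 - p) ^ g

/-- Total error after `g` rounds. -/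
noncomputable def errS (g : ℕ) : ℝ := ∑ j ∈ range g, (1 / 16 : ℝ) ^ (2 ^ j)

/-- `T` is a minimum fragment of `A` with respect to `W`: `T = A' \ W` for some `A' ∈ Hs` with
`A' ⊆ W ∪ A`, of minimum size among these. -/
def IsFrag (Hs : Finset (Finset α)) (W A T : Finset α) : Prop :=
  (∃ A' ∈ Hs, A' ⊆ W ∪ A ∧ T = A' \ W) ∧
    ∀ A'' ∈ Hs, A'' ⊆ W ∪ A → T.card ≤ (A'' \ W).card

open Classical in
/-- All minimum fragments of members of `Hs`. -/
noncomputable def frags (E : Finset α) (Hs : Finset (Finset α)) (W : Finset α) :
    Finset (Finset α) :=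
  E.powerset.filter fun T => ∃ A ∈ Hs, IsFrag Hs W A T

/-- The large fragments. -/
noncomputable def bigF (E : Finset α) (Hs : Finset (Finset α)) (W : Finset α) (t : ℕ) :
    Finset (Finset α) :=
  (frags E Hs W).filter fun T => t ≤ T.card

/-- The small fragments. -/
noncomputable def smallF (E : Finset α) (Hs : Finset (Finset α)) (W : Finset α) (t : ℕ) :
    Finset (Finset α) :=
  (frags E Hs W).filter fun T => T.card < t

end Vale.Agent.P064F
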