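import Vale.Agent.P064F.GnpDefs
import Vale.Agent.P064F.PPDefs
import Vale.Agent.P064F.PP2

/-! # P064F leaf (phase 2): graphs on `Fin n` versus subsets of the edge set of `K_n` -/

namespace Vale.Agent.P064F

open Finset Vale.Agent.P064

/-- The edge set of a graph as a finset. -/
noncomputable def edgF {n : ℕ} (G : SimpleGraph (Fin n)) : Finset (Sym2 (Fin n)) :=
  (Set.toFinite G.edgeSet).toFinset

/-- The edge set of the copy of `H` given by the permutation `π`. -/
noncomputable def cpE {n : ℕ} (H : SimpleGraph (Fin n)) (π : Equiv.Perm (Fin n)) :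
    Finset (Sym2 (Fin n)) :=
  (edgF H).image (Sym2.map π)

lemma mem_edgF {n : ℕ} (G : SimpleGraph (Fin n)) (e : Sym2 (Fin n)) :
    e ∈ edgF G ↔ e ∈ G.edgeSet := by
  unfold edgF
  exact Set.Finite.mem_toFinset _

lemma card_edgF {n : ℕ} (G : SimpleGraph (Fin n)) : (edgF G).card = G.edgeSet.ncard := by
  unfold edgF
  exact (Set.ncard_eq_toFinset_card _ _).symm

lemma card_edgF_top (n : ℕ) : (edgF (⊤ : SimpleGraph (Fin n))).card = n.choose 2 := by
  classical
  rw [card_edgF, Set.ncard_eq_toFinset_card']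
  have h := SimpleGraph.card_edgeFinset_top_eq_card_choose_two (V := Fin n)
  rw [Fintype.card_fin] at h
  rw [← h]
  congr 1

lemma edgF_subset_iff {n : ℕ} (G G' : SimpleGraph (Fin n)) : edgF G ⊆ edgF G' ↔ G ≤ G' := by
  rw [← SimpleGraph.edgeSet_subset_edgeSet]
  constructor
  · intro h e he
    exact (mem_edgF G' e).1 (h ((mem_edgF G e).2 he))
  · intro h e he
    exact (mem_edgF G' e).2 (h ((mem_edgF G e).1 he))

lemma edgF_fromEdgeSet {n : ℕ} (W : Finset (Sym2 (Fin n)))
    (hW : W ⊆ edgF (⊤ : SimpleGraph (Fin n))) :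
    edgF (SimpleGraph.fromEdgeSet (W : Set (Sym2 (Fin n)))) = W := by
  ext e
  rw [mem_edgF, SimpleGraph.edgeSet_fromEdgeSet]
  constructor
  · intro h
    exact h.1
  · intro h
    refine ⟨h, ?_⟩
    have h2 := (mem_edgF _ e).1 (hW h)
    exact SimpleGraph.not_isDiag_of_mem_edgeSet _ h2

/-- `G ↦ edgF G` is a bijection from graphs onto the subsets of `edgF ⊤`
(inverse `SimpleGraph.fromEdgeSet`); `Finset.sum_bij`. -/
lemma sum_graphs {n : ℕ} (f : Finset (Sym2 (Fin n)) → ℝ) :
    ∑ G : SimpleGraph (Fin n), f (edgF G) = ∑ W ∈ (edgF (⊤ : SimpleGraph (Fin n))).powerset, f W := by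
  refine Finset.sum_bij' (fun G _ => edgF G)
    (fun W _ => SimpleGraph.fromEdgeSet (W : Set (Sym2 (Fin n)))) ?_ ?_ ?_ ?_ ?_
  · intro G _
    rw [Finset.mem_powerset, edgF_subset_iff]
    exact le_top
  · intro W _
    exact Finset.mem_univ _
  · intro G _
    have : ((edgF G : Finset (Sym2 (Fin n))) : Set (Sym2 (Fin n))) = G.edgeSet := by
      ext e
      exact mem_edgF G e
    rw [this, SimpleGraph.fromEdgeSet_edgeSet]
  · intro W hW
    exact edgF_fromEdgeSet W (Finset.mem_powerset.1 hW)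
  · intro G _
    rfl

lemma gnpW_eq_bern (n : ℕ) (p : ℝ) (G : SimpleGraph (Fin n)) :
    gnpW n p G = bern (edgF (⊤ : SimpleGraph (Fin n))) p (edgF G) := by
  unfold gnpW bern
  rw [card_edgF_top, card_edgF]

lemma cpE_prop {n : ℕ} (H : SimpleGraph (Fin n)) (π : Equiv.Perm (Fin n)) :
    cpE H π ⊆ edgF (⊤ : SimpleGraph (Fin n)) ∧ (cpE H π).card = H.edgeSet.ncard := by
  constructor
  · intro e he
    unfold cpE at he
    obtain ⟨e', he', rfl⟩ := Finset.mem_image.1 he
    rw [mem_edgF] at he' ⊢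
    induction e' using Sym2.ind with
    | _ a b =>
      rw [SimpleGraph.mem_edgeSet] at he'
      rw [Sym2.map_mk, SimpleGraph.mem_edgeSet, SimpleGraph.top_adj]
      exact fun h => he'.ne (π.injective h)
  · unfold cpE
    rw [Finset.card_image_of_injective _ (Sym2.map.injective π.injective), card_edgF]

/-- `G` contains a copy of `H` iff it contains `cpE H π` for some permutation `π` (an isomorphism
between graphs on `Fin n` is a permutation). -/
lemma copies_pos_iff {n : ℕ} (G H : SimpleGraph (Fin n)) :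
    0 < copies G H ↔ ∃ A ∈ (univ.image (cpE H) : Finset (Finset (Sym2 (Fin n)))), A ⊆ edgF G := by
  unfold copies
  rw [Set.ncard_pos (Set.toFinite _)]
  constructor
  · rintro ⟨G', hG', ⟨φ⟩⟩
    refine ⟨cpE H φ.symm.toEquiv, Finset.mem_image.2 ⟨φ.symm.toEquiv, Finset.mem_univ _, rfl⟩, ?_⟩
    intro e he
    unfold cpE at he
    obtain ⟨e', he', rfl⟩ := Finset.mem_image.1 he
    rw [mem_edgF] at he' ⊢
    induction e' using Sym2.ind with
    | _ a b =>
      rw [SimpleGraph.mem_edgeSet] at he'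
      rw [Sym2.map_mk, SimpleGraph.mem_edgeSet]
      exact hG' (φ.symm.map_rel_iff.2 he')
  · rintro ⟨A, hA, hAG⟩
    obtain ⟨π, _, rfl⟩ := Finset.mem_image.1 hA
    refine ⟨H.map π.toEmbedding, ?_, ⟨(SimpleGraph.Iso.map π H).symm⟩⟩
    intro u v huv
    rw [SimpleGraph.map_adj] at huv
    obtain ⟨a, b, hab, rfl, rfl⟩ := huv
    have h1 : s(π a, π b) ∈ cpE H π := by
      unfold cpE
      refine Finset.mem_image.2 ⟨s(a, b), ?_, rfl⟩
      rw [mem_edgF]
      exact hab
    have h2 := (mem_edgF G _).1 (hAG h1)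
    exact h2

open Classical in
/-- The weight of `W` if it contains a copy of `H`, and zero otherwise. -/
noncomputable def hitW {n : ℕ} (H : SimpleGraph (Fin n)) (p : ℝ) (W : Finset (Sym2 (Fin n))) : ℝ :=
  if (∃ A ∈ (univ.image (cpE H) : Finset (Finset (Sym2 (Fin n)))), A ⊆ W)
    then bern (edgF (⊤ : SimpleGraph (Fin n))) p W else 0

/-- From `sum_graphs`, `gnpW_eq_bern`, `copies_pos_iff` and `sum_bern`. -/
lemma probHas_eq (n : ℕ) (H : SimpleGraph (Fin n)) (p : ℝ) :
    probHas n H p = 1 - failP (edgF (⊤ : SimpleGraph (Fin n))) p (univ.image (cpE H)) := by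
  have h1 : probHas n H p = ∑ G : SimpleGraph (Fin n), hitW H p (edgF G) := by
    unfold probHas hitW
    refine Finset.sum_congr rfl (fun G _ => ?_)
    by_cases h : 0 < copies G H
    · rw [if_pos h, if_pos ((copies_pos_iff G H).1 h), gnpW_eq_bern]
    · rw [if_neg h, if_neg (fun h' => h ((copies_pos_iff G H).2 h'))]
  rw [h1, sum_graphs, eq_sub_iff_add_eq, ← sum_bern (edgF (⊤ : SimpleGraph (Fin n))) p]
  unfold failP hitW
  rw [← Finset.sum_add_distrib]
  refine Finset.sum_congr rfl (fun W _ => ?_)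
  by_cases h : ∃ A ∈ (univ.image (cpE H) : Finset (Finset (Sym2 (Fin n)))), A ⊆ W
  · rw [if_pos h, if_pos h, add_zero]
  · rw [if_neg h, if_neg h, zero_add]

end Vale.Agent.P064F
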