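import Vale.Agent.P064F.GnpDefs
import Vale.Agent.P064F.PPDefs
import Vale.Agent.P064F.PP2
import Vale.Agent.P064F.GnpTr

/-! # P064F leaf (phase 2): the closed form of the expected number of copies -/

namespace Vale.Agent.P064F

open Finset Vale.Agent.P064

/-- Probability of containing a fixed set `S ⊆ E`: write `W = S ∪ W'` with `W' ⊆ E \ S` and use
`Finset.sum_pow_mul_eq_add_pow` on `E \ S`. -/
lemma sum_bern_superset {α : Type*} [DecidableEq α] (E S : Finset α) (hS : S ⊆ E) (p : ℝ) :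
    ∑ W ∈ E.powerset.filter (fun W => S ⊆ W), bern E p W = p ^ S.card := by
  have h : ∑ W ∈ E.powerset.filter (fun W => S ⊆ W), bern E p W
      = ∑ W' ∈ (E \ S).powerset, p ^ S.card * bern (E \ S) p W' := by
    refine Finset.sum_bij' (fun W _ => W \ S) (fun W' _ => S ∪ W') ?_ ?_ ?_ ?_ ?_
    · intro W hW
      rw [mem_filter, mem_powerset] at hW
      rw [mem_powerset]
      exact sdiff_subset_sdiff hW.1 (Subset.refl _)
    · intro W' hW'
      rw [mem_powerset] at hW'
      rw [mem_filter, mem_powerset]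
      exact ⟨union_subset hS (hW'.trans sdiff_subset), subset_union_left⟩
    · intro W hW
      rw [mem_filter] at hW
      exact union_sdiff_of_subset hW.2
    · intro W' hW'
      rw [mem_powerset] at hW'
      apply union_sdiff_cancel_left
      exact (disjoint_sdiff.mono_right hW')
    · intro W hW
      rw [mem_filter, mem_powerset] at hW
      unfold bern
      have h1 : (W \ S).card = W.card - S.card := card_sdiff_of_subset hW.2
      have h2 : (E \ S).card = E.card - S.card := card_sdiff_of_subset hS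
      have h3 : S.card ≤ W.card := card_le_card hW.2
      have h4 : W.card ≤ E.card := card_le_card hW.1
      rw [h1, h2, ← mul_assoc, ← pow_add]
      congr 2
      · omega
      · omega
  rw [h, ← Finset.mul_sum, sum_bern, mul_one]

open Classical in
lemma copies_eq_sum {n : ℕ} (G F : SimpleGraph (Fin n)) :
    (copies G F : ℝ) = ∑ G' : SimpleGraph (Fin n),
      if (G' ≤ G ∧ Nonempty (G' ≃g F)) then (1 : ℝ) else 0 := by
  unfold copies
  rw [Finset.sum_boole, Set.ncard_eq_toFinset_card']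
  congr 2
  ext G'
  simp

open Classical in
lemma sum_gnpW_ge {n : ℕ} (G' : SimpleGraph (Fin n)) (p : ℝ) :
    ∑ G : SimpleGraph (Fin n), (if G' ≤ G then gnpW n p G else 0) = p ^ G'.edgeSet.ncard := by
  have h1 : ∑ G : SimpleGraph (Fin n), (if G' ≤ G then gnpW n p G else 0)
      = ∑ G : SimpleGraph (Fin n), (fun W : Finset (Sym2 (Fin n)) =>
          if edgF G' ⊆ W then bern (edgF (⊤ : SimpleGraph (Fin n))) p W else 0) (edgF G) := by
    refine Finset.sum_congr rfl (fun G _ => ?_)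
    beta_reduce
    by_cases h : G' ≤ G
    · rw [if_pos h, if_pos ((edgF_subset_iff G' G).2 h), gnpW_eq_bern]
    · rw [if_neg h, if_neg (fun h' => h ((edgF_subset_iff G' G).1 h'))]
  rw [h1, sum_graphs (fun W : Finset (Sym2 (Fin n)) =>
          if edgF G' ⊆ W then bern (edgF (⊤ : SimpleGraph (Fin n))) p W else 0),
    ← Finset.sum_filter, sum_bern_superset _ _ ((edgF_subset_iff G' ⊤).2 le_top), card_edgF]

lemma ncard_edgeSet_of_iso {n : ℕ} {G' F : SimpleGraph (Fin n)} (φ : G' ≃g F) :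
    G'.edgeSet.ncard = F.edgeSet.ncard := by
  rw [← Nat.card_coe_set_eq, ← Nat.card_coe_set_eq]
  exact Nat.card_congr φ.mapEdgeSet

/-- `∑_G w(G) |{G' ≤ G, G' ≅ F}| = ∑_{G' ≅ F} ∑_{G ≥ G'} w(G) = ∑_{G' ≅ F} p^{e(G')}` and
`e(G') = e(F)`. -/
lemma expN_eq (n : ℕ) (F : SimpleGraph (Fin n)) (p : ℝ) :
    expN n F p = (copies ⊤ F : ℝ) * p ^ F.edgeSet.ncard := by
  unfold expN
  rw [copies_eq_sum ⊤ F, Finset.sum_mul]
  simp_rw [copies_eq_sum _ F, Finset.mul_sum]
  rw [Finset.sum_comm]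
  refine Finset.sum_congr rfl (fun G' _ => ?_)
  by_cases h : Nonempty (G' ≃g F)
  · obtain ⟨φ⟩ := h
    rw [if_pos ⟨le_top, ⟨φ⟩⟩, one_mul, ← ncard_edgeSet_of_iso φ, ← sum_gnpW_ge G' p]
    refine Finset.sum_congr rfl (fun G _ => ?_)
    by_cases h2 : G' ≤ G
    · rw [if_pos ⟨h2, ⟨φ⟩⟩, if_pos h2, mul_one]
    · rw [if_neg (fun h3 => h2 h3.1), if_neg h2, mul_zero]
  · rw [if_neg (fun h3 => h h3.2), zero_mul]
    refine Finset.sum_eq_zero (fun G _ => ?_)
    rw [if_neg (fun h3 => h h3.2), mul_zero]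

lemma one_le_copies_top {n : ℕ} (F : SimpleGraph (Fin n)) : 1 ≤ copies ⊤ F := by
  unfold copies
  rw [Nat.succ_le_iff, Set.ncard_pos (Set.toFinite _)]
  exact ⟨F, le_top, ⟨SimpleGraph.Iso.refl⟩⟩

end Vale.Agent.P064F
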