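import Vale.Agent.P064F.Defs

/-! # P064F leaf: small facts on copies and supports -/

namespace Vale.Agent.P064F

open Finset Vale.Agent.P064

variable {V : Type} [Fintype V] [DecidableEq V]

lemma copies_le_top (H F : SimpleGraph V) : copies H F ≤ copies ⊤ F := by
  unfold copies
  apply Set.ncard_le_ncard _ (Set.toFinite _)
  intro G hG
  exact ⟨le_top, hG.2⟩

/-- Every non-isolated vertex is an end of an edge. -/
lemma supp_card_le (F : SimpleGraph V) : (suppF F).card ≤ 2 * F.edgeSet.ncard := by
  classical
  have h1 : ∑ v, F.degree v = 2 * #F.edgeFinset := F.sum_degrees_eq_twice_card_edges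
  have h2 : F.edgeSet.ncard = #F.edgeFinset := by
    rw [← SimpleGraph.coe_edgeFinset, Set.ncard_coe_finset]
  rw [h2, ← h1]
  calc (suppF F).card = ∑ v ∈ suppF F, 1 := by simp
    _ ≤ ∑ v ∈ suppF F, F.degree v := by
        apply Finset.sum_le_sum
        intro v hv
        have hv' : ∃ b, F.Adj v b := by
          have := hv
          unfold suppF at this
          simpa using this
        obtain ⟨b, hb⟩ := hv'
        have : 0 < F.degree v := by
          rw [SimpleGraph.degree_pos_iff_exists_adj]
          exact ⟨b, hb⟩
        omega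
    _ ≤ ∑ v, F.degree v := by
        apply Finset.sum_le_sum_of_subset
        exact Finset.subset_univ _

/-- If `q = 0` the hypothesis applied to `H` itself shows that `H` has no edge. -/
lemma PiSet_empty_of_zero (H F : SimpleGraph V)
    (hyp : ∀ W : SimpleGraph V, W ≤ H → 1 ≤ (copies ⊤ W : ℝ) * (0 : ℝ) ^ W.edgeSet.ncard)
    (hF : 1 ≤ F.edgeSet.ncard) : PiSet F H = ∅ := by
  classical
  have hH : H.edgeSet.ncard = 0 := by
    by_contra hne
    have := hyp H le_rfl
    rw [zero_pow hne, mul_zero] at this
    linarith
  have hHe : H.edgeSet = ∅ := by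
    rwa [Set.ncard_eq_zero (Set.toFinite _)] at hH
  have hFne : F.edgeSet.Nonempty := by
    rw [← Set.ncard_pos (Set.toFinite _)]
    omega
  obtain ⟨e, he⟩ := hFne
  induction e using Sym2.ind with
  | _ a b =>
    have hab : F.Adj a b := by simpa using he
    rw [Finset.eq_empty_iff_forall_notMem]
    intro π hπ
    have hπ' : ∀ a b, F.Adj a b → H.Adj (π a) (π b) := by
      have := hπ
      unfold PiSet at this
      simpa using this
    have h3 : s(π a, π b) ∈ H.edgeSet := by
      simpa using hπ' a b hab
    rw [hHe] at h3
    exact h3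

end Vale.Agent.P064F
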