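import Vale.Agent.P064F.GnpDefs
import Vale.Agent.P064F.GnpTr
import Vale.Agent.P064F.GnpEx
import Vale.Agent.P064F.Orbit2

/-! # P064F leaf (phase 2): the three minima are attained -/

namespace Vale.Agent.P064F

open Finset Vale.Agent.P064

/-- `IsClosed.csInf_mem` and `csInf_le`. -/
lemma isLeast_sInf_of_closed (S : Set ℝ) (hc : IsClosed S) (hne : S.Nonempty)
    (hb : ∀ x ∈ S, 0 ≤ x) : IsLeast S (sInf S) := by
  have hbd : BddBelow S := ⟨0, fun x hx => hb x hx⟩
  exact ⟨hc.csInf_mem hne hbd, fun x hx => csInf_le hbd hx⟩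

lemma gnpW_continuous (n : ℕ) (G : SimpleGraph (Fin n)) : Continuous (fun p => gnpW n p G) := by
  unfold gnpW
  fun_prop

/-- A finite sum of polynomials in `p`. -/
lemma probHas_continuous (n : ℕ) (H : SimpleGraph (Fin n)) : Continuous (probHas n H) := by
  unfold probHas
  apply continuous_finsetSum
  intro G _
  split_ifs
  · exact gnpW_continuous n G
  · exact continuous_const

lemma expN_continuous (n : ℕ) (F : SimpleGraph (Fin n)) : Continuous (expN n F) := by
  unfold expN
  apply continuous_finsetSum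
  intro G _
  exact (gnpW_continuous n G).mul continuous_const

/-- At `p = 1` only the complete graph has positive weight, and it contains `H`
(`probHas_eq`, or directly). -/
lemma probHas_one (n : ℕ) (H : SimpleGraph (Fin n)) : probHas n H 1 = 1 := by
  rw [probHas_eq]
  have : failP (edgF (⊤ : SimpleGraph (Fin n))) 1 (univ.image (cpE H)) = 0 := by
    unfold failP
    apply Finset.sum_eq_zero
    intro W hW
    have hWE := Finset.mem_powerset.mp hW
    split_ifs with h
    · rfl
    · unfold bern
      have hne : W ≠ edgF (⊤ : SimpleGraph (Fin n)) := by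
        rintro rfl
        exact h ⟨cpE H 1, Finset.mem_image_of_mem _ (Finset.mem_univ _), (cpE_prop H 1).1⟩
      have hlt : W.card < (edgF (⊤ : SimpleGraph (Fin n))).card :=
        Finset.card_lt_card (Finset.ssubset_iff_subset_ne.mpr ⟨hWE, hne⟩)
      have : (edgF (⊤ : SimpleGraph (Fin n))).card - W.card ≠ 0 := by omega
      simp [this]
  rw [this]; ring

lemma pC_isLeast (n : ℕ) (H : SimpleGraph (Fin n)) :
    IsLeast {p : ℝ | 0 ≤ p ∧ p ≤ 1 ∧ 1 / 2 ≤ probHas n H p} (pC n H) := by
  apply isLeast_sInf_of_closed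
  · have h1 : IsClosed {p : ℝ | 0 ≤ p} := isClosed_le continuous_const continuous_id
    have h2 : IsClosed {p : ℝ | p ≤ 1} := isClosed_le continuous_id continuous_const
    have h3 : IsClosed {p : ℝ | 1 / 2 ≤ probHas n H p} :=
      isClosed_le continuous_const (probHas_continuous n H)
    exact h1.inter (h2.inter h3)
  · exact ⟨1, zero_le_one, le_rfl, by rw [probHas_one]; norm_num⟩
  · exact fun x hx => hx.1

/-- Nonempty: `p = 1`, by `expN_eq` and `one_le_copies_top`. -/
lemma pE_isLeast (n : ℕ) (H : SimpleGraph (Fin n)) :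
    IsLeast {p : ℝ | 0 ≤ p ∧ p ≤ 1 ∧ ∀ F : SimpleGraph (Fin n), F ≤ H → 1 / 2 ≤ expN n F p}
      (pE n H) := by
  apply isLeast_sInf_of_closed
  · have h1 : IsClosed {p : ℝ | 0 ≤ p} := isClosed_le continuous_const continuous_id
    have h2 : IsClosed {p : ℝ | p ≤ 1} := isClosed_le continuous_id continuous_const
    have h3 : IsClosed {p : ℝ | ∀ F : SimpleGraph (Fin n), F ≤ H → 1 / 2 ≤ expN n F p} := by
      simp only [Set.ofPred_forall]
      exact isClosed_iInter fun F => isClosed_iInter fun _ =>
        isClosed_le continuous_const (expN_continuous n F)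
    exact h1.inter (h2.inter h3)
  · refine ⟨1, zero_le_one, le_rfl, fun F _ => ?_⟩
    rw [expN_eq, one_pow, mul_one]
    have : (1 : ℝ) ≤ (copies ⊤ F : ℝ) := by exact_mod_cast one_le_copies_top F
    linarith
  · exact fun x hx => hx.1

/-- Nonempty: `p = 1`, by `expN_eq` and `copies_le_top`. -/
lemma pEt_isLeast (n : ℕ) (H : SimpleGraph (Fin n)) :
    IsLeast {p : ℝ | 0 ≤ p ∧ p ≤ 1 ∧
      ∀ F : SimpleGraph (Fin n), F ≤ H → (copies H F : ℝ) / 2 ≤ expN n F p} (pEt n H) := by
  apply isLeast_sInf_of_closed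
  · have h1 : IsClosed {p : ℝ | 0 ≤ p} := isClosed_le continuous_const continuous_id
    have h2 : IsClosed {p : ℝ | p ≤ 1} := isClosed_le continuous_id continuous_const
    have h3 : IsClosed {p : ℝ | ∀ F : SimpleGraph (Fin n), F ≤ H →
        (copies H F : ℝ) / 2 ≤ expN n F p} := by
      simp only [Set.ofPred_forall]
      exact isClosed_iInter fun F => isClosed_iInter fun _ =>
        isClosed_le continuous_const (expN_continuous n F)
    exact h1.inter (h2.inter h3)
  · refine ⟨1, zero_le_one, le_rfl, fun F _ => ?_⟩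
    rw [expN_eq, one_pow, mul_one]
    have h : (copies H F : ℝ) ≤ (copies ⊤ F : ℝ) := by exact_mod_cast copies_le_top H F
    have h0 : (0 : ℝ) ≤ (copies H F : ℝ) := by positivity
    linarith
  · exact fun x hx => hx.1

end Vale.Agent.P064F
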