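import Vale.Agent.P064F.Defs

/-! # P064F leaf: every finite forest has a rooting -/

namespace Vale.Agent.P064F

open Finset

variable {V : Type} [Fintype V] [DecidableEq V]

/-- Choose a root in every connected component (`SimpleGraph.ConnectedComponent.out` or
`Quot.out`), let `dep v` be the length of the unique path from `v` to the root of its component and
let `par v` be the second vertex of that path (`par v = v` for roots).  In an acyclic graph paths
are unique, so for adjacent `a, b` one of them is the parent of the other. -/
theorem exists_rooting (H : SimpleGraph V) (hH : H.IsAcyclic) : Nonempty (Rooting H) := by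
  classical
  let root : V → V := fun v => (H.connectedComponentMk v).out
  have hroot : ∀ v, H.Reachable v (root v) := by
    intro v
    have h1 : H.connectedComponentMk (root v) = H.connectedComponentMk v := Quot.out_eq _
    exact (SimpleGraph.ConnectedComponent.exact h1).symm
  have hroot_adj : ∀ a b, H.Adj a b → root a = root b := by
    intro a b hab
    have h1 : H.connectedComponentMk a = H.connectedComponentMk b :=
      SimpleGraph.ConnectedComponent.sound hab.reachable
    simp only [root, h1]
  have hp : ∀ v, ∃ p : H.Walk v (root v), p.IsPath := by
    intro v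
    obtain ⟨p⟩ := hroot v
    exact ⟨p.toPath.1, p.toPath.2⟩
  choose p hpp using hp
  have huniq : ∀ v r, r = root v → ∀ q : H.Walk v r, q.IsPath →
      q.length = (p v).length ∧ q.snd = (p v).snd := by
    intro v r hr q hq
    subst hr
    have h1 : q = p v :=
      Subtype.mk.inj <| (hH.subsingleton_path v (root v)).elim ⟨q, hq⟩ ⟨p v, hpp v⟩
    rw [h1]
    exact ⟨rfl, rfl⟩
  have hnil : ∀ (v r : V) (q : H.Walk v r), q.Nil → q.snd = v := by
    intro v r q hq
    cases hq
    rfl
  have hnn : ∀ v, (p v).snd ≠ v → ¬ (p v).Nil := fun v hv hn => hv (hnil v _ _ hn)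
  have hadj_snd : ∀ v, (p v).snd ≠ v → H.Adj v (p v).snd := fun v hv =>
    SimpleGraph.Walk.adj_snd (hnn v hv)
  refine ⟨⟨fun v => (p v).snd, fun v => (p v).length, ?_, ?_⟩⟩
  · intro a b
    constructor
    · intro hab
      refine ⟨hab.ne, ?_⟩
      by_cases hb : b ∈ (p a).support
      · left
        exact (hH.eq_snd_of_adj_start (hpp a) hab hb).symm
      · right
        have h1 : (SimpleGraph.Walk.cons hab.symm (p a)).IsPath :=
          (hpp a).cons hb
        have h2 := (huniq b (root a) (hroot_adj a b hab) _ h1).2
        rw [← h2]
        simp
    · rintro ⟨hne, h | h⟩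
      · have := hadj_snd a (by rw [h]; exact hne.symm)
        rwa [h] at this
      · have := hadj_snd b (by rw [h]; exact hne)
        rw [h] at this
        exact this.symm
  · intro v hv
    have hadj := hadj_snd v hv
    have h1 := (huniq (p v).snd (root v) (hroot_adj _ _ hadj) (p v).tail (hpp v).tail).1
    have h2 := (p v).length_tail_add_one (hnn v hv)
    change (p v).length = (p (p v).snd).length + 1
    omega

end Vale.Agent.P064F
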