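import Vale.Agent.P064F.Defs
import Vale.Agent.P064F.GnpDefs
import Vale.Agent.P064F.GnpTr
import Vale.Agent.P064F.Edges
import Vale.Agent.P064F.Root

/-! # P064F leaf (phase 2): the copies of a forest form a spread family -/

namespace Vale.Agent.P064F

open Finset Vale.Agent.P064

/-- If `S` contains a loop the left side is `0`.  Otherwise let `F = SimpleGraph.fromEdgeSet S`, with
`e(F) = |S|`; then `S ⊆ cpE H π` iff `π⁻¹ ∈ PiSet F H`, so the left side is `|PiSet F H|`.  For `S = ∅`
use `|Perm| = n!`. -/
lemma spread_of_PiSet {n : ℕ} (H : SimpleGraph (Fin n)) (κ : ℝ) (hκ : 0 ≤ κ)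
    (hP : ∀ F : SimpleGraph (Fin n), 1 ≤ F.edgeSet.ncard →
      ((PiSet F H).card : ℝ) ≤ ((Fintype.card (Fin n)).factorial : ℝ) * κ ^ F.edgeSet.ncard)
    (S : Finset (Sym2 (Fin n))) :
    ((univ.filter fun π : Equiv.Perm (Fin n) => S ⊆ cpE H π).card : ℝ) ≤
      κ ^ S.card * (Fintype.card (Equiv.Perm (Fin n)) : ℝ) := by
  classical
  rcases S.eq_empty_or_nonempty with rfl | hne
  · rw [Finset.card_empty, pow_zero, one_mul]
    exact_mod_cast Finset.card_le_univ _
  by_cases hS : S ⊆ edgF (⊤ : SimpleGraph (Fin n))
  · obtain ⟨F, hF⟩ : ∃ F : SimpleGraph (Fin n),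
        F = SimpleGraph.fromEdgeSet (S : Set (Sym2 (Fin n))) := ⟨_, rfl⟩
    have hFS : edgF F = S := by rw [hF]; exact edgF_fromEdgeSet S hS
    have hcard : F.edgeSet.ncard = S.card := by rw [← card_edgF, hFS]
    have h1 : 1 ≤ F.edgeSet.ncard := by
      rw [hcard]; exact Finset.card_pos.2 hne
    have hle : (univ.filter fun π : Equiv.Perm (Fin n) => S ⊆ cpE H π).card ≤ (PiSet F H).card := by
      apply Finset.card_le_card_of_injOn (fun π => π.symm)
      · intro π hπ
        have hπ' : S ⊆ cpE H π := by simpa using hπ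
        have hgoal : ∀ a b, F.Adj a b → H.Adj (π.symm a) (π.symm b) := by
          intro a b hab
          have hmem : s(a, b) ∈ S := by
            rw [← hFS, mem_edgF]; exact hab
          have h2 := hπ' hmem
          unfold cpE at h2
          obtain ⟨e', he', hmap⟩ := Finset.mem_image.1 h2
          rw [mem_edgF] at he'
          have h3 : e' = s(π.symm a, π.symm b) := by
            apply Sym2.map.injective π.injective
            rw [hmap, Sym2.map_mk, Equiv.apply_symm_apply, Equiv.apply_symm_apply]
          rw [h3] at he'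
          exact he'
        unfold PiSet
        simpa using hgoal
      · intro π _ π' _ h
        exact Equiv.symm_bijective.injective h
    calc ((univ.filter fun π : Equiv.Perm (Fin n) => S ⊆ cpE H π).card : ℝ)
        ≤ ((PiSet F H).card : ℝ) := by exact_mod_cast hle
      _ ≤ ((Fintype.card (Fin n)).factorial : ℝ) * κ ^ F.edgeSet.ncard := hP F h1
      _ = κ ^ S.card * (Fintype.card (Equiv.Perm (Fin n)) : ℝ) := by
          rw [hcard, Fintype.card_perm, mul_comm]
  · have hempty : (univ.filter fun π : Equiv.Perm (Fin n) => S ⊆ cpE H π) = ∅ := by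
      rw [Finset.filter_eq_empty_iff]
      intro π _ hπ
      exact hS (hπ.trans (cpE_prop H π).1)
    rw [hempty, Finset.card_empty, Nat.cast_zero]
    positivity

/-- A forest on `n` vertices has at most `n` edges: `edges_add_tops` with `F = H`, `π = 1`
(and `exists_rooting`), or any Mathlib fact on acyclic graphs. -/
lemma acyclic_edges_le {n : ℕ} (H : SimpleGraph (Fin n)) (hH : H.IsAcyclic) :
    H.edgeSet.ncard ≤ n := by
  classical
  obtain ⟨R⟩ := exists_rooting H hH
  have hmem : (1 : Equiv.Perm (Fin n)) ∈ PiSet H H := by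
    unfold PiSet
    simp
  have h := edges_add_tops H R H 1 hmem
  have h2 : (suppF H).card ≤ n := by
    calc (suppF H).card ≤ (univ : Finset (Fin n)).card := Finset.card_le_univ _
      _ = n := by simp
  omega

end Vale.Agent.P064F
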