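import Vale.Agent.P064F.Defs

/-! # P064F leaf: numerical estimates for one step -/

namespace Vale.Agent.P064F

open Finset

variable {V T : Type} [Fintype V] [DecidableEq V] [DecidableEq T]

lemma wL_pos (J : ℤ) (i : ℕ) : 0 < wL J i := by
  unfold wL
  positivity

lemma zJ_pos (J : ℤ) : 0 < zJ J := by
  unfold zJ
  positivity

lemma wL_eq (J : ℤ) (i : ℕ) : 2 * zJ J * (2 : ℝ) ^ i = wL J i := by
  unfold wL zJ
  have h : (2 : ℝ) ^ ((i : ℤ) - J) = (2 : ℝ) ^ (-J) * (2 : ℝ) ^ i := by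
    rw [sub_eq_add_neg, zpow_add₀ (two_ne_zero), zpow_natCast, mul_comm]
  rw [h]
  ring

lemma dl_nonneg (s : St V T) (hmu : ∀ t, 0 ≤ s.mu t) (δ : ℝ) (hδ : 0 ≤ δ) (i : ℕ) :
    0 ≤ s.dl δ i := by
  unfold St.dl
  exact mul_nonneg hδ (Finset.sum_nonneg fun t _ => hmu t)

lemma al_nonneg (s : St V T) (hmu : ∀ t, 0 ≤ s.mu t) (δ : ℝ) (hδ : 0 ≤ δ) (J : ℤ) (i : ℕ) :
    0 ≤ s.al δ J i := by
  unfold St.al
  have := dl_nonneg s hmu δ hδ i
  positivity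

/-- `∑_i w_i d_i = δ ∑_t w_{lev t} mu t = 2 z δ ∑_t 2^{lev t} mu t ≤ 4 z δ`
(`Finset.sum_fiberwise_of_maps_to` / `Finset.sum_image'`). -/
lemma sum_wd_le (s : St V T) (ch : V → Finset V) (J : ℤ) (h : ℕ) (hs : GoodC s ch J h) (δ : ℝ)
    (hδ : 0 ≤ δ) :
    ∑ i ∈ (univ.image s.wit).image s.lev, wL J i * s.dl δ i ≤ 4 * (zJ J * δ) := by
  have h1 : ∑ i ∈ (univ.image s.wit).image s.lev, wL J i * s.dl δ i
      = ∑ t ∈ univ.image s.wit, (2 * zJ J * δ) * ((2 : ℝ) ^ s.lev t * s.mu t) := by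
    rw [← Finset.sum_fiberwise_of_maps_to (s := univ.image s.wit)
      (t := (univ.image s.wit).image s.lev) (g := s.lev)
      (fun t ht => Finset.mem_image_of_mem _ ht)]
    apply Finset.sum_congr rfl
    intro i _
    unfold St.dl
    rw [← mul_assoc, Finset.mul_sum]
    apply Finset.sum_congr rfl
    intro t ht
    rw [(Finset.mem_filter.mp ht).2, ← wL_eq]
    ring
  rw [h1, ← Finset.mul_sum]
  have h2 : 0 ≤ 2 * zJ J * δ := by
    have := zJ_pos J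
    positivity
  calc 2 * zJ J * δ * ∑ t ∈ univ.image s.wit, (2 : ℝ) ^ s.lev t * s.mu t
      ≤ 2 * zJ J * δ * 2 := mul_le_mul_of_nonneg_left hs.sum_le h2
    _ = 4 * (zJ J * δ) := by ring

end Vale.Agent.P064F
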