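import Vale.Agent.P064F.Defs

/-! # P064F leaf: orbit counting -/

namespace Vale.Agent.P064F

open Finset Vale.Agent.P064

variable {V : Type} [Fintype V] [DecidableEq V]

/-- The image of `F` under a permutation. -/
private def img (F : SimpleGraph V) (π : Equiv.Perm V) : SimpleGraph V :=
  SimpleGraph.comap (⇑π.symm) F

private lemma img_adj (F : SimpleGraph V) (π : Equiv.Perm V) (x y : V) :
    (img F π).Adj x y ↔ F.Adj (π.symm x) (π.symm y) := Iff.rfl

private lemma iso_iff (F G : SimpleGraph V) :
    Nonempty (G ≃g F) ↔ ∃ π : Equiv.Perm V, img F π = G := by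
  constructor
  · rintro ⟨e⟩
    refine ⟨e.toEquiv.symm, ?_⟩
    ext x y
    rw [img_adj]
    exact e.map_rel_iff
  · rintro ⟨π, rfl⟩
    exact ⟨⟨π.symm, Iff.rfl⟩⟩

private lemma mem_PiSet_iff (F H : SimpleGraph V) (π : Equiv.Perm V) :
    π ∈ PiSet F H ↔ img F π ≤ H := by
  unfold PiSet
  simp only [mem_filter, mem_univ, true_and]
  constructor
  · intro h x y hxy
    rw [img_adj] at hxy
    have := h _ _ hxy
    simpa using this
  · intro h a b hab
    apply h
    rw [img_adj]
    simpa using hab

private lemma img_mul_eq_iff (F : SimpleGraph V) (π0 σ : Equiv.Perm V) :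
    img F (π0 * σ) = img F π0 ↔ img F σ = F := by
  constructor
  · intro h
    ext a b
    have h1 : (img F (π0 * σ)).Adj (π0 a) (π0 b) ↔ (img F π0).Adj (π0 a) (π0 b) := by rw [h]
    rw [img_adj, img_adj] at h1
    rw [img_adj]
    simpa [Equiv.Perm.mul_def, Equiv.symm_trans_apply] using h1
  · intro h
    ext x y
    have h1 : (img F σ).Adj (π0.symm x) (π0.symm y) ↔ F.Adj (π0.symm x) (π0.symm y) := by rw [h]
    rw [img_adj] at h1
    rw [img_adj, img_adj]
    simpa [Equiv.Perm.mul_def, Equiv.symm_trans_apply] using h1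

open Classical in
private lemma card_PiSet (F H : SimpleGraph V) :
    (PiSet F H).card =
      copies H F * (univ.filter fun σ : Equiv.Perm V => img F σ = F).card := by
  haveI : Fintype (SimpleGraph V) := Fintype.ofFinite _
  set T : Finset (SimpleGraph V) := univ.filter fun G => G ≤ H ∧ Nonempty (G ≃g F) with hT
  have hcop : copies H F = T.card := by
    unfold copies
    rw [← Set.ncard_coe_finset T]
    apply congrArg
    ext G
    simp [hT]
  have hmaps : ∀ π ∈ PiSet F H, img F π ∈ T := by
    intro π hπ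
    rw [hT, mem_filter]
    exact ⟨mem_univ _, (mem_PiSet_iff F H π).1 hπ, (iso_iff F _).2 ⟨π, rfl⟩⟩
  rw [Finset.card_eq_sum_card_fiberwise hmaps, hcop]
  rw [Finset.sum_const_nat (m := (univ.filter fun σ : Equiv.Perm V => img F σ = F).card)]
  intro G hG
  rw [hT, mem_filter] at hG
  obtain ⟨π0, hπ0⟩ := (iso_iff F G).1 hG.2.2
  symm
  apply Finset.card_bij (fun σ _ => π0 * σ)
  · intro σ hσ
    rw [mem_filter] at hσ
    have h1 : img F (π0 * σ) = G := by
      rw [(img_mul_eq_iff F π0 σ).2 hσ.2, hπ0]
    rw [mem_filter]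
    refine ⟨(mem_PiSet_iff F H _).2 ?_, h1⟩
    rw [h1]
    exact hG.2.1
  · intro σ _ τ _ h
    exact mul_left_cancel h
  · intro π hπ
    rw [mem_filter] at hπ
    refine ⟨π0⁻¹ * π, ?_, by simp⟩
    rw [mem_filter]
    refine ⟨mem_univ _, ?_⟩
    rw [← img_mul_eq_iff F π0]
    rw [mul_inv_cancel_left, hπ.2, hπ0]

private lemma PiSet_top (F : SimpleGraph V) : PiSet F ⊤ = univ := by
  ext π
  rw [mem_PiSet_iff]
  simp

/-- Let `s` be the number of permutations `π` with `F.map π = F`.  For every `G` isomorphic to `F`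
there are exactly `s` permutations with `F.map π = G` (an isomorphism `G ≃g F` is a permutation of
`V`).  Hence `|PiSet F H| = s * copies H F` and `n! = s * copies ⊤ F`. -/
lemma orbit_count (H F : SimpleGraph V) :
    copies H F * (Fintype.card V).factorial = copies ⊤ F * (PiSet F H).card := by
  classical
  have h1 := card_PiSet F H
  have h2 := card_PiSet F ⊤
  rw [PiSet_top, Finset.card_univ, Fintype.card_perm] at h2
  rw [h1, h2]
  ring

end Vale.Agent.P064F
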