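import Vale.Agent.P064F.Defs

/-! # P064F leaf: the initial stage -/

namespace Vale.Agent.P064F

open Finset

variable {V : Type} [Fintype V] [DecidableEq V]

lemma initC (ch : V → Finset V) (J : ℤ) : GoodC (St.init V) ch J 0 := by
  refine ⟨?_, ?_, ?_⟩
  · intro t
    simp [St.init]
  · intro x
    simp [St.init, Y]
  · have hsub : (univ.image (St.init V).wit) ⊆ ({()} : Finset Unit) := by
      intro t _
      simp
    calc ∑ t ∈ univ.image (St.init V).wit, (2 : ℝ) ^ (St.init V).lev t * (St.init V).mu t
        ≤ ∑ t ∈ ({()} : Finset Unit), (2 : ℝ) ^ (St.init V).lev t * (St.init V).mu t := by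
          apply Finset.sum_le_sum_of_subset_of_nonneg hsub
          intro t _ _
          simp [St.init]
      _ ≤ 2 := by simp [St.init]

lemma initB (par : V → V) (dep : V → ℕ) (q : ℝ) : GoodB (St.init V) par dep q := by
  classical
  refine ⟨?_, ?_, ?_, ?_, ?_, ?_⟩
  · intro t
    simp [St.init]
  · intro t
    have hcard : ((St.init V).RS t).card ≤ Fintype.card V := by
      have : ((St.init V).RS t).card ≤ (univ : Finset V).card := by
        apply Finset.card_le_card_of_injOn (fun R => R.1)
        · intro R _
          simp
        · intro R hR R' hR' h
          have h1 : R.2 = ∅ := by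
            have := hR
            simp only [St.init, coe_filter, mem_univ, true_and, Set.mem_ofPred_eq] at this
            exact this
          have h2 : R'.2 = ∅ := by
            have := hR'
            simp only [St.init, coe_filter, mem_univ, true_and, Set.mem_ofPred_eq] at this
            exact this
          exact Prod.ext h (h1.trans h2.symm)
      simpa using this
    have : (((St.init V).RS t).card : ℝ) ≤ (Fintype.card V : ℝ) := by exact_mod_cast hcard
    simpa [St.init] using this
  · intro π t R hR
    have h1 : R.2 = ∅ := by
      simpa [St.init] using hR
    simp [St.init, Rl.mapP, h1]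
  · intro x
    simp [St.init]
  · intro x
    simp [St.init]
  · intro x v hv
    simp [St.init] at hv

end Vale.Agent.P064F
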