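import Vale.Agent.P064F.Defs

/-! # P064F leaf: the multiset weight `D` -/

namespace Vale.Agent.P064F

open Finset

variable {T : Type} [DecidableEq T]

lemma D_nonneg (p : T → ℝ) (hp : ∀ t, 0 ≤ p t) (S : Multiset T) : 0 ≤ D p S := by
  unfold D
  refine div_nonneg (Multiset.prod_nonneg ?_) (by positivity)
  intro a ha
  obtain ⟨t, -, rfl⟩ := Multiset.mem_map.1 ha
  exact hp t

lemma D_zero (p : T → ℝ) : D p 0 = 1 := by
  simp [D]

lemma countPerms_spec (S : Multiset T) :
    (∏ t ∈ S.toFinset, (S.count t).factorial) * S.countPerms = S.card.factorial := by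
  have h := Nat.multinomial_spec S.toFinset (fun t => S.count t)
  rw [Multiset.toFinset_sum_count_eq] at h
  rw [← h]
  congr 1

lemma D_eq (p : T → ℝ) (S : Multiset T) :
    D p S = (S.countPerms : ℝ) * (S.map p).prod / (S.card.factorial : ℝ) := by
  unfold D
  have h : ((∏ t ∈ S.toFinset, ((S.count t).factorial : ℝ))) * (S.countPerms : ℝ)
      = (S.card.factorial : ℝ) := by
    exact_mod_cast countPerms_spec S
  have h1 : (0 : ℝ) < ∏ t ∈ S.toFinset, ((S.count t).factorial : ℝ) :=
    Finset.prod_pos fun t _ => by positivity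
  have h2 : (0 : ℝ) < (S.card.factorial : ℝ) := by positivity
  rw [div_eq_div_iff h1.ne' h2.ne', ← h]
  ring

/-- `D p S = multinomial S / (card S)! * ∏ p`; see `Multiset.multinomial`, `Nat.multinomial_spec`
and `Finset.sum_pow` (`s.sum x ^ n = ∑ k ∈ s.sym n, k.val.multinomial * (k.val.map x).prod`).
The multisets in `P` are distinct elements of `Θ.sym M`. -/
lemma D_sum_le (Θ : Finset T) (p : T → ℝ) (hp : ∀ t, 0 ≤ p t) (M : ℕ)
    (P : Finset (Multiset T)) (hP : ∀ S ∈ P, S.card = M ∧ ∀ t ∈ S, t ∈ Θ) :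
    ∑ S ∈ P, D p S ≤ (∑ t ∈ Θ, p t) ^ M / (M.factorial : ℝ) := by
  classical
  have h1 : ∑ S ∈ P, D p S
      = (∑ S ∈ P, (S.countPerms : ℝ) * (S.map p).prod) / (M.factorial : ℝ) := by
    rw [Finset.sum_div]
    refine Finset.sum_congr rfl fun S hS => ?_
    rw [D_eq, (hP S hS).1]
  rw [h1]
  refine div_le_div_of_nonneg_right ?_ (by positivity)
  rw [Finset.sum_pow]
  have h2 : ∑ k ∈ Θ.sym M, ((k.val.countPerms : ℕ) : ℝ) * (k.val.map p).prod
      = ∑ S ∈ (Θ.sym M).image (fun k : Sym T M => k.val),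
          (S.countPerms : ℝ) * (S.map p).prod := by
    rw [Finset.sum_image]
    intro a _ b _ hab
    exact Subtype.ext hab
  rw [h2]
  refine Finset.sum_le_sum_of_subset_of_nonneg ?_ ?_
  · intro S hS
    rw [Finset.mem_image]
    refine ⟨Sym.mk S (hP S hS).1, ?_, rfl⟩
    rw [Finset.mem_sym_iff]
    intro a ha
    exact (hP S hS).2 a ha
  · intro S _ _
    refine mul_nonneg (Nat.cast_nonneg _) (Multiset.prod_nonneg ?_)
    intro a ha
    obtain ⟨t, -, rfl⟩ := Multiset.mem_map.1 ha
    exact hp t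

/-- A multiset is the sum of its level classes. -/
lemma sum_filter_lev (lev : T → ℕ) (I : Finset ℕ) (S : Multiset T) (hI : ∀ t ∈ S, lev t ∈ I) :
    S = ∑ i ∈ I, S.filter fun t => lev t = i := by
  ext t
  rw [Multiset.count_sum']
  simp only [Multiset.count_filter]
  rw [Finset.sum_ite_eq]
  split_ifs with h
  · rfl
  · rw [Multiset.count_eq_zero]
    exact fun ht => h (hI t ht)

/-- `D` factorizes over the level classes. -/
lemma D_filter_prod (p : T → ℝ) (lev : T → ℕ) (I : Finset ℕ) (S : Multiset T)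
    (hI : ∀ t ∈ S, lev t ∈ I) :
    D p S = ∏ i ∈ I, D p (S.filter fun t => lev t = i) := by
  unfold D
  rw [Finset.prod_div_distrib]
  congr 1
  · conv_lhs => rw [sum_filter_lev lev I S hI]
    rw [← Multiset.prod_sum]
    congr 1
    exact map_sum (Multiset.mapAddMonoidHom p) _ _
  · rw [← Finset.prod_fiberwise_of_maps_to (s := S.toFinset) (t := I) (g := lev)
      (fun t ht => hI t (Multiset.mem_toFinset.1 ht))]
    refine Finset.prod_congr rfl fun i _ => ?_
    rw [Multiset.toFinset_filter]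
    refine Finset.prod_congr rfl fun t ht => ?_
    rw [Multiset.count_filter_of_pos (p := fun t => lev t = i) (Finset.mem_filter.1 ht).2]

end Vale.Agent.P064F
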