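import Vale.Agent.P064F.Defs

/-! # P064F leaf: counting the realizations of a multiset of types -/

namespace Vale.Agent.P064F

open Finset

variable {V T : Type} [Fintype V] [DecidableEq V] [DecidableEq T]

/-- A realization with root r and edge set E in `RSN S` is determined by `r` and by the restriction of `g` to
`S.toFinset`, where `g t` is a subset of `RS t` of size `count t S`
(`Finset.card_powersetCard`, `Finset.card_pi`). -/
lemma card_RSN_le (s : St V T) (S : Multiset T) :
    (s.RSN S).card ≤ Fintype.card V * ∏ t ∈ S.toFinset, ((s.RS t).card).choose (S.count t) := by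
  classical
  let P : Finset (V × (∀ t ∈ S.toFinset, Finset (Rl V))) :=
    univ ×ˢ (S.toFinset.pi fun t => powersetCard (S.count t) (s.RS t))
  let F : (V × (∀ t ∈ S.toFinset, Finset (Rl V))) → Rl V := fun p =>
    (p.1, S.toFinset.biUnion fun t => if h : t ∈ S.toFinset then
        (p.2 t h).biUnion fun c => insert s(p.1, c.1) c.2 else ∅)
  have hsub : s.RSN S ⊆ P.image F := by
    intro R hR
    simp only [St.RSN, mem_filter, mem_univ, true_and] at hR
    obtain ⟨g, hg, hR2⟩ := hR
    refine mem_image.2 ⟨(R.1, fun t _ => g t), ?_, ?_⟩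
    · simp only [P, mem_product, mem_univ, true_and, mem_pi, mem_powersetCard]
      exact fun t _ => hg t
    · refine Prod.ext rfl ?_
      simp only [F]
      rw [hR2]
      refine biUnion_congr rfl (fun t ht => ?_)
      rw [dif_pos ht]
  calc (s.RSN S).card ≤ (P.image F).card := card_le_card hsub
    _ ≤ P.card := card_image_le
    _ = Fintype.card V * ∏ t ∈ S.toFinset, ((s.RS t).card).choose (S.count t) := by
        simp only [P, card_product, card_pi, card_powersetCard, card_univ]

/-- From `card_RSN_le`, `Nat.choose_le_pow_div` (`C(R,k) ≤ R^k / k!`) and the bound for `RS t`: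
with `ec' S = ∑_{t ∈ S} (ec t + 1)`,
`|RSN S| (2q)^{ec' S} ≤ n ∏_t (|RS t| (2q)^{ec t + 1})^{count} / count! ≤ n ∏_t (2 q n mu t)^{count} / count!`. -/
lemma card_RS_next (s : St V T) (q : ℝ) (hq : 0 ≤ q) (hmu : ∀ t, 0 ≤ s.mu t)
    (hRS : ∀ t, ((s.RS t).card : ℝ) * (2 * q) ^ s.ec t ≤ (Fintype.card V : ℝ) * s.mu t)
    (S : Multiset T) :
    ((s.RSN S).card : ℝ) * (2 * q) ^ (S.map fun t => s.ec t + 1).sum ≤
      (Fintype.card V : ℝ) * D (fun t => 2 * (Fintype.card V : ℝ) * q * s.mu t) S := by
  have h2q : 0 ≤ 2 * q := by linarith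
  have h1 : ((s.RSN S).card : ℝ)
      ≤ (Fintype.card V : ℝ) * ∏ t ∈ S.toFinset, (((s.RS t).card).choose (S.count t) : ℝ) := by
    exact_mod_cast card_RSN_le s S
  have hpow : (2 * q) ^ (S.map fun t => s.ec t + 1).sum
      = ∏ t ∈ S.toFinset, ((2 * q) ^ (s.ec t + 1)) ^ S.count t := by
    rw [Finset.sum_multiset_map_count, ← Finset.prod_pow_eq_pow_sum]
    refine Finset.prod_congr rfl (fun t _ => ?_)
    rw [smul_eq_mul, mul_comm (S.count t), pow_mul]
  have hD : D (fun t => 2 * (Fintype.card V : ℝ) * q * s.mu t) S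
      = ∏ t ∈ S.toFinset, (2 * (Fintype.card V : ℝ) * q * s.mu t) ^ S.count t
          / ((S.count t).factorial : ℝ) := by
    rw [D, Finset.prod_multiset_map_count, Finset.prod_div_distrib]
  rw [hpow, hD]
  calc ((s.RSN S).card : ℝ) * ∏ t ∈ S.toFinset, ((2 * q) ^ (s.ec t + 1)) ^ S.count t
      ≤ ((Fintype.card V : ℝ) * ∏ t ∈ S.toFinset, (((s.RS t).card).choose (S.count t) : ℝ))
          * ∏ t ∈ S.toFinset, ((2 * q) ^ (s.ec t + 1)) ^ S.count t :=
        mul_le_mul_of_nonneg_right h1 (Finset.prod_nonneg (fun t _ => by positivity))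
    _ = (Fintype.card V : ℝ) * ∏ t ∈ S.toFinset,
          ((((s.RS t).card).choose (S.count t) : ℝ) * ((2 * q) ^ (s.ec t + 1)) ^ S.count t) := by
        rw [mul_assoc, ← Finset.prod_mul_distrib]
    _ ≤ (Fintype.card V : ℝ) * ∏ t ∈ S.toFinset,
          (2 * (Fintype.card V : ℝ) * q * s.mu t) ^ S.count t / ((S.count t).factorial : ℝ) := by
        refine mul_le_mul_of_nonneg_left ?_ (Nat.cast_nonneg _)
        refine Finset.prod_le_prod (fun t _ => by positivity) (fun t _ => ?_)
        have hc : (((s.RS t).card).choose (S.count t) : ℝ)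
            ≤ ((s.RS t).card : ℝ) ^ S.count t / ((S.count t).factorial : ℝ) :=
          Nat.choose_le_pow_div _ _
        have hf : (0 : ℝ) < ((S.count t).factorial : ℝ) := by
          exact_mod_cast Nat.factorial_pos _
        have hbase : ((s.RS t).card : ℝ) * (2 * q) ^ (s.ec t + 1)
            ≤ 2 * (Fintype.card V : ℝ) * q * s.mu t := by
          have := mul_le_mul_of_nonneg_right (hRS t) h2q
          calc ((s.RS t).card : ℝ) * (2 * q) ^ (s.ec t + 1)
              = ((s.RS t).card : ℝ) * (2 * q) ^ s.ec t * (2 * q) := by rw [pow_succ]; ring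
            _ ≤ (Fintype.card V : ℝ) * s.mu t * (2 * q) := this
            _ = 2 * (Fintype.card V : ℝ) * q * s.mu t := by ring
        calc (((s.RS t).card).choose (S.count t) : ℝ) * ((2 * q) ^ (s.ec t + 1)) ^ S.count t
            ≤ ((s.RS t).card : ℝ) ^ S.count t / ((S.count t).factorial : ℝ)
                * ((2 * q) ^ (s.ec t + 1)) ^ S.count t :=
              mul_le_mul_of_nonneg_right hc (by positivity)
          _ = (((s.RS t).card : ℝ) * (2 * q) ^ (s.ec t + 1)) ^ S.count t
                / ((S.count t).factorial : ℝ) := by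
              rw [mul_pow]; ring
          _ ≤ (2 * (Fintype.card V : ℝ) * q * s.mu t) ^ S.count t
                / ((S.count t).factorial : ℝ) := by
              refine div_le_div_of_nonneg_right ?_ hf.le
              exact pow_le_pow_left₀ (by positivity) hbase _

end Vale.Agent.P064F
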