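import Vale.Agent.P064F.Defs

/-! # P064F leaf: realizations are permutation invariant, and the host realizes its witness -/

namespace Vale.Agent.P064F

open Finset

variable {V T : Type} [Fintype V] [DecidableEq V] [DecidableEq T]

omit [Fintype V] in
lemma Rl.mapP_injective (π : Equiv.Perm V) : Function.Injective (Rl.mapP π) := by
  intro A B h
  have h1 : π A.1 = π B.1 := congrArg Prod.fst h
  have h2 : A.2.image (Sym2.map π) = B.2.image (Sym2.map π) := congrArg Prod.snd h
  have hinj : Function.Injective (Sym2.map π) := Sym2.map.injective π.injective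
  exact Prod.ext (π.injective h1) (Finset.image_injective hinj h2)

/-- Transport `g` by `π`: `g' t = (g t).image (Rl.mapP π)` (injective). -/
lemma RSN_perm (s : St V T)
    (hperm : ∀ (π : Equiv.Perm V) (t : T) (R : Rl V), R ∈ s.RS t → Rl.mapP π R ∈ s.RS t)
    (π : Equiv.Perm V) (S : Multiset T) (R : Rl V) (hR : R ∈ s.RSN S) :
    Rl.mapP π R ∈ s.RSN S := by
  classical
  unfold St.RSN at hR ⊢
  rw [mem_filter] at hR ⊢
  obtain ⟨-, g, hg, hR2⟩ := hR
  refine ⟨mem_univ _, fun t => (g t).image (Rl.mapP π), ?_, ?_⟩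
  · intro t
    constructor
    · intro c hc
      obtain ⟨c', hc', rfl⟩ := mem_image.mp hc
      exact hperm π t c' ((hg t).1 hc')
    · rw [card_image_of_injective _ (Rl.mapP_injective π)]
      exact (hg t).2
  · show R.2.image (Sym2.map π) = _
    rw [hR2]
    simp only [biUnion_image, image_biUnion, image_insert, Sym2.map_mk]
    rfl

/-- Take `g t = ((rc x).filter (wit · = t)).image fun y => (y, (RV y).image fun v => s(v, par v))`.
For `y ∈ rc x` we have `par y = x`. -/
lemma mem_RSN (s : St V T) (par : V → V) (rc : V → Finset V)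
    (hrc : ∀ x, rc x ⊆ chP par x)
    (hmem : ∀ x, (x, (s.RV x).image fun v => s(v, par v)) ∈ s.RS (s.wit x)) (x : V) :
    (x, ((rc x).biUnion fun y => insert y (s.RV y)).image fun v => s(v, par v)) ∈
      s.RSN ((rc x).val.map s.wit) := by
  classical
  have hpar : ∀ y ∈ rc x, par y = x := by
    intro y hy
    have := hrc x hy
    unfold chP at this
    exact (mem_filter.mp this).2.1
  unfold St.RSN
  rw [mem_filter]
  refine ⟨mem_univ _, fun t => ((rc x).filter (fun y => s.wit y = t)).image
    (fun y => ((y, (s.RV y).image fun v => s(v, par v)) : Rl V)), ?_, ?_⟩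
  · intro t
    constructor
    · intro c hc
      obtain ⟨y, hy, rfl⟩ := mem_image.mp hc
      have hy' := (mem_filter.mp hy).2
      rw [← hy']
      exact hmem y
    · rw [card_image_of_injective _ (fun a b h => congrArg Prod.fst h), Multiset.count_map]
      rw [Finset.card_def, Finset.filter_val]
      congr 1
      apply Multiset.filter_congr
      intro y _
      exact eq_comm
  · ext e
    simp only [mem_image, mem_biUnion, mem_insert, Multiset.mem_toFinset, Multiset.mem_map,
      Finset.mem_val, mem_filter]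
    constructor
    · rintro ⟨v, ⟨y, hy, hv⟩, rfl⟩
      refine ⟨s.wit y, ⟨y, hy, rfl⟩, _, ⟨y, ⟨hy, rfl⟩, rfl⟩, ?_⟩
      rcases hv with rfl | hv
      · left
        rw [hpar v hy]
        exact Sym2.eq_swap
      · right
        exact mem_image.mpr ⟨v, hv, rfl⟩
    · rintro ⟨t, -, c, ⟨y, ⟨hy, -⟩, rfl⟩, he⟩
      rcases he with rfl | he
      · refine ⟨y, ⟨y, hy, Or.inl rfl⟩, ?_⟩
        rw [hpar y hy]
        exact Sym2.eq_swap
      · obtain ⟨v, hv, rfl⟩ := mem_image.mp he
        exact ⟨v, ⟨y, hy, Or.inr hv⟩, rfl⟩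

end Vale.Agent.P064F
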