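import Vale.Agent.P064F.Defs

/-! # P064F leaf: size and position of the realized vertex sets -/

namespace Vale.Agent.P064F

open Finset

variable {V T : Type} [Fintype V] [DecidableEq V] [DecidableEq T]

/-- Descendants: if `par^[k] v = y`, `dep v = dep y + k` and the same for `y'`, `k'` with
`dep y = dep y'`, then `y = y'`. -/
lemma desc_unique (par : V → V) (dep : V → ℕ) (v y y' : V) (k k' : ℕ)
    (h1 : par^[k] v = y) (h2 : dep v = dep y + k) (h1' : par^[k'] v = y')
    (h2' : dep v = dep y' + k') (hd : dep y = dep y') : y = y' := by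
  have hk : k = k' := by omega
  subst hk
  rw [← h1, ← h1']

/-- The multiset sum of the next stage as a sum over the recorded children. -/
lemma sum_eq_B3 (s : St V T) (rc : V → Finset V) (x : V) :
    (((rc x).val.map s.wit).map fun t => s.ec t + 1).sum = ∑ y ∈ rc x, (s.ec (s.wit y) + 1) := by
  rw [Multiset.map_map]
  rfl

/-- A child has depth one more than its parent. -/
lemma dep_child_B3 (par : V → V) (dep : V → ℕ)
    (hdep : ∀ v, par v ≠ v → dep v = dep (par v) + 1) (rc : V → Finset V)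
    (hrc : ∀ x, rc x ⊆ chP par x) (x y : V) (hy : y ∈ rc x) :
    par y = x ∧ dep y = dep x + 1 := by
  have h := hrc x hy
  simp only [chP, mem_filter, mem_univ, true_and] at h
  refine ⟨h.1, ?_⟩
  have h2 := hdep y (by rw [h.1]; exact fun e => h.2 e.symm)
  rw [h.1] at h2
  exact h2

/-- Every element of `insert y (RV y)` is a descendant of `y`. -/
lemma desc_insert_B3 (s : St V T) (par : V → V) (dep : V → ℕ)
    (hdesc : ∀ x, ∀ v ∈ s.RV x, ∃ k, 1 ≤ k ∧ k ≤ s.ec (s.wit x) ∧ par^[k] v = x ∧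
      dep v = dep x + k) (y v : V) (hv : v ∈ insert y (s.RV y)) :
    ∃ k, k ≤ s.ec (s.wit y) ∧ par^[k] v = y ∧ dep v = dep y + k := by
  rcases mem_insert.mp hv with rfl | hv
  · exact ⟨0, Nat.zero_le _, rfl, rfl⟩
  · obtain ⟨k, _, h2, h3, h4⟩ := hdesc y v hv
    exact ⟨k, h2, h3, h4⟩

/-- The sets `insert y (RV y)`, `y ∈ rc x`, are pairwise disjoint (`desc_unique`; all `y ∈ rc x`
have depth `dep x + 1`), and `y ∉ RV y`. -/
lemma card_RV_next (s : St V T) (par : V → V) (dep : V → ℕ)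
    (hdep : ∀ v, par v ≠ v → dep v = dep (par v) + 1) (rc : V → Finset V)
    (hrc : ∀ x, rc x ⊆ chP par x)
    (hcard : ∀ x, (s.RV x).card = s.ec (s.wit x))
    (hdesc : ∀ x, ∀ v ∈ s.RV x, ∃ k, 1 ≤ k ∧ k ≤ s.ec (s.wit x) ∧ par^[k] v = x ∧
      dep v = dep x + k) (x : V) :
    ((rc x).biUnion fun y => insert y (s.RV y)).card =
      (((rc x).val.map s.wit).map fun t => s.ec t + 1).sum := by
  rw [sum_eq_B3, card_biUnion]
  · refine sum_congr rfl (fun y _ => ?_)
    have hy : y ∉ s.RV y := by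
      intro h
      obtain ⟨k, h1, _, _, h4⟩ := hdesc y y h
      omega
    rw [card_insert_of_notMem hy, hcard]
  · intro y hy y' hy' hne
    have hy : y ∈ rc x := hy
    have hy' : y' ∈ rc x := hy'
    show Disjoint (insert y (s.RV y)) (insert y' (s.RV y'))
    rw [disjoint_left]
    intro v hv hv'
    obtain ⟨k, _, h3, h4⟩ := desc_insert_B3 s par dep hdesc y v hv
    obtain ⟨k', _, h3', h4'⟩ := desc_insert_B3 s par dep hdesc y' v hv'
    have e1 := (dep_child_B3 par dep hdep rc hrc x y hy).2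
    have e2 := (dep_child_B3 par dep hdep rc hrc x y' hy').2
    exact hne (desc_unique par dep v y y' k k' h3 h4 h3' h4' (by omega))

lemma desc_next (s : St V T) (par : V → V) (dep : V → ℕ)
    (hdep : ∀ v, par v ≠ v → dep v = dep (par v) + 1) (rc : V → Finset V)
    (hrc : ∀ x, rc x ⊆ chP par x)
    (hdesc : ∀ x, ∀ v ∈ s.RV x, ∃ k, 1 ≤ k ∧ k ≤ s.ec (s.wit x) ∧ par^[k] v = x ∧
      dep v = dep x + k) (x : V) :
    ∀ v ∈ (rc x).biUnion fun y => insert y (s.RV y), ∃ k, 1 ≤ k ∧
      k ≤ (((rc x).val.map s.wit).map fun t => s.ec t + 1).sum ∧ par^[k] v = x ∧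
      dep v = dep x + k := by
  intro v hv
  obtain ⟨y, hy, hvy⟩ := mem_biUnion.mp hv
  obtain ⟨k, h2, h3, h4⟩ := desc_insert_B3 s par dep hdesc y v hvy
  obtain ⟨e0, e1⟩ := dep_child_B3 par dep hdep rc hrc x y hy
  have hsum : s.ec (s.wit y) + 1 ≤ ∑ y ∈ rc x, (s.ec (s.wit y) + 1) :=
    single_le_sum (f := fun y => s.ec (s.wit y) + 1) (fun _ _ => Nat.zero_le _) hy
  refine ⟨k + 1, by omega, ?_, ?_, by omega⟩
  · rw [sum_eq_B3]
    omega
  · rw [Function.iterate_succ_apply', h3, e0]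

end Vale.Agent.P064F
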