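import Vale.Agent.P064F.Defs
import Vale.Agent.P064F.MSum
import Vale.Agent.P064F.StepB1
import Vale.Agent.P064F.StepB2
import Vale.Agent.P064F.StepB3

/-! # P064F glue: the combinatorial invariants are preserved by one step -/

namespace Vale.Agent.P064F

open Finset

variable {V T : Type} [Fintype V] [DecidableEq V] [DecidableEq T]

theorem stepB (s : St V T) (par : V → V) (dep : V → ℕ)
    (hdep : ∀ v, par v ≠ v → dep v = dep (par v) + 1) (q : ℝ) (hq : 0 ≤ q)
    (hs : GoodB s par dep q) (J : ℤ) (rc : V → Finset V) (hrc : ∀ x, rc x ⊆ chP par x) :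
    GoodB (s.nextOf (2 * (Fintype.card V : ℝ) * q) J rc) par dep q where
  mu_nonneg := D_nonneg _ fun t => mul_nonneg (by positivity) (hs.mu_nonneg t)
  card_RS := card_RS_next s q hq hs.mu_nonneg hs.card_RS
  RS_perm := fun π S R hR => RSN_perm s hs.RS_perm π S R hR
  mem_RS := mem_RSN s par rc hrc hs.mem_RS
  card_RV := card_RV_next s par dep hdep rc hrc hs.card_RV hs.desc
  desc := desc_next s par dep hdep rc hrc hs.desc

end Vale.Agent.P064F
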