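import Vale.Agent.P064F.Defs
import Vale.Agent.P064F.Poly1
import Vale.Agent.P064F.Num

/-! # P064F leaf: the level of a multiset of types -/

namespace Vale.Agent.P064F

open Polynomial Finset

variable {V T : Type} [Fintype V] [DecidableEq V] [DecidableEq T]

/-- Coefficients of `(1 + a X) P`. -/
lemma levN_coeff_succ (a : ℝ) (P : ℝ[X]) (r : ℕ) :
    ((1 + C a * X) * P).coeff (r + 1) = P.coeff (r + 1) + a * P.coeff r := by
  rw [add_mul, one_mul, mul_assoc, coeff_add, coeff_C_mul, coeff_X_mul]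

lemma levN_coeff_zero (a : ℝ) (P : ℝ[X]) :
    ((1 + C a * X) * P).coeff 0 = P.coeff 0 := by
  rw [add_mul, one_mul, mul_assoc, coeff_add, coeff_C_mul, coeff_X_mul_zero, mul_zero, add_zero]

lemma levN_ms_coeff {ι : Type*} (u : ι → ℝ) (S : Multiset ι) (hu : ∀ i ∈ S, 0 ≤ u i) :
    (S.map fun t => (1 + C (u t) * X : ℝ[X])).prod.coeff 0 = 1 ∧
      ∀ r, 0 ≤ (S.map fun t => (1 + C (u t) * X : ℝ[X])).prod.coeff r := by
  induction S using Multiset.induction_on with
  | empty =>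
    refine ⟨by simp, fun r => ?_⟩
    simp only [Multiset.map_zero, Multiset.prod_zero, coeff_one]
    split_ifs <;> norm_num
  | cons t S ih =>
    obtain ⟨h0, hr⟩ := ih (fun i hi => hu i (Multiset.mem_cons_of_mem hi))
    have ht : 0 ≤ u t := hu t (Multiset.mem_cons_self t S)
    rw [Multiset.map_cons, Multiset.prod_cons]
    refine ⟨by rw [levN_coeff_zero, h0], fun r => ?_⟩
    cases r with
    | zero => rw [levN_coeff_zero, h0]; norm_num
    | succ r =>
      rw [levN_coeff_succ]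
      exact add_nonneg (hr _) (mul_nonneg ht (hr _))

lemma Vb_zero (s : St V T) (J : ℤ) : s.Vb J 0 = 2 := by
  simp [St.Vb, Lam_one]

lemma levN_zero (s : St V T) (J : ℤ) : s.levN J 0 = 0 := by
  simp [St.levN, Vb_zero]

/-- `Nat.le_pow_clog` and `Nat.le_ceil`. -/
lemma Vb_le (s : St V T) (J : ℤ) (S : Multiset T) : s.Vb J S ≤ 2 * (2 : ℝ) ^ s.levN J S := by
  have h1 : s.Vb J S / 2 ≤ (⌈s.Vb J S / 2⌉₊ : ℝ) := Nat.le_ceil _
  have h2 : ⌈s.Vb J S / 2⌉₊ ≤ 2 ^ Nat.clog 2 ⌈s.Vb J S / 2⌉₊ := Nat.le_pow_clog (by norm_num) _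
  have h3 : (⌈s.Vb J S / 2⌉₊ : ℝ) ≤ (2 : ℝ) ^ Nat.clog 2 ⌈s.Vb J S / 2⌉₊ := by
    exact_mod_cast h2
  unfold St.levN
  linarith

/-- For a nonempty multiset the value bound exceeds `2`. -/
lemma levN_two_lt_Vb (s : St V T) (J : ℤ) (S : Multiset T) (hS : S ≠ 0) : 2 < s.Vb J S := by
  obtain ⟨t, ht⟩ := Multiset.exists_mem_of_ne_zero hS
  obtain ⟨S', rfl⟩ := Multiset.exists_cons_of_mem ht
  have hw : ∀ i, 0 < 2 * wL J (s.lev i) := fun i => by
    have := wL_pos J (s.lev i)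
    linarith
  obtain ⟨h0, hr⟩ := levN_ms_coeff (fun t => 2 * wL J (s.lev t)) S' (fun i _ => (hw i).le)
  have hmono := Lam_mono (1 + C (2 * wL J (s.lev t)) * X)
    ((Multiset.map (fun t => (1 + C (2 * wL J (s.lev t)) * X : ℝ[X])) (t ::ₘ S')).prod) (by
      intro r
      rw [Multiset.map_cons, Multiset.prod_cons]
      cases r with
      | zero =>
        rw [levN_coeff_zero, h0]
        simp
      | succ r =>
        rw [levN_coeff_succ]
        cases r with
        | zero =>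
          rw [h0]
          have := hr 1
          have e : (1 + C (2 * wL J (s.lev t)) * X : ℝ[X]).coeff (0 + 1) = 2 * wL J (s.lev t) := by
            rw [coeff_add, coeff_C_mul, zero_add, coeff_X_one, coeff_one]
            norm_num
          rw [e]
          simp only [zero_add]
          linarith
        | succ r =>
          have e : (1 + C (2 * wL J (s.lev t)) * X : ℝ[X]).coeff (r + 1 + 1) = 0 := by
            simp [coeff_one]
          rw [e]
          exact add_nonneg (hr _) (mul_nonneg (hw t).le (hr _)))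
  have hL : Lam (1 + C (2 * wL J (s.lev t)) * X) = 1 + 2 * wL J (s.lev t) := by
    have := Lam_C_mul_X_pow (2 * wL J (s.lev t)) 1
    rw [pow_one] at this
    rw [Lam_add, Lam_one, this]
    simp
  rw [hL] at hmono
  have := hw t
  unfold St.Vb
  linarith

/-- For `S ≠ 0` the polynomial has constant coefficient `1` and a positive coefficient of `X`, so
`Vb S > 2`, `⌈Vb S / 2⌉₊ ≥ 2`, and `2 ^ (clog - 1) < ⌈Vb S / 2⌉₊` (`Nat.pow_pred_clog_lt_self`) gives
`2 ^ (clog - 1) < Vb S / 2`. -/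
lemma pow_levN_le (s : St V T) (J : ℤ) (S : Multiset T) (hS : S ≠ 0) :
    (2 : ℝ) ^ s.levN J S ≤ s.Vb J S := by
  have h2 := levN_two_lt_Vb s J S hS
  obtain ⟨c, hc⟩ : ∃ c, c = ⌈s.Vb J S / 2⌉₊ := ⟨_, rfl⟩
  have hc1 : 1 < c := by
    rw [hc, Nat.lt_ceil]
    push_cast
    linarith
  have h3 : 2 ^ (Nat.clog 2 c).pred < c := Nat.pow_pred_clog_lt_self (by norm_num) hc1
  have hpos : 0 < Nat.clog 2 c := Nat.clog_pos (by norm_num) hc1
  have h4 : (c : ℝ) < s.Vb J S / 2 + 1 := by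
    rw [hc]
    exact Nat.ceil_lt_add_one (by linarith)
  have h5 : ((2 ^ (Nat.clog 2 c).pred : ℕ) : ℝ) + 1 ≤ (c : ℝ) := by exact_mod_cast h3
  have h6 : (2 : ℝ) ^ Nat.clog 2 c = 2 * (2 : ℝ) ^ (Nat.clog 2 c).pred := by
    rw [← pow_succ']
    congr 1
    exact (Nat.succ_pred_eq_of_pos hpos).symm
  unfold St.levN
  rw [← hc, h6]
  push_cast at h5
  linarith

/-- `Vb S * D p S = 2 * Lam (Phi p (wL J) lev S)`. -/
lemma Vb_mul_D (s : St V T) (J : ℤ) (p : T → ℝ) (S : Multiset T) :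
    s.Vb J S * D p S = 2 * Lam (Phi p (wL J) s.lev S) := by
  unfold St.Vb Phi
  rw [Lam_C_mul]
  ring

/-- Substituting `2 X`. -/
lemma comp_two_prod (s : St V T) (J : ℤ) (A : Finset V) :
    (∏ y ∈ A, (1 + C (wL J (s.lev (s.wit y))) * X : ℝ[X])).comp (C 2 * X) =
      ((A.val.map s.wit).map fun t => (1 + C (2 * wL J (s.lev t)) * X : ℝ[X])).prod := by
  rw [Polynomial.prod_comp, Multiset.map_map, Finset.prod_eq_multiset_prod]
  congr 1
  apply Multiset.map_congr rfl
  intro y _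
  simp only [add_comp, one_comp, mul_comp, C_comp, X_comp, Function.comp_apply, C_mul]
  ring

lemma prod_one_add_coeff_nonneg {ι : Type*} (A : Finset ι) (u : ι → ℝ) (hu : ∀ i ∈ A, 0 ≤ u i)
    (r : ℕ) : 0 ≤ (∏ y ∈ A, (1 + C (u y) * X : ℝ[X])).coeff r := by
  rw [Finset.prod_eq_multiset_prod]
  exact (levN_ms_coeff u A.val (fun i hi => hu i hi)).2 r

end Vale.Agent.P064F
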