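import Vale.Agent.P064F.Defs

/-! # P064F leaf: the allowances of the light levels -/

namespace Vale.Agent.P064F

open Finset

variable {V T : Type} [Fintype V] [DecidableEq V] [DecidableEq T]

lemma sum_range_mul_half (m : ℕ) :
    ∑ j ∈ range m, (j : ℝ) * (1 / 2 : ℝ) ^ j = 2 - 2 * ((m : ℝ) + 1) * (1 / 2 : ℝ) ^ m := by
  induction m with
  | zero => simp
  | succ m ih =>
    rw [sum_range_succ, ih, pow_succ]
    push_cast
    ring

lemma sum_mul_half_le (S : Finset ℕ) : ∑ j ∈ S, (j : ℝ) * (1 / 2 : ℝ) ^ j ≤ 2 := by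
  have h1 : ∑ j ∈ S, (j : ℝ) * (1 / 2 : ℝ) ^ j
      ≤ ∑ j ∈ range (S.sup id + 1), (j : ℝ) * (1 / 2 : ℝ) ^ j := by
    apply sum_le_sum_of_subset_of_nonneg
    · intro j hj
      exact mem_range.2 (Nat.lt_succ_of_le (le_sup (f := id) hj))
    · intro j _ _
      positivity
  rw [sum_range_mul_half] at h1
  have h2 : (0 : ℝ) ≤ 2 * (((S.sup id + 1 : ℕ) : ℝ) + 1) * (1 / 2 : ℝ) ^ (S.sup id + 1) := by
    positivity
  linarith

/-- Substituting `j = J + 1 - i ≥ 1` (injective) this is `∑_j j 2^(1-j) / 48 ≤ 4 / 48`;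
`∑_{j=1}^m j 2^(1-j) = 4 - (m+2) 2^(1-m)`. -/
lemma sum_light_le (J : ℤ) (I : Finset ℕ) :
    ∑ i ∈ I, ((J + 1 - (i : ℤ)).toNat : ℝ) * wL J i ≤ 1 / 12 := by
  classical
  set φ : ℕ → ℕ := fun i => (J + 1 - (i : ℤ)).toNat with hφ
  set I' := I.filter (fun i : ℕ => 0 < J + 1 - (i : ℤ)) with hI'
  have h0 : ∑ i ∈ I, ((J + 1 - (i : ℤ)).toNat : ℝ) * wL J i
      = ∑ i ∈ I', ((J + 1 - (i : ℤ)).toNat : ℝ) * wL J i := by
    rw [hI', sum_filter]
    apply sum_congr rfl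
    intro i _
    by_cases h : 0 < J + 1 - (i : ℤ)
    · rw [if_pos h]
    · have : (J + 1 - (i : ℤ)).toNat = 0 := Int.toNat_eq_zero.2 (not_lt.1 h)
      rw [if_neg h, this]
      simp
  have h1 : ∀ i ∈ I', ((J + 1 - (i : ℤ)).toNat : ℝ) * wL J i
      = (1 / 24) * ((φ i : ℝ) * (1 / 2 : ℝ) ^ (φ i)) := by
    intro i hi
    have hpos : 0 < J + 1 - (i : ℤ) := (mem_filter.1 hi).2
    have hj : ((φ i : ℕ) : ℤ) = J + 1 - (i : ℤ) := Int.toNat_of_nonneg hpos.le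
    have he : (i : ℤ) - J = 1 - ((φ i : ℕ) : ℤ) := by rw [hj]; ring
    have h2 : (2 : ℝ) ^ ((i : ℤ) - J) = 2 * (1 / 2 : ℝ) ^ (φ i) := by
      rw [he, zpow_sub₀ (by norm_num : (2 : ℝ) ≠ 0), zpow_one, zpow_natCast, one_div, inv_pow]
      rfl
    unfold wL
    rw [h2]
    ring
  have hinj : Set.InjOn φ (I' : Set ℕ) := by
    intro a ha b hb hab
    have hpa : 0 < J + 1 - (a : ℤ) := (mem_filter.1 ha).2
    have hpb : 0 < J + 1 - (b : ℤ) := (mem_filter.1 hb).2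
    have h3 : ((φ a : ℕ) : ℤ) = J + 1 - (a : ℤ) := Int.toNat_of_nonneg hpa.le
    have h4 : ((φ b : ℕ) : ℤ) = J + 1 - (b : ℤ) := Int.toNat_of_nonneg hpb.le
    rw [hab] at h3
    have : (a : ℤ) = b := by linarith
    exact_mod_cast this
  rw [h0, sum_congr rfl h1, ← mul_sum,
    ← sum_image (f := fun j : ℕ => (j : ℝ) * (1 / 2 : ℝ) ^ j) hinj]
  have := sum_mul_half_le (I'.image φ)
  linarith

end Vale.Agent.P064F
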