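import Vale.Agent.P064F.Defs
import Vale.Agent.P064F.Num
import Vale.Agent.P064F.NumLight

/-! # P064F leaf: the total budget of the allowances -/

namespace Vale.Agent.P064F

open Finset

variable {V T : Type} [Fintype V] [DecidableEq V] [DecidableEq T]

/-- `al i * w i = 15 (w i * dl i) + 3 (J+1-i)^+ w i`; use `sum_wd_le` and `sum_light_le`:
`15 * 4 / 20000 + 3 / 12 ≤ 1 / 2`. -/
lemma budget_le (s : St V T) (ch : V → Finset V) (J : ℤ) (h : ℕ) (hs : GoodC s ch J h) (δ : ℝ)
    (hδ : 0 ≤ δ) (hz : zJ J * δ ≤ 1 / 20000) :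
    ∑ i ∈ (univ.image s.wit).image s.lev, s.al δ J i * wL J i ≤ 1 / 2 := by
  have h1 := sum_wd_le s ch J h hs δ hδ
  have h2 := sum_light_le J ((univ.image s.wit).image s.lev)
  have e : ∑ i ∈ (univ.image s.wit).image s.lev, s.al δ J i * wL J i
      = 15 * ∑ i ∈ (univ.image s.wit).image s.lev, wL J i * s.dl δ i
        + 3 * ∑ i ∈ (univ.image s.wit).image s.lev, ((J + 1 - (i : ℤ)).toNat : ℝ) * wL J i := by
    rw [mul_sum, mul_sum, ← sum_add_distrib]
    refine sum_congr rfl fun i _ => ?_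
    unfold St.al
    ring
  rw [e]
  linarith

end Vale.Agent.P064F
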