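import Vale.Agent.P064F.Defs

/-! # P064F leaf: tails of the exponential series -/

namespace Vale.Agent.P064F

open Finset

/-- geometric tail, by induction on the cut-off. -/
lemma tail_geom_aux (t : ℝ) (N : ℕ) :
    (t < (N : ℝ) → ∑ M ∈ (range (N + 1)).filter (fun M : ℕ => t < (M : ℝ)), Real.exp (-(M : ℝ))
        ≤ 2 * Real.exp (-t) - Real.exp (-(N : ℝ))) ∧
    ((N : ℝ) ≤ t → ∑ M ∈ (range (N + 1)).filter (fun M : ℕ => t < (M : ℝ)), Real.exp (-(M : ℝ))
        = 0) := by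
  induction N with
  | zero =>
    constructor
    · intro h
      have h0 : t < ((0 : ℕ) : ℝ) := h
      rw [Finset.sum_filter, Finset.sum_range_succ, Finset.sum_range_zero, if_pos h0]
      have h1 : (1 : ℝ) ≤ Real.exp (-t) := by
        apply Real.one_le_exp
        have : t < 0 := by simpa using h
        linarith
      simp only [Nat.cast_zero, neg_zero, Real.exp_zero]
      linarith
    · intro h
      have h0 : ¬ t < ((0 : ℕ) : ℝ) := not_lt.mpr h
      rw [Finset.sum_filter, Finset.sum_range_succ, Finset.sum_range_zero, if_neg h0]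
      simp
  | succ n ih =>
    obtain ⟨ih1, ih2⟩ := ih
    constructor
    · intro h
      rw [Finset.sum_filter, Finset.sum_range_succ, if_pos h, ← Finset.sum_filter]
      have hstep : 2 * Real.exp (-((n + 1 : ℕ) : ℝ)) ≤ Real.exp (-(n : ℝ)) := by
        have h1 : Real.exp (-((n + 1 : ℕ) : ℝ)) = Real.exp (-(n : ℝ)) * Real.exp (-1) := by
          rw [← Real.exp_add]
          congr 1
          push_cast
          ring
        rw [h1]
        have h2 : Real.exp (-1) ≤ 1 / 2 := by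
          rw [Real.exp_neg]
          have h3 : (2 : ℝ) ≤ Real.exp 1 := by
            have := Real.add_one_le_exp (1 : ℝ)
            linarith
          rw [one_div]
          exact inv_anti₀ (by norm_num) h3
        have h4 : 0 < Real.exp (-(n : ℝ)) := Real.exp_pos _
        nlinarith
      by_cases hn : t < (n : ℝ)
      · have := ih1 hn
        linarith
      · have h5 := ih2 (not_lt.mp hn)
        rw [h5]
        have h6 : Real.exp (-((n + 1 : ℕ) : ℝ)) ≤ Real.exp (-t) := by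
          apply Real.exp_le_exp.mpr
          linarith
        linarith
    · intro h
      have h0 : ¬ t < ((n + 1 : ℕ) : ℝ) := not_lt.mpr h
      rw [Finset.sum_filter, Finset.sum_range_succ, if_neg h0, ← Finset.sum_filter, add_zero]
      apply ih2
      have : (n : ℝ) ≤ ((n + 1 : ℕ) : ℝ) := by
        push_cast
        linarith
      linarith

lemma tail_geom (t : ℝ) (N : ℕ) :
    ∑ M ∈ (range (N + 1)).filter (fun M : ℕ => t < (M : ℝ)), Real.exp (-(M : ℝ))
      ≤ 2 * Real.exp (-t) := by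
  obtain ⟨h1, h2⟩ := tail_geom_aux t N
  by_cases h : t < (N : ℝ)
  · have := h1 h
    have h3 : 0 < Real.exp (-(N : ℝ)) := Real.exp_pos _
    linarith
  · rw [h2 (not_lt.mp h)]
    have h3 : 0 < Real.exp (-t) := Real.exp_pos _
    linarith

/-- the single term estimate. -/
lemma tail_term (x t : ℝ) (hx : 0 ≤ x) (ht : Real.exp 2 * x ≤ t) (M : ℕ) (hM : t < (M : ℝ)) :
    x ^ M / (M.factorial : ℝ) ≤ Real.exp (-(M : ℝ)) := by
  have he2 : 0 < Real.exp 2 := Real.exp_pos _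
  have hM0 : (0 : ℝ) ≤ (M : ℝ) := Nat.cast_nonneg _
  have hxM : x ≤ (M : ℝ) * Real.exp (-2) := by
    have h1 : Real.exp 2 * x ≤ (M : ℝ) := by linarith
    have h2 : Real.exp (-2) * Real.exp 2 = 1 := by
      rw [← Real.exp_add]
      simp
    have h3 : 0 < Real.exp (-2) := Real.exp_pos _
    calc x = Real.exp (-2) * Real.exp 2 * x := by rw [h2, one_mul]
      _ = Real.exp (-2) * (Real.exp 2 * x) := by ring
      _ ≤ Real.exp (-2) * (M : ℝ) := by
        exact mul_le_mul_of_nonneg_left h1 h3.le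
      _ = (M : ℝ) * Real.exp (-2) := by ring
  have hpow : x ^ M ≤ ((M : ℝ) * Real.exp (-2)) ^ M := pow_le_pow_left₀ hx hxM M
  have hf : (0 : ℝ) < (M.factorial : ℝ) := by exact_mod_cast M.factorial_pos
  have hMM : (M : ℝ) ^ M / (M.factorial : ℝ) ≤ Real.exp (M : ℝ) :=
    Real.pow_div_factorial_le_exp (M : ℝ) hM0 M
  have hexp : Real.exp (-2) ^ M = Real.exp (-(2 * (M : ℝ))) := by
    rw [← Real.exp_nat_mul]
    congr 1
    ring
  calc x ^ M / (M.factorial : ℝ) ≤ ((M : ℝ) * Real.exp (-2)) ^ M / (M.factorial : ℝ) := by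
        exact div_le_div_of_nonneg_right hpow hf.le
    _ = ((M : ℝ) ^ M / (M.factorial : ℝ)) * Real.exp (-(2 * (M : ℝ))) := by
        rw [mul_pow, hexp]
        ring
    _ ≤ Real.exp (M : ℝ) * Real.exp (-(2 * (M : ℝ))) := by
        exact mul_le_mul_of_nonneg_right hMM (Real.exp_pos _).le
    _ = Real.exp (-(M : ℝ)) := by
        rw [← Real.exp_add]
        congr 1
        ring

/-- For `M > t ≥ e² x`: `x^M / M! ≤ (e x / M)^M ≤ e^(-M)` (use `Real.pow_div_factorial_le_exp`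
with `x := M`, i.e. `M^M / M! ≤ e^M`), then sum the geometric series. -/
lemma tail0 (x t : ℝ) (hx : 0 ≤ x) (ht : Real.exp 2 * x ≤ t) (N : ℕ) :
    ∑ M ∈ (range (N + 1)).filter (fun M : ℕ => t < (M : ℝ)), x ^ M / (M.factorial : ℝ)
      ≤ 2 * Real.exp (-t) := by
  refine le_trans (Finset.sum_le_sum ?_) (tail_geom t N)
  intro M hM
  exact tail_term x t hx ht M (Finset.mem_filter.mp hM).2

lemma tail_term_nonneg (x : ℝ) (hx : 0 ≤ x) (M : ℕ) : 0 ≤ x ^ M / (M.factorial : ℝ) :=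
  div_nonneg (pow_nonneg hx M) (Nat.cast_nonneg _)

/-- `e^x - 1 ≤ 2 x` on `[0,1]`. -/
lemma tail0' (x t : ℝ) (hx : 0 ≤ x) (hx1 : x ≤ 1) (ht : 0 ≤ t) (N : ℕ) :
    ∑ M ∈ (range (N + 1)).filter (fun M : ℕ => t < (M : ℝ)), x ^ M / (M.factorial : ℝ)
      ≤ 2 * x := by
  have hsub : (range (N + 1)).filter (fun M : ℕ => t < (M : ℝ)) ⊆ (range (N + 1)).erase 0 := by
    intro M hM
    obtain ⟨h1, h2⟩ := Finset.mem_filter.mp hM
    refine Finset.mem_erase.mpr ⟨?_, h1⟩
    rintro rfl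
    simp at h2
    linarith
  have h1 : ∑ M ∈ (range (N + 1)).filter (fun M : ℕ => t < (M : ℝ)), x ^ M / (M.factorial : ℝ)
      ≤ ∑ M ∈ (range (N + 1)).erase 0, x ^ M / (M.factorial : ℝ) :=
    Finset.sum_le_sum_of_subset_of_nonneg hsub (fun M _ _ => tail_term_nonneg x hx M)
  have h2 : ∑ M ∈ (range (N + 1)).erase 0, x ^ M / (M.factorial : ℝ)
      ≤ ∑ M ∈ (range (N + 1)).erase 0, x * ((1 : ℝ) ^ M / (M.factorial : ℝ)) := by
    apply Finset.sum_le_sum
    intro M hM
    have hM0 : M ≠ 0 := (Finset.mem_erase.mp hM).1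
    have hf : (0 : ℝ) < (M.factorial : ℝ) := by exact_mod_cast M.factorial_pos
    have hp : x ^ M ≤ x := by
      obtain ⟨k, rfl⟩ := Nat.exists_eq_succ_of_ne_zero hM0
      rw [pow_succ]
      have : x ^ k ≤ 1 := pow_le_one₀ hx hx1
      nlinarith
    rw [one_pow, mul_one_div]
    exact div_le_div_of_nonneg_right hp hf.le
  have h3 : ∑ M ∈ (range (N + 1)).erase 0, ((1 : ℝ) ^ M / (M.factorial : ℝ)) ≤ 2 := by
    have h4 : ∑ M ∈ range (N + 1), ((1 : ℝ) ^ M / (M.factorial : ℝ)) ≤ Real.exp 1 :=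
      Real.sum_le_exp_of_nonneg (by norm_num) _
    have h5 : ∑ M ∈ (range (N + 1)).erase 0, ((1 : ℝ) ^ M / (M.factorial : ℝ))
        + ((1 : ℝ) ^ 0 / (Nat.factorial 0 : ℝ))
        = ∑ M ∈ range (N + 1), ((1 : ℝ) ^ M / (M.factorial : ℝ)) :=
      Finset.sum_erase_add _ _ (Finset.mem_range.mpr (Nat.succ_pos N))
    have h6 : Real.exp 1 < 2.7182818286 := Real.exp_one_lt_d9
    simp only [pow_zero, Nat.factorial_zero, Nat.cast_one, div_one] at h5
    linarith
  rw [← Finset.mul_sum] at h2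
  nlinarith

/-- reindexing step. -/
lemma tail_shift (x s t : ℝ) (hx : 0 ≤ x) (r : ℕ) (hs : s + r ≤ t) (N : ℕ) :
    ∑ M ∈ (range (N + 1)).filter (fun M : ℕ => t < (M : ℝ) ∧ r ≤ M),
      x ^ (M - r) / ((M - r).factorial : ℝ)
    ≤ ∑ j ∈ (range (N + 1)).filter (fun j : ℕ => s < (j : ℝ)), x ^ j / (j.factorial : ℝ) := by
  have hinj : Set.InjOn (fun M : ℕ => M - r)
      ((range (N + 1)).filter (fun M : ℕ => t < (M : ℝ) ∧ r ≤ M) : Finset ℕ) := by
    intro a ha b hb hab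
    have ha' := (Finset.mem_filter.mp (Finset.mem_coe.mp ha)).2.2
    have hb' := (Finset.mem_filter.mp (Finset.mem_coe.mp hb)).2.2
    simp only at hab
    omega
  have h1 : ∑ M ∈ (range (N + 1)).filter (fun M : ℕ => t < (M : ℝ) ∧ r ≤ M),
      x ^ (M - r) / ((M - r).factorial : ℝ)
      = ∑ j ∈ ((range (N + 1)).filter (fun M : ℕ => t < (M : ℝ) ∧ r ≤ M)).image
          (fun M : ℕ => M - r), x ^ j / (j.factorial : ℝ) := by
    rw [Finset.sum_image hinj]
  rw [h1]
  apply Finset.sum_le_sum_of_subset_of_nonneg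
  · intro j hj
    obtain ⟨M, hM, rfl⟩ := Finset.mem_image.mp hj
    obtain ⟨hM1, hM2, hM3⟩ := Finset.mem_filter.mp hM
    refine Finset.mem_filter.mpr ⟨?_, ?_⟩
    · have := Finset.mem_range.mp hM1
      exact Finset.mem_range.mpr (by omega)
    · rw [Nat.cast_sub hM3]
      linarith
  · intro j _ _
    exact tail_term_nonneg x hx j

/-- If `r ≤ t/2` then `M - r > t/2 ≥ e² x` and `tail0` gives `≤ 2 ≤ 3^r`; if `r > t/2 ≥ e² x` the
whole series is `≤ e^x ≤ e^r ≤ 3^r`. -/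
lemma tail1 (x t : ℝ) (hx : 0 ≤ x) (ht : 2 * Real.exp 2 * x ≤ t) (r : ℕ) (hr : 1 ≤ r) (N : ℕ) :
    ∑ M ∈ (range (N + 1)).filter (fun M : ℕ => t < (M : ℝ) ∧ r ≤ M),
      x ^ (M - r) / ((M - r).factorial : ℝ) ≤ 3 ^ r := by
  have he2 : 0 < Real.exp 2 := Real.exp_pos _
  have ht0 : 0 ≤ t := le_trans (by positivity) ht
  by_cases hrt : (r : ℝ) ≤ t / 2
  · have h1 := tail_shift x (t / 2) t hx r (by linarith) N
    have h2 := tail0 x (t / 2) hx (by linarith) N
    have h3 : Real.exp (-(t / 2)) ≤ 1 := by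
      apply Real.exp_le_one_iff.mpr
      linarith
    have h4 : (3 : ℝ) ≤ 3 ^ r := by
      calc (3 : ℝ) = 3 ^ 1 := by norm_num
        _ ≤ 3 ^ r := pow_le_pow_right₀ (by norm_num) hr
    linarith
  · have hrt' : t / 2 < (r : ℝ) := not_le.mp hrt
    have h1 := tail_shift x (t - r) t hx r (by linarith) N
    have h2 : ∑ j ∈ (range (N + 1)).filter (fun j : ℕ => t - r < (j : ℝ)),
        x ^ j / (j.factorial : ℝ) ≤ ∑ j ∈ range (N + 1), x ^ j / (j.factorial : ℝ) :=
      Finset.sum_le_sum_of_subset_of_nonneg (Finset.filter_subset _ _)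
        (fun j _ _ => tail_term_nonneg x hx j)
    have h3 : ∑ j ∈ range (N + 1), x ^ j / (j.factorial : ℝ) ≤ Real.exp x :=
      Real.sum_le_exp_of_nonneg hx _
    have h4 : x ≤ (r : ℝ) := by
      have h5 : (1 : ℝ) ≤ Real.exp 2 := Real.one_le_exp (by norm_num)
      nlinarith
    have h5 : Real.exp x ≤ Real.exp (r : ℝ) := Real.exp_le_exp.mpr h4
    have h6 : Real.exp (r : ℝ) = Real.exp 1 ^ r := by
      rw [← Real.exp_nat_mul, mul_one]
    have h7 : Real.exp 1 ^ r ≤ (3 : ℝ) ^ r := by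
      apply pow_le_pow_left₀ (Real.exp_pos _).le
      have := Real.exp_one_lt_d9
      linarith
    linarith

lemma epsT_nonneg (d m : ℝ) (hd : 0 ≤ d) (N : ℕ) : 0 ≤ epsT d m N := by
  unfold epsT
  exact Finset.sum_nonneg (fun M _ => tail_term_nonneg d hd M)

lemma epsT_le_exp (d m : ℝ) (hd : 0 ≤ d) (hm : 15 * d ≤ m) (N : ℕ) :
    epsT d m N ≤ 2 * Real.exp (-m) := by
  unfold epsT
  apply tail0 d m hd
  have h1 : Real.exp 2 = Real.exp 1 ^ 2 := by
    rw [← Real.exp_nat_mul]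
    norm_num
  have h2 : Real.exp 1 < 2.7182818286 := Real.exp_one_lt_d9
  have h3 : 0 < Real.exp 1 := Real.exp_pos _
  have h4 : Real.exp 2 ≤ 15 := by
    rw [h1]
    nlinarith
  nlinarith

lemma epsT_le_lin (d m : ℝ) (hd : 0 ≤ d) (hd1 : d ≤ 1) (hm : 0 ≤ m) (N : ℕ) :
    epsT d m N ≤ 2 * d := by
  unfold epsT
  exact tail0' d m hd hd1 hm N

end Vale.Agent.P064F
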