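import Vale.Agent.P064F.Defs
import Vale.Agent.P064F.Num
import Vale.Agent.P064F.Tail

/-! # P064F leaf: the product of the tail factors -/

namespace Vale.Agent.P064F

open Finset

variable {V T : Type} [Fintype V] [DecidableEq V] [DecidableEq T]

/-- `exp (-3) ≤ 1 / 15`. -/
lemma exp_neg_three_le : Real.exp (-3) ≤ 1 / 15 := by
  have h1 : (2.5 : ℝ) ≤ Real.exp 1 := by
    have := Real.exp_one_gt_d9
    linarith
  have h3 : Real.exp 3 = Real.exp 1 ^ 3 := by
    rw [← Real.exp_nat_mul]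
    norm_num
  have h4 : (15 : ℝ) ≤ Real.exp 3 := by
    rw [h3]
    calc (15 : ℝ) ≤ 2.5 ^ 3 := by norm_num
      _ ≤ Real.exp 1 ^ 3 := by gcongr
  rw [Real.exp_neg, one_div]
  exact inv_anti₀ (by norm_num) h4

/-- A geometric sum over the levels below `J`. -/
lemma sum_geom_le (I : Finset ℕ) (J : ℤ) (r : ℝ) (hr0 : 0 ≤ r) (hr1 : r < 1) :
    ∑ i ∈ I.filter (fun i : ℕ => (i : ℤ) ≤ J), r ^ (J - (i : ℤ)).toNat ≤ (1 - r)⁻¹ := by
  have hinj : Set.InjOn (fun i : ℕ => (J - (i : ℤ)).toNat)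
      (I.filter (fun i : ℕ => (i : ℤ) ≤ J) : Finset ℕ) := by
    intro a ha b hb hab
    simp only [coe_filter, Set.mem_ofPred_eq] at ha hb
    simp only at hab
    omega
  have h1 : ∑ i ∈ I.filter (fun i : ℕ => (i : ℤ) ≤ J), r ^ (J - (i : ℤ)).toNat
      = ∑ k ∈ (I.filter (fun i : ℕ => (i : ℤ) ≤ J)).image (fun i : ℕ => (J - (i : ℤ)).toNat),
        r ^ k := by
    rw [Finset.sum_image hinj]
  rw [h1]
  exact sum_le_hasSum _ (fun k _ => pow_nonneg hr0 k) (hasSum_geometric_of_lt_one hr0 hr1)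

/-- For `i ≤ J`: `epsT ≤ 2 exp (- al i) ≤ 2 exp (-3 (J+1-i))` (`epsT_le_exp`); these sum to at most
`2 e^{-3} / (1 - e^{-3}) ≤ 0.105`.  For `i > J`: `wL J i ≥ 1/24`, so
`dl i ≤ 24 wL i dl i ≤ 96 z δ ≤ 1` and `epsT ≤ 2 dl i ≤ 48 wL i dl i` (`epsT_le_lin`); these sum to
at most `192 z δ ≤ 0.01`.  Finally `∏ (1 + ε_i) ≤ exp (∑ ε_i) ≤ exp 0.115 ≤ 5/4`. -/
lemma prod_eps_le (s : St V T) (ch : V → Finset V) (J : ℤ) (h : ℕ) (hs : GoodC s ch J h) (δ : ℝ)
    (hδ : 0 ≤ δ) (hz : zJ J * δ ≤ 1 / 20000) (N : ℕ) :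
    ∏ i ∈ (univ.image s.wit).image s.lev, (1 + epsT (s.dl δ i) (s.al δ J i) N) ≤ 5 / 4 := by
  set I := (univ.image s.wit).image s.lev with hI
  have hmu := hs.mu_nonneg
  have hd : ∀ i, 0 ≤ s.dl δ i := fun i => dl_nonneg s hmu δ hδ i
  have ha : ∀ i, 0 ≤ s.al δ J i := fun i => al_nonneg s hmu δ hδ J i
  have hw : ∀ i, 0 < wL J i := wL_pos J
  have hsum : ∑ i ∈ I, wL J i * s.dl δ i ≤ 4 * (zJ J * δ) := sum_wd_le s ch J h hs δ hδ
  set r : ℝ := Real.exp (-3) with hr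
  have hr0 : 0 < r := Real.exp_pos _
  have hr15 : r ≤ 1 / 15 := exp_neg_three_le
  have hr1 : r < 1 := by linarith
  have hterm : ∀ i ∈ I, wL J i * s.dl δ i ≤ 4 * (zJ J * δ) := by
    intro i hi
    refine le_trans ?_ hsum
    exact Finset.single_le_sum (f := fun i => wL J i * s.dl δ i)
      (fun j _ => mul_nonneg (hw j).le (hd j)) hi
  have key : ∀ i ∈ I, epsT (s.dl δ i) (s.al δ J i) N
      ≤ (if (i : ℤ) ≤ J then 2 * r * r ^ (J - (i : ℤ)).toNat else 0)
        + 48 * (wL J i * s.dl δ i) := by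
    intro i hi
    have hwd : 0 ≤ wL J i * s.dl δ i := mul_nonneg (hw i).le (hd i)
    by_cases hiJ : (i : ℤ) ≤ J
    · rw [if_pos hiJ]
      have h15 : 15 * s.dl δ i ≤ s.al δ J i := by
        unfold St.al
        have : (0 : ℝ) ≤ 3 * ((J + 1 - (i : ℤ)).toNat : ℝ) := by positivity
        linarith
      have h1 := epsT_le_exp (s.dl δ i) (s.al δ J i) (hd i) h15 N
      have h2 : Real.exp (-(s.al δ J i)) ≤ r * r ^ (J - (i : ℤ)).toNat := by
        have hk : (J + 1 - (i : ℤ)).toNat = (J - (i : ℤ)).toNat + 1 := by omega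
        have h3 : r * r ^ (J - (i : ℤ)).toNat
            = Real.exp (-(3 * ((J + 1 - (i : ℤ)).toNat : ℝ))) := by
          rw [hk, ← pow_succ', hr, ← Real.exp_nat_mul]
          congr 1
          push_cast
          ring
        rw [h3]
        apply Real.exp_le_exp.mpr
        unfold St.al
        have := hd i
        linarith
      linarith
    · rw [if_neg hiJ, zero_add]
      have hw24 : 1 / 24 ≤ wL J i := by
        unfold wL
        have h2 : (2 : ℝ) ^ (1 : ℤ) ≤ (2 : ℝ) ^ ((i : ℤ) - J) :=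
          zpow_le_zpow_right₀ (by norm_num) (by omega)
        rw [zpow_one] at h2
        linarith
      have h24 : s.dl δ i ≤ 24 * (wL J i * s.dl δ i) := by
        have := mul_le_mul_of_nonneg_right hw24 (hd i)
        linarith
      have hd1 : s.dl δ i ≤ 1 := by
        have := hterm i hi
        linarith
      have h1 := epsT_le_lin (s.dl δ i) (s.al δ J i) (hd i) hd1 (ha i) N
      linarith
  have hsumeps : ∑ i ∈ I, epsT (s.dl δ i) (s.al δ J i) N ≤ 1 / 6 := by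
    calc ∑ i ∈ I, epsT (s.dl δ i) (s.al δ J i) N
        ≤ ∑ i ∈ I, ((if (i : ℤ) ≤ J then 2 * r * r ^ (J - (i : ℤ)).toNat else 0)
          + 48 * (wL J i * s.dl δ i)) := Finset.sum_le_sum key
      _ = 2 * r * ∑ i ∈ I.filter (fun i : ℕ => (i : ℤ) ≤ J), r ^ (J - (i : ℤ)).toNat
          + 48 * ∑ i ∈ I, wL J i * s.dl δ i := by
        rw [Finset.sum_add_distrib, ← Finset.sum_filter, Finset.mul_sum, Finset.mul_sum]
      _ ≤ 2 * r * (1 - r)⁻¹ + 48 * (4 * (zJ J * δ)) := by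
        have := sum_geom_le I J r hr0.le hr1
        gcongr
      _ ≤ 1 / 6 := by
        have h1 : (1 - r)⁻¹ ≤ 15 / 14 := by
          rw [inv_le_comm₀ (by linarith) (by norm_num)]
          linarith
        have h2 : 2 * r * (1 - r)⁻¹ ≤ 2 * (1 / 15) * (15 / 14) := by
          have : 0 ≤ (1 - r)⁻¹ := inv_nonneg.mpr (by linarith)
          gcongr
        linarith
  calc ∏ i ∈ I, (1 + epsT (s.dl δ i) (s.al δ J i) N)
      ≤ ∏ i ∈ I, Real.exp (epsT (s.dl δ i) (s.al δ J i) N) := by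
        apply Finset.prod_le_prod
        · intro i _
          have := epsT_nonneg (s.dl δ i) (s.al δ J i) (hd i) N
          linarith
        · intro i _
          have := Real.add_one_le_exp (epsT (s.dl δ i) (s.al δ J i) N)
          linarith
    _ = Real.exp (∑ i ∈ I, epsT (s.dl δ i) (s.al δ J i) N) := (Real.exp_sum _ _).symm
    _ ≤ Real.exp (1 / 6) := Real.exp_le_exp.mpr hsumeps
    _ ≤ 1 / (1 - 1 / 6) :=
        Real.exp_bound_div_one_sub_of_interval (by norm_num) (by norm_num)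
    _ ≤ 5 / 4 := by norm_num

end Vale.Agent.P064F
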