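import Vale.Agent.P064F.Defs

/-! # P064F leaf: the domination calculus -/

namespace Vale.Agent.P064F

open Polynomial Finset

lemma dom_one : Dom 1 1 0 := by
  intro r
  rw [Polynomial.coeff_one]
  rcases Nat.eq_zero_or_pos r with rfl | hr
  · simp
  · simp [hr.ne']

lemma dom_one_add (u : ℝ) (hu : 0 ≤ u) : Dom (1 + C u * X) 1 u := by
  intro r
  match r with
  | 0 => simp
  | 1 => simp [Polynomial.coeff_one, hu]
  | r + 2 =>
    have h : (1 + C u * X : ℝ[X]).coeff (r + 2) = 0 := by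
      simp [Polynomial.coeff_one]
    rw [h]
    exact ⟨le_rfl, by positivity⟩

lemma Dom.mono {p : ℝ[X]} {K K' a a' : ℝ} (h : Dom p K a) (hK0 : 0 ≤ K) (hK : K ≤ K')
    (ha0 : 0 ≤ a) (ha : a ≤ a') : Dom p K' a' := by
  intro r
  have hK'0 : 0 ≤ K' := hK0.trans hK
  refine ⟨(h r).1, (h r).2.trans ?_⟩
  gcongr

lemma binom_div (K K' a a' : ℝ) (r : ℕ) :
    K * K' * (a + a') ^ r / (r.factorial : ℝ)
      = ∑ x ∈ antidiagonal r, (K * a ^ x.1 / (x.1.factorial : ℝ))
          * (K' * a' ^ x.2 / (x.2.factorial : ℝ)) := by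
  rw [(Commute.all a a').add_pow', Finset.mul_sum, Finset.sum_div]
  refine Finset.sum_congr rfl fun x hx => ?_
  obtain ⟨i, j⟩ := x
  have hij : i + j = r := mem_antidiagonal.mp hx
  subst hij
  have hf : (((i + j).choose i : ℕ) : ℝ) * (i.factorial : ℝ) * (j.factorial : ℝ)
      = ((i + j).factorial : ℝ) := by
    have h0 := Nat.add_choose_mul_factorial_mul_factorial i j
    rw [← Nat.choose_symm_add] at h0
    exact_mod_cast h0
  have h1 : (i.factorial : ℝ) ≠ 0 := by positivity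
  have h2 : (j.factorial : ℝ) ≠ 0 := by positivity
  have h3 : (((i + j).choose i : ℕ) : ℝ) ≠ 0 := by
    have := Nat.choose_pos (Nat.le_add_right i j)
    positivity
  simp only [nsmul_eq_mul]
  rw [← hf]
  field_simp

/-- `coeff_mul` over the antidiagonal and the binomial theorem
`(a + a')^r / r! = ∑_{i+j=r} a^i/i! * a'^j/j!`. -/
lemma Dom.mul {p q : ℝ[X]} {K K' a a' : ℝ} (hp : Dom p K a) (hq : Dom q K' a')
    (hK : 0 ≤ K) (hK' : 0 ≤ K') (ha : 0 ≤ a) (ha' : 0 ≤ a') :
    Dom (p * q) (K * K') (a + a') := by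
  intro r
  rw [Polynomial.coeff_mul]
  refine ⟨Finset.sum_nonneg fun x _ => mul_nonneg (hp x.1).1 (hq x.2).1, ?_⟩
  rw [binom_div]
  refine Finset.sum_le_sum fun x _ => ?_
  exact mul_le_mul (hp x.1).2 (hq x.2).2 (hq x.2).1 (by positivity)

lemma Dom.prod {ι : Type*} (s : Finset ι) (f : ι → ℝ[X]) (K a : ι → ℝ)
    (h : ∀ i ∈ s, Dom (f i) (K i) (a i)) (hK : ∀ i ∈ s, 0 ≤ K i) (ha : ∀ i ∈ s, 0 ≤ a i) :
    Dom (∏ i ∈ s, f i) (∏ i ∈ s, K i) (∑ i ∈ s, a i) := by
  classical
  induction s using Finset.induction_on with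
  | empty =>
    simp only [Finset.prod_empty, Finset.sum_empty]
    exact dom_one
  | insert i s his ih =>
    rw [Finset.prod_insert his, Finset.prod_insert his, Finset.sum_insert his]
    have hs : ∀ j ∈ s, j ∈ insert i s := fun j hj => Finset.mem_insert_of_mem hj
    exact Dom.mul (h i (Finset.mem_insert_self i s))
      (ih (fun j hj => h j (hs j hj)) (fun j hj => hK j (hs j hj)) (fun j hj => ha j (hs j hj)))
      (hK i (Finset.mem_insert_self i s)) (Finset.prod_nonneg fun j hj => hK j (hs j hj))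
      (ha i (Finset.mem_insert_self i s)) (Finset.sum_nonneg fun j hj => ha j (hs j hj))

/-- `Lam p = ∑ r! coeff_r ≤ K ∑ a^r ≤ K / (1 - a)`. -/
lemma Lam_le_of_dom {p : ℝ[X]} {K a : ℝ} (h : Dom p K a) (hK : 0 ≤ K) (ha0 : 0 ≤ a)
    (ha1 : a < 1) : Lam p ≤ K / (1 - a) := by
  unfold Lam
  rw [Polynomial.sum_def]
  have h1 : ∀ k ∈ p.support, (k.factorial : ℝ) * p.coeff k ≤ K * a ^ k := by
    intro k _
    have hk : (0 : ℝ) < k.factorial := by positivity
    calc (k.factorial : ℝ) * p.coeff k ≤ (k.factorial : ℝ) * (K * a ^ k / (k.factorial : ℝ)) :=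
          mul_le_mul_of_nonneg_left (h k).2 hk.le
      _ = K * a ^ k := by field_simp
  refine (Finset.sum_le_sum h1).trans ?_
  rw [← Finset.mul_sum, div_eq_mul_inv]
  refine mul_le_mul_of_nonneg_left ?_ hK
  exact sum_le_hasSum _ (fun i _ => by positivity) (hasSum_geometric_of_lt_one ha0 ha1)

end Vale.Agent.P064F
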