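import Vale.Agent.P064F.Defs
import Vale.Agent.P064F.Poly1

/-! # P064F leaf: absorbing a dominated factor -/

namespace Vale.Agent.P064F

open Polynomial Finset

/-- For `0 ≤ A ≤ 1/2`: `∑_{a ≤ N} C(a+j, a) A^a ≤ 2^(j+1)`.
Induction on `j`: by Pascal `S_j ≤ S_{j-1} + A S_j`, and `S_0 ≤ 1/(1-A) ≤ 2`. -/
lemma sum_choose_le (A : ℝ) (hA0 : 0 ≤ A) (hA : A ≤ 1 / 2) (j N : ℕ) :
    ∑ a ∈ range (N + 1), ((a + j).choose a : ℝ) * A ^ a ≤ 2 ^ (j + 1) := by
  induction j generalizing N with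
  | zero =>
    have h1 : (1 - A) * ∑ i ∈ range (N + 1), A ^ i = 1 - A ^ (N + 1) :=
      mul_neg_geom_sum A (N + 1)
    have h2 : 0 ≤ A ^ (N + 1) := pow_nonneg hA0 _
    have h3 : 0 ≤ ∑ i ∈ range (N + 1), A ^ i :=
      Finset.sum_nonneg fun i _ => pow_nonneg hA0 _
    have h4 : ∑ a ∈ range (N + 1), ((a + 0).choose a : ℝ) * A ^ a
        = ∑ i ∈ range (N + 1), A ^ i := by
      refine Finset.sum_congr rfl fun a _ => ?_
      simp
    rw [h4]
    have h5 : A * ∑ i ∈ range (N + 1), A ^ i ≤ 1 / 2 * ∑ i ∈ range (N + 1), A ^ i :=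
      mul_le_mul_of_nonneg_right hA h3
    norm_num
    linarith
  | succ j ih =>
    induction N with
    | zero =>
      simp only [zero_add, Finset.sum_range_one, Nat.choose_zero_right, Nat.cast_one, pow_zero,
        mul_one]
      exact one_le_pow₀ (by norm_num)
    | succ N ihN =>
      have key : ∑ a ∈ range (N + 1 + 1), ((a + (j + 1)).choose a : ℝ) * A ^ a
          = ∑ a ∈ range (N + 1 + 1), ((a + j).choose a : ℝ) * A ^ a
            + A * ∑ a ∈ range (N + 1), ((a + (j + 1)).choose a : ℝ) * A ^ a := by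
        rw [Finset.sum_range_succ' _ (N + 1), Finset.sum_range_succ' _ (N + 1), Finset.mul_sum]
        simp only [zero_add, Nat.choose_zero_right, Nat.cast_one, pow_zero, mul_one]
        rw [add_right_comm, ← Finset.sum_add_distrib]
        congr 1
        refine Finset.sum_congr rfl fun a _ => ?_
        have e1 : a + 1 + (j + 1) = (a + (j + 1)) + 1 := by ring
        have e2 : a + 1 + j = a + (j + 1) := by ring
        rw [e1, e2, Nat.choose_succ_succ]
        push_cast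
        ring
      rw [key]
      have h1 := ih (N + 1)
      have h2 : A * ∑ a ∈ range (N + 1), ((a + (j + 1)).choose a : ℝ) * A ^ a
          ≤ 1 / 2 * 2 ^ (j + 1 + 1) := by
        refine mul_le_mul hA ihN ?_ (by norm_num)
        exact Finset.sum_nonneg fun i _ => mul_nonneg (Nat.cast_nonneg _) (pow_nonneg hA0 _)
      have h3 : (2 : ℝ) ^ (j + 1 + 1) = 2 * 2 ^ (j + 1) := by ring
      linarith

/-- The monomial case of `Lam_mul_le`. -/
lemma Lam_mul_X_pow_le (p : ℝ[X]) (A : ℝ) (hp : Dom p 1 A) (hA0 : 0 ≤ A) (hA : A ≤ 1 / 2)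
    (j : ℕ) : Lam (p * X ^ j) ≤ (j.factorial : ℝ) * 2 ^ (j + 1) := by
  have h1 : p * X ^ j = ∑ a ∈ range (p.natDegree + 1), C (p.coeff a) * X ^ (a + j) := by
    conv_lhs => rw [p.as_sum_range_C_mul_X_pow, Finset.sum_mul]
    refine Finset.sum_congr rfl fun a _ => ?_
    rw [pow_add, mul_assoc]
  rw [h1, Lam_sum]
  calc ∑ a ∈ range (p.natDegree + 1), Lam (C (p.coeff a) * X ^ (a + j))
      ≤ ∑ a ∈ range (p.natDegree + 1),
          (j.factorial : ℝ) * (((a + j).choose a : ℝ) * A ^ a) := by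
        refine Finset.sum_le_sum fun a _ => ?_
        rw [Lam_C_mul_X_pow]
        have h2 := (hp a).2
        have h3 : ((a + j).factorial : ℝ)
            = ((a + j).choose a : ℝ) * (a.factorial : ℝ) * (j.factorial : ℝ) := by
          have := Nat.add_choose_mul_factorial_mul_factorial a j
          rw [← Nat.choose_symm_add] at this
          exact_mod_cast this.symm
        have h4 : (0 : ℝ) < (a.factorial : ℝ) := by exact_mod_cast a.factorial_pos
        have h5 : (a.factorial : ℝ) * p.coeff a ≤ A ^ a := by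
          rw [one_mul, le_div_iff₀ h4] at h2
          linarith
        have h6 : (0 : ℝ) ≤ ((a + j).choose a : ℝ) * (j.factorial : ℝ) :=
          mul_nonneg (Nat.cast_nonneg _) (Nat.cast_nonneg _)
        rw [h3]
        nlinarith [mul_le_mul_of_nonneg_left h5 h6]
    _ = (j.factorial : ℝ) * ∑ a ∈ range (p.natDegree + 1), ((a + j).choose a : ℝ) * A ^ a := by
        rw [Finset.mul_sum]
    _ ≤ (j.factorial : ℝ) * 2 ^ (j + 1) :=
        mul_le_mul_of_nonneg_left (sum_choose_le A hA0 hA j _) (Nat.cast_nonneg _)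

/-- If `p` is dominated by `exp (A X)` with `A ≤ 1/2` and `q` has nonnegative coefficients then
`Lam (p q) ≤ 2 Lam (q (2 X))`.
Indeed `Lam (p q) = ∑_{a,j} (a+j)! p_a q_j ≤ ∑_j j! q_j ∑_a C(a+j,a) A^a ≤ ∑_j j! q_j 2^(j+1)`. -/
lemma Lam_mul_le (p q : ℝ[X]) (A : ℝ) (hp : Dom p 1 A) (hA0 : 0 ≤ A) (hA : A ≤ 1 / 2)
    (hq : ∀ r, 0 ≤ q.coeff r) : Lam (p * q) ≤ 2 * Lam (q.comp (C 2 * X)) := by
  have h1 : p * q = ∑ j ∈ range (q.natDegree + 1), C (q.coeff j) * (p * X ^ j) := by
    conv_lhs => rw [q.as_sum_range_C_mul_X_pow, Finset.mul_sum]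
    refine Finset.sum_congr rfl fun j _ => ?_
    ring
  have h2 : q.comp (C 2 * X)
      = ∑ j ∈ range (q.natDegree + 1), C (q.coeff j * 2 ^ j) * X ^ j := by
    conv_lhs => rw [q.as_sum_range_C_mul_X_pow]
    rw [Polynomial.sum_comp]
    refine Finset.sum_congr rfl fun j _ => ?_
    simp only [mul_comp, C_comp, pow_comp, X_comp, mul_pow, C_mul, C_pow]
    ring
  rw [h1, h2, Lam_sum, Lam_sum, Finset.mul_sum]
  refine Finset.sum_le_sum fun j _ => ?_
  rw [Lam_C_mul, Lam_C_mul_X_pow]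
  have h3 := Lam_mul_X_pow_le p A hp hA0 hA j
  have h4 := mul_le_mul_of_nonneg_left h3 (hq j)
  have h5 : (2 : ℝ) ^ (j + 1) = 2 * 2 ^ j := by ring
  rw [h5] at h4
  linarith

end Vale.Agent.P064F
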