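import Vale.Agent.P064F.Defs
import Vale.Agent.P064F.Tail

/-! # P064F leaf: the one-level polynomial is dominated -/

namespace Vale.Agent.P064F

open Polynomial Finset

lemma coeff_lin_pow_qd (c : ℝ) (M r : ℕ) :
    ((1 + C c * X : ℝ[X]) ^ M).coeff r = (M.choose r : ℝ) * c ^ r := by
  have h : (1 + C c * X : ℝ[X]) ^ M = ((1 + X : ℝ[X]) ^ M).comp (C c * X) := by simp
  rw [h, comp_C_mul_X_coeff, coeff_one_add_X_pow]

lemma coeff_Q_qd (d w m : ℝ) (N r : ℕ) :
    (Q d w m N).coeff r = (if r = 0 then 1 else 0) +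
      ∑ M ∈ (range (N + 1)).filter (fun M : ℕ => m < (M : ℝ)),
        d ^ M / (M.factorial : ℝ) * ((M.choose r : ℝ) * (2 * w) ^ r) := by
  unfold Q
  rw [coeff_add, finsetSum_coeff, coeff_one]
  congr 1
  apply sum_congr rfl
  intro M _
  rw [coeff_C_mul, coeff_lin_pow_qd]

lemma term_eq_qd (d w : ℝ) (M r : ℕ) (h : r ≤ M) :
    d ^ M / (M.factorial : ℝ) * ((M.choose r : ℝ) * (2 * w) ^ r)
      = (2 * w * d) ^ r / (r.factorial : ℝ) * (d ^ (M - r) / ((M - r).factorial : ℝ)) := by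
  have h1 : (M.factorial : ℝ) ≠ 0 := Nat.cast_ne_zero.2 (Nat.factorial_ne_zero _)
  have h2 : (r.factorial : ℝ) ≠ 0 := Nat.cast_ne_zero.2 (Nat.factorial_ne_zero _)
  have h3 : ((M - r).factorial : ℝ) ≠ 0 := Nat.cast_ne_zero.2 (Nat.factorial_ne_zero _)
  have hd : d ^ M = d ^ r * d ^ (M - r) := by rw [← pow_add, Nat.add_sub_cancel' h]
  rw [Nat.cast_choose ℝ h, hd, mul_pow (2 * w) d r]
  field_simp

lemma two_exp_two_le_qd : 2 * Real.exp 2 ≤ 15 := by
  have h1 := Real.exp_one_lt_d9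
  have h0 : 0 < Real.exp 1 := Real.exp_pos 1
  have h2 : Real.exp 2 = Real.exp 1 * Real.exp 1 := by
    rw [← Real.exp_add]; norm_num
  rw [h2]
  nlinarith

/-- Coefficient `0` of `Q` is `1 + epsT`.  For `r ≥ 1` the coefficient is
`∑_{M > m} d^M / M! * C(M,r) (2w)^r = (2 w d)^r / r! * ∑_{M > m, M ≥ r} d^(M-r)/(M-r)!`
which is at most `(6 w d)^r / r!` by `tail1` (`15 ≥ 2 e²`). -/
lemma Q_dom (d w m : ℝ) (hd : 0 ≤ d) (hw : 0 ≤ w) (hm : 15 * d ≤ m) (N : ℕ) :
    Dom (Q d w m N) (1 + epsT d m N) (6 * w * d) := by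
  intro r
  rw [coeff_Q_qd]
  have hterm : ∀ M : ℕ, 0 ≤ d ^ M / (M.factorial : ℝ) * ((M.choose r : ℝ) * (2 * w) ^ r) := by
    intro M
    positivity
  refine ⟨add_nonneg (by split_ifs <;> norm_num) (sum_nonneg fun M _ => hterm M), ?_⟩
  rcases Nat.eq_zero_or_pos r with rfl | hr
  · simp [epsT]
  · rw [if_neg (by omega), zero_add]
    have hsum : ∑ M ∈ (range (N + 1)).filter (fun M : ℕ => m < (M : ℝ)),
        d ^ M / (M.factorial : ℝ) * ((M.choose r : ℝ) * (2 * w) ^ r)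
        = (2 * w * d) ^ r / (r.factorial : ℝ) *
          ∑ M ∈ (range (N + 1)).filter (fun M : ℕ => m < (M : ℝ) ∧ r ≤ M),
            d ^ (M - r) / ((M - r).factorial : ℝ) := by
      rw [mul_sum, ← filter_filter]
      conv_rhs => rw [sum_filter]
      apply sum_congr rfl
      intro M _
      by_cases h : r ≤ M
      · rw [if_pos h, term_eq_qd d w M r h]
      · rw [if_neg h, Nat.choose_eq_zero_of_lt (not_le.1 h)]
        simp
    have ht := tail1 d m hd (by
      have := mul_le_mul_of_nonneg_right two_exp_two_le_qd hd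
      linarith) r hr N
    have he := epsT_nonneg d m hd N
    have hc : 0 ≤ (2 * w * d) ^ r / (r.factorial : ℝ) := by positivity
    rw [hsum]
    calc (2 * w * d) ^ r / (r.factorial : ℝ) *
          ∑ M ∈ (range (N + 1)).filter (fun M : ℕ => m < (M : ℝ) ∧ r ≤ M),
            d ^ (M - r) / ((M - r).factorial : ℝ)
        ≤ (2 * w * d) ^ r / (r.factorial : ℝ) * 3 ^ r := mul_le_mul_of_nonneg_left ht hc
      _ = 1 * ((6 * w * d) ^ r / (r.factorial : ℝ)) := by
          have : (6 * w * d) ^ r = (2 * w * d) ^ r * 3 ^ r := by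
            rw [← mul_pow]; congr 1; ring
          rw [this]; ring
      _ ≤ (1 + epsT d m N) * ((6 * w * d) ^ r / (r.factorial : ℝ)) := by
          apply mul_le_mul_of_nonneg_right (by linarith)
          positivity
      _ = (1 + epsT d m N) * (6 * w * d) ^ r / (r.factorial : ℝ) := by ring

end Vale.Agent.P064F
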