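import Vale.Agent.P064F.Defs

/-! # P064F leaf: the recording rule -/

namespace Vale.Agent.P064F

open Finset

variable {V T : Type} [Fintype V] [DecidableEq V] [DecidableEq T]

lemma rcd_subset (s : St V T) (ch : V → Finset V) (δ : ℝ) (J : ℤ) (x : V) :
    s.rcd ch δ J x ⊆ ch x := by
  unfold St.rcd
  exact Finset.filter_subset _ _

/-- Group the unrecorded children by their level `i`; there are `cnt x i ≤ al i` of them. -/
lemma unrec_sum_le (s : St V T) (ch : V → Finset V) (δ : ℝ) (J : ℤ) (x : V) (w : ℕ → ℝ)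
    (hw : ∀ i, 0 ≤ w i) (hal : ∀ i, 0 ≤ s.al δ J i) :
    ∑ y ∈ ch x \ s.rcd ch δ J x, w (s.lev (s.wit y)) ≤
      ∑ i ∈ (univ.image s.wit).image s.lev, s.al δ J i * w i := by
  have hmaps : ∀ y ∈ ch x \ s.rcd ch δ J x,
      s.lev (s.wit y) ∈ (univ.image s.wit).image s.lev := by
    intro y _
    exact Finset.mem_image_of_mem _ (Finset.mem_image_of_mem _ (Finset.mem_univ y))
  rw [← Finset.sum_fiberwise_of_maps_to hmaps]
  apply Finset.sum_le_sum
  intro i _
  have e : ∑ y ∈ (ch x \ s.rcd ch δ J x).filter (fun y => s.lev (s.wit y) = i),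
      w (s.lev (s.wit y)) =
      (((ch x \ s.rcd ch δ J x).filter (fun y => s.lev (s.wit y) = i)).card : ℝ) * w i := by
    rw [Finset.sum_congr rfl (g := fun _ => w i)
      (fun y hy => by rw [(Finset.mem_filter.mp hy).2]), Finset.sum_const, nsmul_eq_mul]
  rw [e]
  apply mul_le_mul_of_nonneg_right _ (hw i)
  rcases Finset.eq_empty_or_nonempty
    ((ch x \ s.rcd ch δ J x).filter (fun y => s.lev (s.wit y) = i)) with h0 | ⟨y, hy⟩
  · rw [h0]
    simpa using hal i
  · obtain ⟨hy1, hy2⟩ := Finset.mem_filter.mp hy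
    obtain ⟨hy3, hy4⟩ := Finset.mem_sdiff.mp hy1
    have hnot : ¬ s.al δ J (s.lev (s.wit y)) < (s.cnt ch x (s.lev (s.wit y)) : ℝ) := by
      intro hlt
      apply hy4
      unfold St.rcd
      exact Finset.mem_filter.mpr ⟨hy3, hlt⟩
    rw [hy2] at hnot
    have hle : (s.cnt ch x i : ℝ) ≤ s.al δ J i := not_lt.mp hnot
    refine le_trans ?_ hle
    have hsub : (ch x \ s.rcd ch δ J x).filter (fun y => s.lev (s.wit y) = i) ⊆
        (ch x).filter (fun y => s.lev (s.wit y) = i) :=
      Finset.filter_subset_filter _ Finset.sdiff_subset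
    unfold St.cnt
    exact_mod_cast Finset.card_le_card hsub

/-- The witness of the next stage consists of whole level classes of children, each over its
allowance. -/
lemma next_wit_profile (s : St V T) (ch : V → Finset V) (δ : ℝ) (J : ℤ) (x : V) :
    (∀ t ∈ (s.next ch δ J).wit x, t ∈ univ.image s.wit) ∧
    ((s.next ch δ J).wit x).card ≤ Fintype.card V ∧
    ∀ i, (((s.next ch δ J).wit x).filter fun t => s.lev t = i) = 0 ∨
      s.al δ J i < ((((s.next ch δ J).wit x).filter fun t => s.lev t = i).card : ℝ) := by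
  have hwit : (s.next ch δ J).wit x = (s.rcd ch δ J x).val.map s.wit := rfl
  rw [hwit]
  refine ⟨?_, ?_, ?_⟩
  · intro t ht
    obtain ⟨y, _, rfl⟩ := Multiset.mem_map.mp ht
    exact Finset.mem_image_of_mem _ (Finset.mem_univ y)
  · rw [Multiset.card_map]
    exact Finset.card_le_univ _
  · intro i
    rw [Multiset.filter_map]
    have hf : Multiset.filter ((fun t => s.lev t = i) ∘ s.wit) (s.rcd ch δ J x).val =
        ((s.rcd ch δ J x).filter (fun y => s.lev (s.wit y) = i)).val := rfl
    rw [hf]
    rcases Finset.eq_empty_or_nonempty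
      ((s.rcd ch δ J x).filter (fun y => s.lev (s.wit y) = i)) with h0 | ⟨y, hy⟩
    · left
      rw [h0]
      rfl
    · right
      rw [Multiset.card_map]
      obtain ⟨hy1, hy2⟩ := Finset.mem_filter.mp hy
      have hy3 : s.al δ J (s.lev (s.wit y)) < (s.cnt ch x (s.lev (s.wit y)) : ℝ) := by
        unfold St.rcd at hy1
        exact (Finset.mem_filter.mp hy1).2
      rw [hy2] at hy3
      have heq : (s.rcd ch δ J x).filter (fun y => s.lev (s.wit y) = i) =
          (ch x).filter (fun y => s.lev (s.wit y) = i) := by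
        ext v
        constructor
        · intro hv
          obtain ⟨hv1, hv2⟩ := Finset.mem_filter.mp hv
          exact Finset.mem_filter.mpr ⟨rcd_subset s ch δ J x hv1, hv2⟩
        · intro hv
          obtain ⟨hv1, hv2⟩ := Finset.mem_filter.mp hv
          refine Finset.mem_filter.mpr ⟨?_, hv2⟩
          unfold St.rcd
          refine Finset.mem_filter.mpr ⟨hv1, ?_⟩
          rw [hv2]
          exact hy3
      rw [heq]
      exact hy3

end Vale.Agent.P064F
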