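import Vale.Agent.P064F.Defs
import Vale.Agent.P064F.MSum

/-! # P064F leaf: the sum over one level -/

namespace Vale.Agent.P064F

open Polynomial Finset

variable {T : Type} [DecidableEq T]

lemma coeff_base_nonneg_split1 (w : ℝ) (hw : 0 ≤ w) (M r : ℕ) :
    0 ≤ ((1 + C (2 * w) * X : ℝ[X]) ^ M).coeff r := by
  induction M generalizing r with
  | zero =>
    rw [pow_zero, coeff_one]
    split_ifs <;> norm_num
  | succ M ih =>
    rw [pow_succ, mul_add, mul_one, coeff_add, ← mul_assoc]
    cases r with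
    | zero =>
      rw [coeff_zero_eq_eval_zero ((1 + C (2 * w) * X : ℝ[X]) ^ M * C (2 * w) * X)]
      simp only [eval_mul, eval_X, mul_zero, add_zero]
      exact ih 0
    | succ k =>
      rw [coeff_mul_X, coeff_mul_C]
      exact add_nonneg (ih _) (mul_nonneg (ih k) (by positivity))

/-- Sum over a family `P` of multisets of types of one level, each empty or of size `> m`:
group by the size `M` and use `D_sum_le`.  (All polynomials have nonnegative coefficients.) -/
lemma level_sum_le (Θ : Finset T) (p : T → ℝ) (hp : ∀ t, 0 ≤ p t) (w m : ℝ) (hw : 0 ≤ w) (N : ℕ)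
    (P : Finset (Multiset T))
    (hP : ∀ S ∈ P, (∀ t ∈ S, t ∈ Θ) ∧ S.card ≤ N ∧ (S = 0 ∨ m < (S.card : ℝ))) (r : ℕ) :
    (∑ S ∈ P, C (D p S) * (1 + C (2 * w) * X : ℝ[X]) ^ S.card).coeff r ≤
      (Q (∑ t ∈ Θ, p t) w m N).coeff r := by
  set b : ℕ → ℝ := fun M => ((1 + C (2 * w) * X : ℝ[X]) ^ M).coeff r with hb
  have hb0 : ∀ M, 0 ≤ b M := fun M => coeff_base_nonneg_split1 w hw M r
  set d := ∑ t ∈ Θ, p t with hd
  set F := (range (N + 1)).filter (fun M : ℕ => m < (M : ℝ)) with hF
  have hL : (∑ S ∈ P, C (D p S) * (1 + C (2 * w) * X : ℝ[X]) ^ S.card).coeff r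
      = ∑ S ∈ P, D p S * b S.card := by
    rw [finsetSum_coeff]
    apply Finset.sum_congr rfl
    intro S _
    rw [coeff_C_mul]
  have hR : (Q d w m N).coeff r = b 0 + ∑ M ∈ F, d ^ M / (M.factorial : ℝ) * b M := by
    unfold Q
    rw [coeff_add, finsetSum_coeff]
    have e0 : b 0 = (1 : ℝ[X]).coeff r := by simp only [hb, pow_zero]
    rw [e0]
    refine congrArg _ ?_
    apply Finset.sum_congr rfl
    intro M _
    rw [coeff_C_mul]
  rw [hL, hR, ← Finset.sum_filter_add_sum_filter_not P (fun S => S = 0)]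
  apply add_le_add
  · calc ∑ S ∈ P.filter (fun S => S = 0), D p S * b S.card
        ≤ ∑ S ∈ ({0} : Finset (Multiset T)), D p S * b S.card := by
          apply Finset.sum_le_sum_of_subset_of_nonneg
          · intro S hS
            rw [Finset.mem_filter] at hS
            rw [Finset.mem_singleton]
            exact hS.2
          · intro S _ _
            exact mul_nonneg (D_nonneg p hp S) (hb0 _)
      _ = b 0 := by
          rw [Finset.sum_singleton, D_zero, Multiset.card_zero, one_mul]
  · have hmaps : ∀ S ∈ P.filter (fun S => ¬ S = 0), S.card ∈ F := by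
      intro S hS
      rw [Finset.mem_filter] at hS
      obtain ⟨_, h2, h3⟩ := hP S hS.1
      rw [hF, Finset.mem_filter, Finset.mem_range]
      refine ⟨by omega, ?_⟩
      rcases h3 with h3 | h3
      · exact absurd h3 hS.2
      · exact h3
    rw [← Finset.sum_fiberwise_of_maps_to hmaps]
    apply Finset.sum_le_sum
    intro M _
    have h1 : ∑ S ∈ (P.filter (fun S => ¬ S = 0)).filter (fun S => S.card = M), D p S * b S.card
        = (∑ S ∈ (P.filter (fun S => ¬ S = 0)).filter (fun S => S.card = M), D p S) * b M := by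
      rw [Finset.sum_mul]
      apply Finset.sum_congr rfl
      intro S hS
      rw [Finset.mem_filter] at hS
      rw [hS.2]
    rw [h1]
    apply mul_le_mul_of_nonneg_right _ (hb0 M)
    apply D_sum_le Θ p hp M
    intro S hS
    rw [Finset.mem_filter, Finset.mem_filter] at hS
    exact ⟨hS.2, (hP S hS.1.1).1⟩

lemma level_sum_coeff_nonneg (p : T → ℝ) (hp : ∀ t, 0 ≤ p t) (w : ℝ) (hw : 0 ≤ w)
    (P : Finset (Multiset T)) (r : ℕ) :
    0 ≤ (∑ S ∈ P, C (D p S) * (1 + C (2 * w) * X : ℝ[X]) ^ S.card).coeff r := by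
  rw [finsetSum_coeff]
  apply Finset.sum_nonneg
  intro S _
  rw [coeff_C_mul]
  exact mul_nonneg (D_nonneg p hp S) (coeff_base_nonneg_split1 w hw _ r)

end Vale.Agent.P064F
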