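import Vale.Agent.P064F.Defs
import Vale.Agent.P064F.MSum
import Vale.Agent.P064F.Split1

/-! # P064F leaf: factorization of the sum over the levels -/

namespace Vale.Agent.P064F

open Polynomial Finset

variable {T : Type} [DecidableEq T]

lemma prod_coeff_nonneg {ι : Type*} (s : Finset ι) (f : ι → ℝ[X])
    (h0 : ∀ i ∈ s, ∀ r, 0 ≤ (f i).coeff r) (r : ℕ) : 0 ≤ (∏ i ∈ s, f i).coeff r := by
  classical
  induction s using Finset.induction_on generalizing r with
  | empty =>
    rw [Finset.prod_empty, Polynomial.coeff_one]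
    split_ifs <;> norm_num
  | insert a s ha ih =>
    rw [Finset.prod_insert ha, Polynomial.coeff_mul]
    apply Finset.sum_nonneg
    intro x _
    exact mul_nonneg (h0 a (mem_insert_self _ _) _)
      (ih (fun i hi => h0 i (mem_insert_of_mem hi)) _)

/-- Coefficientwise monotonicity of finite products of polynomials with nonnegative
coefficients. -/
lemma prod_coeff_le {ι : Type*} (s : Finset ι) (f g : ι → ℝ[X])
    (h0 : ∀ i ∈ s, ∀ r, 0 ≤ (f i).coeff r) (h : ∀ i ∈ s, ∀ r, (f i).coeff r ≤ (g i).coeff r)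
    (r : ℕ) : (∏ i ∈ s, f i).coeff r ≤ (∏ i ∈ s, g i).coeff r := by
  classical
  induction s using Finset.induction_on generalizing r with
  | empty => simp
  | insert a s ha ih =>
    rw [Finset.prod_insert ha, Finset.prod_insert ha, Polynomial.coeff_mul, Polynomial.coeff_mul]
    apply Finset.sum_le_sum
    intro x _
    apply mul_le_mul (h a (mem_insert_self _ _) _)
      (ih (fun i hi => h0 i (mem_insert_of_mem hi)) (fun i hi => h i (mem_insert_of_mem hi)) _)
      (prod_coeff_nonneg s f (fun i hi => h0 i (mem_insert_of_mem hi)) _)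
      ((h0 a (mem_insert_self _ _) _).trans (h a (mem_insert_self _ _) _))

/-- `Phi` factorizes over the levels (`D_filter_prod`, `sum_filter_lev`). -/
lemma Phi_eq_prod (p : T → ℝ) (w : ℕ → ℝ) (lev : T → ℕ) (I : Finset ℕ) (S : Multiset T)
    (hI : ∀ t ∈ S, lev t ∈ I) :
    Phi p w lev S = ∏ i ∈ I, (C (D p (S.filter fun t => lev t = i)) *
      (1 + C (2 * w i) * X : ℝ[X]) ^ (S.filter fun t => lev t = i).card) := by
  unfold Phi
  rw [Finset.prod_mul_distrib, ← map_prod, ← D_filter_prod p lev I S hI]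
  congr 1
  have key : (S.map fun t => (1 + C (2 * w (lev t)) * X : ℝ[X])).prod
      = ∏ i ∈ I, ((S.filter fun t => lev t = i).map
          fun t => (1 + C (2 * w (lev t)) * X : ℝ[X])).prod := by
    conv_lhs => rw [sum_filter_lev lev I S hI]
    rw [← Multiset.mapAddMonoidHom_apply, map_sum, Multiset.prod_sum]
    rfl
  rw [key]
  apply Finset.prod_congr rfl
  intro i _
  have h1 : ((S.filter fun t => lev t = i).map fun t => (1 + C (2 * w (lev t)) * X : ℝ[X]))
      = (S.filter fun t => lev t = i).map fun _ => (1 + C (2 * w i) * X : ℝ[X]) := by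
    apply Multiset.map_congr rfl
    intro t ht
    rw [(Multiset.mem_filter.mp ht).2]
  rw [h1, Multiset.map_const', Multiset.prod_replicate]

/-- The main summation lemma.  With `I = Θ.image lev` and `P i` the image of `P` under
`S ↦ S.filter (lev · = i)`, the map `S ↦ (S.filter (lev · = i))_i` is injective from `P` into
`Finset.pi I P`, hence (nonnegative coefficients, `Finset.prod_sum`)
`∑_{S ∈ P} Phi S ≤ ∏_{i ∈ I} ∑_{S' ∈ P i} C (D p S') (1 + 2 w_i X)^|S'|`, and each factor is bounded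
by `level_sum_le`. -/
lemma split_le (Θ : Finset T) (lev : T → ℕ) (p : T → ℝ) (hp : ∀ t, 0 ≤ p t) (w : ℕ → ℝ)
    (hw : ∀ i, 0 ≤ w i) (m : ℕ → ℝ) (N : ℕ) (P : Finset (Multiset T))
    (hP : ∀ S ∈ P, (∀ t ∈ S, t ∈ Θ) ∧ S.card ≤ N ∧
      ∀ i, (S.filter fun t => lev t = i) = 0 ∨ m i < ((S.filter fun t => lev t = i).card : ℝ))
    (r : ℕ) :
    (∑ S ∈ P, Phi p w lev S).coeff r ≤
      (∏ i ∈ Θ.image lev, Q (∑ t ∈ Θ.filter (fun t => lev t = i), p t) (w i) (m i) N).coeff r := by
  classical
  set I := Θ.image lev with hIdef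
  let F : ℕ → Multiset T → ℝ[X] := fun i S' => C (D p S') * (1 + C (2 * w i) * X) ^ S'.card
  let Pi : ℕ → Finset (Multiset T) := fun i => P.image (fun S => S.filter fun t => lev t = i)
  have hFnn : ∀ i S' r, 0 ≤ (F i S').coeff r := by
    intro i S' r
    have := level_sum_coeff_nonneg p hp (w i) (hw i) {S'} r
    simpa [F] using this
  have hlevI : ∀ S ∈ P, ∀ t ∈ S, lev t ∈ I := by
    intro S hS t ht
    exact Finset.mem_image_of_mem _ ((hP S hS).1 t ht)
  let ι : Multiset T → (∀ i ∈ I, Multiset T) := fun S i _ => S.filter fun t => lev t = i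
  have hinj : Set.InjOn ι (P : Set (Multiset T)) := by
    intro S hS S' hS' h
    rw [sum_filter_lev lev I S (hlevI S hS), sum_filter_lev lev I S' (hlevI S' hS')]
    apply Finset.sum_congr rfl
    intro i hi
    exact congrFun (congrFun h i) hi
  have h1 : (∑ S ∈ P, Phi p w lev S).coeff r
      = ∑ φ ∈ P.image ι, (∏ x ∈ I.attach, F x.1 (φ x.1 x.2)).coeff r := by
    rw [Finset.sum_image hinj, Polynomial.finsetSum_coeff]
    apply Finset.sum_congr rfl
    intro S hS
    rw [Phi_eq_prod p w lev I S (hlevI S hS)]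
    congr 1
    exact (Finset.prod_attach I (fun i => F i (S.filter fun t => lev t = i))).symm
  have hsub : P.image ι ⊆ I.pi Pi := by
    intro φ hφ
    obtain ⟨S, hS, rfl⟩ := Finset.mem_image.mp hφ
    rw [Finset.mem_pi]
    intro i _
    exact Finset.mem_image_of_mem _ hS
  have h2 : ∑ φ ∈ P.image ι, (∏ x ∈ I.attach, F x.1 (φ x.1 x.2)).coeff r
      ≤ ∑ φ ∈ I.pi Pi, (∏ x ∈ I.attach, F x.1 (φ x.1 x.2)).coeff r := by
    apply Finset.sum_le_sum_of_subset_of_nonneg hsub
    intro φ _ _
    exact prod_coeff_nonneg _ _ (fun x _ r => hFnn _ _ r) r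
  have h3 : ∑ φ ∈ I.pi Pi, (∏ x ∈ I.attach, F x.1 (φ x.1 x.2)).coeff r
      = (∏ i ∈ I, ∑ S' ∈ Pi i, F i S').coeff r := by
    rw [Finset.prod_sum, Polynomial.finsetSum_coeff]
  rw [h1]
  refine h2.trans ?_
  rw [h3]
  apply prod_coeff_le
  · intro i _ r
    exact level_sum_coeff_nonneg p hp (w i) (hw i) (Pi i) r
  · intro i _ r
    apply level_sum_le (Θ.filter fun t => lev t = i) p hp (w i) (m i) (hw i) N (Pi i)
    intro S' hS'
    obtain ⟨S, hS, rfl⟩ := Finset.mem_image.mp hS'
    refine ⟨?_, ?_, (hP S hS).2.2 i⟩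
    · intro t ht
      have := Multiset.mem_filter.mp ht
      exact Finset.mem_filter.mpr ⟨(hP S hS).1 t this.1, this.2⟩
    · exact (Multiset.card_le_card (Multiset.filter_le _ _)).trans (hP S hS).2.1

end Vale.Agent.P064F
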