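import Vale.Agent.P064F.Defs
import Vale.Agent.P064F.Poly1
import Vale.Agent.P064F.Poly2
import Vale.Agent.P064F.Poly3
import Vale.Agent.P064F.QDom
import Vale.Agent.P064F.MSum
import Vale.Agent.P064F.Split2
import Vale.Agent.P064F.Num
import Vale.Agent.P064F.NumBudget
import Vale.Agent.P064F.NumEps
import Vale.Agent.P064F.RecLemmas
import Vale.Agent.P064F.LevN

/-! # P064F glue: the analytic invariants are preserved by one step -/

namespace Vale.Agent.P064F

open Polynomial Finset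

variable {V T : Type} [Fintype V] [DecidableEq V] [DecidableEq T]

theorem stepC_val (s : St V T) (ch : V → Finset V) (J : ℤ) (h : ℕ) (hs : GoodC s ch J h) (δ : ℝ)
    (hδ : 0 ≤ δ) (hz : zJ J * δ ≤ 1 / 20000) (x : V) :
    Y ch (zJ J) (h + 1) x ≤ 2 * (2 : ℝ) ^ (s.next ch δ J).lev ((s.next ch δ J).wit x) := by
  have hzpos := zJ_pos J
  set wy : V → ℝ := fun y => wL J (s.lev (s.wit y)) with hwy
  have hwy0 : ∀ y, 0 ≤ wy y := fun y => (wL_pos J _).le
  have h1 : Y ch (zJ J) (h + 1) x ≤ G (ch x) wy := by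
    show G (ch x) (fun y => zJ J * Y ch (zJ J) h y) ≤ _
    apply G_mono
    · intro y _
      exact mul_nonneg hzpos.le (le_trans zero_le_one (one_le_Y ch _ hzpos.le h y))
    · intro y _
      have := hs.val_le y
      calc zJ J * Y ch (zJ J) h y ≤ zJ J * (2 * (2 : ℝ) ^ s.lev (s.wit y)) :=
            mul_le_mul_of_nonneg_left this hzpos.le
        _ = 2 * zJ J * (2 : ℝ) ^ s.lev (s.wit y) := by ring
        _ = wy y := wL_eq J _
  set rc := s.rcd ch δ J x with hrc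
  have hsub : rc ⊆ ch x := rcd_subset s ch δ J x
  have h2 : G (ch x) wy = Lam ((∏ y ∈ ch x \ rc, (1 + C (wy y) * X)) *
      ∏ y ∈ rc, (1 + C (wy y) * X)) := by
    rw [G_eq_Lam, Finset.prod_sdiff hsub]
  have hA : ∑ y ∈ ch x \ rc, wy y ≤ 1 / 2 :=
    (unrec_sum_le s ch δ J x (wL J) (fun i => (wL_pos J i).le)
      (al_nonneg s hs.mu_nonneg δ hδ J)).trans (budget_le s ch J h hs δ hδ hz)
  have hdom : Dom (∏ y ∈ ch x \ rc, (1 + C (wy y) * X)) 1 (∑ y ∈ ch x \ rc, wy y) := by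
    have := Dom.prod (ch x \ rc) (fun y => (1 + C (wy y) * X : ℝ[X])) (fun _ => 1) wy
      (fun y _ => dom_one_add _ (hwy0 y)) (fun _ _ => zero_le_one) (fun y _ => hwy0 y)
    simpa using this
  have h3 := Lam_mul_le _ (∏ y ∈ rc, (1 + C (wy y) * X)) _ hdom
    (Finset.sum_nonneg fun y _ => hwy0 y) hA
    (prod_one_add_coeff_nonneg rc wy fun y _ => hwy0 y)
  have h4 : 2 * Lam ((∏ y ∈ rc, (1 + C (wy y) * X : ℝ[X])).comp (C 2 * X)) =
      s.Vb J ((s.next ch δ J).wit x) := by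
    rw [comp_two_prod s J rc]
    rfl
  calc Y ch (zJ J) (h + 1) x ≤ G (ch x) wy := h1
    _ ≤ s.Vb J ((s.next ch δ J).wit x) := by rw [h2, ← h4]; exact h3
    _ ≤ _ := Vb_le s J _

theorem stepC_sum (s : St V T) (ch : V → Finset V) (J : ℤ) (h : ℕ) (hs : GoodC s ch J h) (δ : ℝ)
    (hδ : 0 ≤ δ) (hz : zJ J * δ ≤ 1 / 20000) :
    ∑ S ∈ univ.image (s.next ch δ J).wit,
      (2 : ℝ) ^ (s.next ch δ J).lev S * (s.next ch δ J).mu S ≤ 2 := by
  set p : T → ℝ := fun t => δ * s.mu t with hp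
  have hp0 : ∀ t, 0 ≤ p t := fun t => mul_nonneg hδ (hs.mu_nonneg t)
  set P : Finset (Multiset T) := insert 0 (univ.image (s.next ch δ J).wit) with hP
  set Θ := univ.image s.wit with hΘ
  set I := Θ.image s.lev with hI
  set N := Fintype.card V with hN
  have hD0 : ∀ S, 0 ≤ D p S := D_nonneg p hp0
  -- step 1: compare with `Vb`
  have e1 : ∑ S ∈ univ.image (s.next ch δ J).wit,
      (2 : ℝ) ^ (s.next ch δ J).lev S * (s.next ch δ J).mu S ≤
      ∑ S ∈ P, s.Vb J S * D p S - 1 := by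
    have a1 : ∑ S ∈ univ.image (s.next ch δ J).wit, (2 : ℝ) ^ s.levN J S * D p S ≤
        ∑ S ∈ P, (2 : ℝ) ^ s.levN J S * D p S :=
      Finset.sum_le_sum_of_subset_of_nonneg (Finset.subset_insert _ _)
        (fun S _ _ => mul_nonneg (by positivity) (hD0 S))
    have a2 : ∑ S ∈ P, (2 : ℝ) ^ s.levN J S * D p S =
        1 + ∑ S ∈ P.erase 0, (2 : ℝ) ^ s.levN J S * D p S := by
      rw [← Finset.add_sum_erase P _ (Finset.mem_insert_self 0 _), levN_zero, D_zero]
      norm_num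
    have a3 : ∑ S ∈ P, s.Vb J S * D p S = 2 + ∑ S ∈ P.erase 0, s.Vb J S * D p S := by
      rw [← Finset.add_sum_erase P _ (Finset.mem_insert_self 0 _), Vb_zero, D_zero]
      norm_num
    have a4 : ∑ S ∈ P.erase 0, (2 : ℝ) ^ s.levN J S * D p S ≤
        ∑ S ∈ P.erase 0, s.Vb J S * D p S := by
      apply Finset.sum_le_sum
      intro S hS
      exact mul_le_mul_of_nonneg_right (pow_levN_le s J S (Finset.ne_of_mem_erase hS)) (hD0 S)
    have a0 : ∑ S ∈ univ.image (s.next ch δ J).wit,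
        (2 : ℝ) ^ (s.next ch δ J).lev S * (s.next ch δ J).mu S =
        ∑ S ∈ univ.image (s.next ch δ J).wit, (2 : ℝ) ^ s.levN J S * D p S := rfl
    rw [a0]
    linarith
  -- step 2: the sum as `Lam` of a polynomial
  have e2 : ∑ S ∈ P, s.Vb J S * D p S = 2 * Lam (∑ S ∈ P, Phi p (wL J) s.lev S) := by
    rw [Lam_sum, Finset.mul_sum]
    exact Finset.sum_congr rfl fun S _ => Vb_mul_D s J p S
  -- step 3: the summation lemma
  have hPprop : ∀ S ∈ P, (∀ t ∈ S, t ∈ Θ) ∧ S.card ≤ N ∧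
      ∀ i, (S.filter fun t => s.lev t = i) = 0 ∨
        s.al δ J i < ((S.filter fun t => s.lev t = i).card : ℝ) := by
    intro S hS
    rcases Finset.mem_insert.mp hS with rfl | hS
    · exact ⟨by simp, by simp, fun i => Or.inl (by simp)⟩
    · obtain ⟨x, _, rfl⟩ := Finset.mem_image.mp hS
      exact next_wit_profile s ch δ J x
  have e3 : Lam (∑ S ∈ P, Phi p (wL J) s.lev S) ≤
      Lam (∏ i ∈ I, Q (s.dl δ i) (wL J i) (s.al δ J i) N) := by
    apply Lam_mono
    intro r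
    have := split_le Θ s.lev p hp0 (wL J) (fun i => (wL_pos J i).le) (s.al δ J) N P hPprop r
    have hd : ∀ i, ∑ t ∈ Θ.filter (fun t => s.lev t = i), p t = s.dl δ i := by
      intro i
      simp only [hp, St.dl, Finset.mul_sum, hΘ]
    simpa only [hd] using this
  -- step 4: domination
  have hdl0 := dl_nonneg s hs.mu_nonneg δ hδ
  have hdom : Dom (∏ i ∈ I, Q (s.dl δ i) (wL J i) (s.al δ J i) N)
      (∏ i ∈ I, (1 + epsT (s.dl δ i) (s.al δ J i) N)) (∑ i ∈ I, 6 * wL J i * s.dl δ i) := by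
    apply Dom.prod
    · intro i _
      apply Q_dom _ _ _ (hdl0 i) (wL_pos J i).le
      have : (0 : ℝ) ≤ 3 * ((J + 1 - (i : ℤ)).toNat : ℝ) := by positivity
      simp only [St.al]
      linarith
    · intro i _
      have := epsT_nonneg (s.dl δ i) (s.al δ J i) (hdl0 i) N
      linarith
    · intro i _
      exact mul_nonneg (mul_nonneg (by norm_num) (wL_pos J i).le) (hdl0 i)
  have hsum : ∑ i ∈ I, 6 * wL J i * s.dl δ i ≤ 24 / 20000 := by
    have := sum_wd_le s ch J h hs δ hδ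
    calc ∑ i ∈ I, 6 * wL J i * s.dl δ i = 6 * ∑ i ∈ I, wL J i * s.dl δ i := by
          rw [Finset.mul_sum]; exact Finset.sum_congr rfl fun i _ => by ring
      _ ≤ 6 * (4 * (zJ J * δ)) := by linarith
      _ ≤ 24 / 20000 := by linarith
  have hsum0 : 0 ≤ ∑ i ∈ I, 6 * wL J i * s.dl δ i :=
    Finset.sum_nonneg fun i _ => mul_nonneg (mul_nonneg (by norm_num) (wL_pos J i).le) (hdl0 i)
  have hprod := prod_eps_le s ch J h hs δ hδ hz N
  have hprod0 : 0 ≤ ∏ i ∈ I, (1 + epsT (s.dl δ i) (s.al δ J i) N) :=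
    Finset.prod_nonneg fun i _ => by
      have := epsT_nonneg (s.dl δ i) (s.al δ J i) (hdl0 i) N
      linarith
  have e4 := Lam_le_of_dom hdom hprod0 hsum0 (by linarith)
  have e5 : (∏ i ∈ I, (1 + epsT (s.dl δ i) (s.al δ J i) N)) /
      (1 - ∑ i ∈ I, 6 * wL J i * s.dl δ i) ≤ 3 / 2 := by
    rw [div_le_iff₀ (by linarith)]
    nlinarith
  linarith

theorem stepC (s : St V T) (ch : V → Finset V) (J : ℤ) (h : ℕ) (hs : GoodC s ch J h) (δ : ℝ)
    (hδ : 0 ≤ δ) (hz : zJ J * δ ≤ 1 / 20000) : GoodC (s.next ch δ J) ch J (h + 1) where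
  mu_nonneg := D_nonneg _ fun t => mul_nonneg hδ (hs.mu_nonneg t)
  val_le := stepC_val s ch J h hs δ hδ hz
  sum_le := stepC_sum s ch J h hs δ hδ hz

end Vale.Agent.P064F
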