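import Vale.Agent.P064F.Defs

/-! # P064F leaf: disjointness of realizations, injectivity of the edge map -/

namespace Vale.Agent.P064F

open Finset

variable {V T : Type} [Fintype V] [DecidableEq V] [DecidableEq T]

/-- If `v` lies in both, `dep x + k = dep x' + k'` with `1 ≤ k, k' ≤ ec t`, so the depths differ by
less than `ec t + 1`; being congruent they are equal, `k = k'` and `x = par^[k] v = x'`. -/
lemma RV_disjoint (s : St V T) (par : V → V) (dep : V → ℕ)
    (hdesc : ∀ x, ∀ v ∈ s.RV x, ∃ k, 1 ≤ k ∧ k ≤ s.ec (s.wit x) ∧ par^[k] v = x ∧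
      dep v = dep x + k) (t : T) (x x' : V) (hx : s.wit x = t) (hx' : s.wit x' = t) (hne : x ≠ x')
    (hmod : dep x % (s.ec t + 1) = dep x' % (s.ec t + 1)) : Disjoint (s.RV x) (s.RV x') := by
  rw [Finset.disjoint_left]
  intro v hv hv'
  obtain ⟨k, hk1, hk2, hk3, hk4⟩ := hdesc x v hv
  obtain ⟨k', hk1', hk2', hk3', hk4'⟩ := hdesc x' v hv'
  rw [hx] at hk2
  rw [hx'] at hk2'
  apply hne
  have hdd : dep x = dep x' := by
    have e1 := Nat.div_add_mod (dep x) (s.ec t + 1)
    have e2 := Nat.div_add_mod (dep x') (s.ec t + 1)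
    rw [hmod] at e1
    generalize dep x' % (s.ec t + 1) = r at e1 e2
    generalize hA : dep x / (s.ec t + 1) = A at e1
    generalize hB : dep x' / (s.ec t + 1) = B at e2
    have hAB : A = B := by
      rcases lt_trichotomy A B with h | h | h
      · exfalso
        have h1 : (s.ec t + 1) * (A + 1) ≤ (s.ec t + 1) * B := Nat.mul_le_mul_left _ h
        rw [Nat.mul_add, Nat.mul_one] at h1
        omega
      · exact h
      · exfalso
        have h1 : (s.ec t + 1) * (B + 1) ≤ (s.ec t + 1) * A := Nat.mul_le_mul_left _ h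
        rw [Nat.mul_add, Nat.mul_one] at h1
        omega
    rw [hAB] at e1
    omega
  have hkk : k = k' := by omega
  rw [← hk3, ← hk3', hkk]

/-- A vertex of a realization is not a root. -/
lemma par_ne_of_mem_RV (s : St V T) (par : V → V) (dep : V → ℕ)
    (hdesc : ∀ x, ∀ v ∈ s.RV x, ∃ k, 1 ≤ k ∧ k ≤ s.ec (s.wit x) ∧ par^[k] v = x ∧
      dep v = dep x + k) (x v : V) (hv : v ∈ s.RV x) : par v ≠ v := by
  intro h
  obtain ⟨k, hk1, _, hk3, hk4⟩ := hdesc x v hv
  have h1 : par^[k] v = v := Function.iterate_fixed h k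
  rw [h1] at hk3
  rw [hk3] at hk4
  omega

/-- The parent edge determines its lower end. -/
lemma edge_inj (par : V → V) (dep : V → ℕ) (hdep : ∀ v, par v ≠ v → dep v = dep (par v) + 1)
    (v v' : V) (hv : par v ≠ v) (hv' : par v' ≠ v') (h : s(v, par v) = s(v', par v')) : v = v' := by
  rw [Sym2.eq_iff] at h
  rcases h with ⟨h1, _⟩ | ⟨h1, h2⟩
  · exact h1
  · exfalso
    have e1 := hdep v hv
    have e2 := hdep v' hv'
    rw [h2] at e1
    rw [← h1] at e2
    omega

end Vale.Agent.P064F
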