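import Vale.Agent.P064F.Defs
import Vale.Agent.P064F.TB1

/-! # P064F leaf: the union of disjoint realizations of one type -/

namespace Vale.Agent.P064F

open Finset Vale.Agent.P064

variable {V T : Type} [Fintype V] [DecidableEq V] [DecidableEq T]

/-- The edge set of the union of the realizations below the vertices of `X`. -/
def unionE (s : St V T) (par : V → V) (X : Finset V) : Finset (Sym2 V) :=
  X.biUnion fun x => (s.RV x).image fun v => s(v, par v)

/-- The corresponding graph. -/
def unionG (s : St V T) (par : V → V) (X : Finset V) : SimpleGraph V :=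
  SimpleGraph.fromEdgeSet (unionE s par X : Set (Sym2 V))

lemma unionG_le (H : SimpleGraph V) (R : Rooting H) (q : ℝ) (s : St V T)
    (hs : GoodB s R.par R.dep q) (X : Finset V) : unionG s R.par X ≤ H := by
  intro a b hab
  rw [unionG, SimpleGraph.fromEdgeSet_adj] at hab
  obtain ⟨hmem, hne⟩ := hab
  rw [Finset.mem_coe, unionE, Finset.mem_biUnion] at hmem
  obtain ⟨x, -, hx⟩ := hmem
  obtain ⟨v, -, hv⟩ := Finset.mem_image.1 hx
  rw [R.adj_iff]
  refine ⟨hne, ?_⟩
  rw [Sym2.eq_iff] at hv
  rcases hv with ⟨h1, h2⟩ | ⟨h1, h2⟩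
  · left
    rw [← h1, h2]
  · right
    rw [← h1, h2]

/-- No edge is a loop, the edge map is injective (`edge_inj`) and the sets `RV x` are disjoint. -/
lemma unionG_ncard (H : SimpleGraph V) (R : Rooting H) (q : ℝ) (s : St V T)
    (hs : GoodB s R.par R.dep q) (t : T) (X : Finset V) (hX : ∀ x ∈ X, s.wit x = t)
    (hdisj : ∀ x ∈ X, ∀ x' ∈ X, x ≠ x' → Disjoint (s.RV x) (s.RV x')) :
    (unionG s R.par X).edgeSet.ncard = X.card * s.ec t := by
  have hpar : ∀ x v, v ∈ s.RV x → R.par v ≠ v :=
    fun x v hv => par_ne_of_mem_RV s R.par R.dep hs.desc x v hv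
  have hinj : ∀ x x' v v', v ∈ s.RV x → v' ∈ s.RV x' → s(v, R.par v) = s(v', R.par v') →
      v = v' := fun x x' v v' hv hv' h =>
    edge_inj R.par R.dep R.dep_par v v' (hpar x v hv) (hpar x' v' hv') h
  have hset : (unionG s R.par X).edgeSet = (unionE s R.par X : Set (Sym2 V)) := by
    rw [unionG, SimpleGraph.edgeSet_fromEdgeSet]
    ext e
    simp only [Set.mem_sdiff, Finset.mem_coe, and_iff_left_iff_imp]
    intro he
    rw [unionE, Finset.mem_biUnion] at he
    obtain ⟨x, -, hx⟩ := he
    obtain ⟨v, hv, rfl⟩ := Finset.mem_image.1 hx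
    rw [Sym2.mem_diagSet, Sym2.mk_isDiag_iff]
    exact fun h => hpar x v hv h.symm
  rw [hset, Set.ncard_coe_finset, unionE, Finset.card_biUnion]
  · have : ∀ x ∈ X, ((s.RV x).image fun v => s(v, R.par v)).card = s.ec t := by
      intro x hx
      rw [Finset.card_image_of_injOn, hs.card_RV, hX x hx]
      intro v hv v' hv' h
      exact hinj x x v v' hv hv' h
    rw [Finset.sum_congr rfl this, Finset.sum_const, smul_eq_mul]
  · intro x hx x' hx' hne
    show Disjoint ((s.RV x).image fun v => s(v, R.par v)) ((s.RV x').image fun v => s(v, R.par v))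
    rw [Finset.disjoint_left]
    intro e he he'
    obtain ⟨v, hv, rfl⟩ := Finset.mem_image.1 he
    obtain ⟨v', hv', h⟩ := Finset.mem_image.1 he'
    have := hinj x' x v' v hv' hv h
    subst this
    exact Finset.disjoint_left.1 (hdisj x hx x' hx' hne) hv hv'

end Vale.Agent.P064F
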