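import Vale.Agent.P064F.Defs
import Vale.Agent.P064F.TB2

/-! # P064F leaf: few graphs are isomorphic to a union of realizations of one type -/

namespace Vale.Agent.P064F

open Finset Vale.Agent.P064

variable {V T : Type} [Fintype V] [DecidableEq V] [DecidableEq T]

/-- The graph whose edges are those of the realizations in `A`. -/
def graphOf (A : Finset (Rl V)) : SimpleGraph V :=
  SimpleGraph.fromEdgeSet ((A.biUnion fun c => c.2 : Finset (Sym2 V)) : Set (Sym2 V))

/-- If `φ : G ≃g unionG s par X` and `π = φ.symm` (a permutation of `V`), then the edge set of `G`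
is the union of the `c.2` over `c` in
`X.image fun x => Rl.mapP π (x, (RV x).image fun v => s(v, par v))`, a subset of `RS t` (by
`RS_perm`, `mem_RS`) of size `X.card` (the roots `π x` are distinct).  So `G` is determined by an
element of `(RS t).powersetCard X.card`. -/
lemma copies_unionG_le (par : V → V) (dep : V → ℕ) (q : ℝ) (s : St V T)
    (hs : GoodB s par dep q) (t : T) (X : Finset V) (hX : ∀ x ∈ X, s.wit x = t) :
    copies ⊤ (unionG s par X) ≤ ((s.RS t).card).choose X.card := by
  classical
  unfold copies
  have hsub : {G : SimpleGraph V | G ≤ ⊤ ∧ Nonempty (G ≃g unionG s par X)}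
      ⊆ (((s.RS t).powersetCard X.card).image graphOf : Finset (SimpleGraph V)) := by
    rintro G ⟨-, ⟨φ⟩⟩
    rw [Finset.mem_coe, Finset.mem_image]
    let π : Equiv.Perm V := φ.symm.toEquiv
    refine ⟨X.image fun x => Rl.mapP π (x, (s.RV x).image fun v => s(v, par v)), ?_, ?_⟩
    · rw [Finset.mem_powersetCard]
      constructor
      · intro c hc
        rw [Finset.mem_image] at hc
        obtain ⟨x, hx, rfl⟩ := hc
        apply hs.RS_perm
        have := hs.mem_RS x
        rwa [hX x hx] at this
      · apply Finset.card_image_of_injective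
        intro x y hxy
        have h1 : π x = π y := congrArg Prod.fst hxy
        exact π.injective h1
    · ext a b
      have h1 : G.Adj a b ↔ (unionG s par X).Adj (φ a) (φ b) := φ.map_adj_iff.symm
      have h3 : (unionG s par X).Adj (φ a) (φ b)
          ↔ s(φ a, φ b) ∈ (unionE s par X : Set (Sym2 V)) ∧ φ a ≠ φ b :=
        SimpleGraph.fromEdgeSet_adj _
      have h2 : φ a ≠ φ b ↔ a ≠ b := φ.injective.ne_iff
      have h4 : ∀ v, φ (π v) = v := fun v => φ.apply_symm_apply v
      have h5 : ∀ v, π (φ v) = v := fun v => φ.symm_apply_apply v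
      rw [h1, h3, h2]
      generalize (φ : V → V) = f at h4 h5 ⊢
      unfold graphOf unionE
      rw [SimpleGraph.fromEdgeSet_adj]
      apply and_congr_left
      intro _
      simp only [Finset.mem_coe, Finset.mem_biUnion, Finset.mem_image, Rl.mapP]
      constructor
      · rintro ⟨c, ⟨x, hx, rfl⟩, hc⟩
        rw [Finset.mem_image] at hc
        obtain ⟨e, he', he⟩ := hc
        rw [Finset.mem_image] at he'
        obtain ⟨v, hv, rfl⟩ := he'
        refine ⟨x, hx, v, hv, ?_⟩
        have : Sym2.map f (Sym2.map π s(v, par v)) = Sym2.map f s(a, b) := by rw [he]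
        simpa [Sym2.map_map, h4] using this
      · rintro ⟨x, hx, v, hv, he⟩
        refine ⟨_, ⟨x, hx, rfl⟩, ?_⟩
        rw [Finset.mem_image]
        refine ⟨s(v, par v), Finset.mem_image.2 ⟨v, hv, rfl⟩, ?_⟩
        rw [he]
        simp [h5]
  calc Set.ncard {G : SimpleGraph V | G ≤ ⊤ ∧ Nonempty (G ≃g unionG s par X)}
      ≤ Set.ncard ((((s.RS t).powersetCard X.card).image graphOf : Finset (SimpleGraph V)) :
          Set (SimpleGraph V)) := Set.ncard_le_ncard hsub (Finset.finite_toSet _)
    _ = (((s.RS t).powersetCard X.card).image graphOf).card := Set.ncard_coe_finset _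
    _ ≤ ((s.RS t).powersetCard X.card).card := Finset.card_image_le
    _ = ((s.RS t).card).choose X.card := Finset.card_powersetCard _ _

end Vale.Agent.P064F
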