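import Vale.Agent.P064F.Defs

/-! # P064F leaf: arithmetic of the tail bound -/

namespace Vale.Agent.P064F

open Finset

/-- `C(R,m) ≤ R^m / m!` (`Nat.choose_le_pow_div`), so `m! ≤ (R q^e)^m ≤ (a / 2^e)^m`; and
`(m/e)^m ≤ m!` (from `Real.pow_div_factorial_le_exp` with `x = m`). -/
lemma tb_arith (m Rc e : ℕ) (q a : ℝ) (hq : 0 ≤ q) (ha : 0 ≤ a)
    (h1 : 1 ≤ ((Rc.choose m : ℕ) : ℝ) * q ^ (m * e)) (h2 : (Rc : ℝ) * (2 * q) ^ e ≤ a) :
    (m : ℝ) ≤ Real.exp 1 * a / 2 ^ e := by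
  have h2e : (0 : ℝ) < 2 ^ e := by positivity
  rcases Nat.eq_zero_or_pos m with rfl | hm
  · simp only [Nat.cast_zero]
    positivity
  set b : ℝ := a / 2 ^ e with hb
  have hb0 : 0 ≤ b := by positivity
  have hRq : (Rc : ℝ) * q ^ e ≤ b := by
    rw [hb, le_div_iff₀ h2e]
    calc (Rc : ℝ) * q ^ e * 2 ^ e = (Rc : ℝ) * (2 * q) ^ e := by rw [mul_pow]; ring
      _ ≤ a := h2
  have hRq0 : 0 ≤ (Rc : ℝ) * q ^ e := by positivity
  have hfac : (0 : ℝ) < (m.factorial : ℝ) := by positivity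
  have hch : ((Rc.choose m : ℕ) : ℝ) ≤ (Rc : ℝ) ^ m / (m.factorial : ℝ) :=
    Nat.choose_le_pow_div m Rc
  have h3 : (m.factorial : ℝ) ≤ b ^ m := by
    have : 1 ≤ b ^ m / (m.factorial : ℝ) := by
      calc (1 : ℝ) ≤ ((Rc.choose m : ℕ) : ℝ) * q ^ (m * e) := h1
        _ ≤ (Rc : ℝ) ^ m / (m.factorial : ℝ) * q ^ (m * e) := by gcongr
        _ = ((Rc : ℝ) * q ^ e) ^ m / (m.factorial : ℝ) := by
            rw [mul_pow, ← pow_mul, mul_comm e m]; ring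
        _ ≤ b ^ m / (m.factorial : ℝ) := by gcongr
    rwa [le_div_iff₀ hfac, one_mul] at this
  have h4 : (m : ℝ) ^ m / (m.factorial : ℝ) ≤ Real.exp m :=
    Real.pow_div_factorial_le_exp (m : ℝ) (by positivity) m
  have h5 : (m : ℝ) ^ m ≤ (Real.exp 1 * b) ^ m := by
    rw [div_le_iff₀ hfac] at h4
    calc (m : ℝ) ^ m ≤ Real.exp m * (m.factorial : ℝ) := h4
      _ ≤ Real.exp m * b ^ m := by gcongr
      _ = (Real.exp 1 * b) ^ m := by
          rw [mul_pow, ← Real.exp_nat_mul, mul_one]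
  have h6 : (m : ℝ) ≤ Real.exp 1 * b :=
    (pow_le_pow_iff_left₀ (by positivity) (by positivity) hm.ne').1 h5
  calc (m : ℝ) ≤ Real.exp 1 * b := h6
    _ = Real.exp 1 * a / 2 ^ e := by rw [hb]; ring

end Vale.Agent.P064F
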