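import Vale.Agent.P064F.Defs
import Vale.Agent.P064F.TB1
import Vale.Agent.P064F.TB2
import Vale.Agent.P064F.TB3
import Vale.Agent.P064F.TB4

/-! # P064F glue: the tail bound -/

namespace Vale.Agent.P064F

open Finset Vale.Agent.P064

variable {V T : Type} [Fintype V] [DecidableEq V] [DecidableEq T]

theorem tailBound (H : SimpleGraph V) (R : Rooting H) (q : ℝ) (hq : 0 ≤ q)
    (hyp : ∀ F : SimpleGraph V, F ≤ H → 1 ≤ (copies ⊤ F : ℝ) * q ^ F.edgeSet.ncard)
    (s : St V T) (hs : GoodB s R.par R.dep q) (t : T) :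
    ((univ.filter fun x => s.wit x = t).card : ℝ) ≤
      Real.exp 1 * ((Fintype.card V : ℝ) * s.mu t) := by
  set e := s.ec t with he
  set a := (Fintype.card V : ℝ) * s.mu t with ha
  have ha0 : 0 ≤ a := mul_nonneg (by positivity) (hs.mu_nonneg t)
  set X := univ.filter fun x => s.wit x = t with hX
  have hclass : ∀ r, ((X.filter fun x => R.dep x % (e + 1) = r).card : ℝ) ≤
      Real.exp 1 * a / 2 ^ e := by
    intro r
    set Xr := X.filter fun x => R.dep x % (e + 1) = r with hXr
    have hw : ∀ x ∈ Xr, s.wit x = t := fun x hx =>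
      (Finset.mem_filter.mp (Finset.mem_filter.mp hx).1).2
    have hdisj : ∀ x ∈ Xr, ∀ x' ∈ Xr, x ≠ x' → Disjoint (s.RV x) (s.RV x') := by
      intro x hx x' hx' hne
      apply RV_disjoint s R.par R.dep hs.desc t x x' (hw x hx) (hw x' hx') hne
      rw [(Finset.mem_filter.mp hx).2, (Finset.mem_filter.mp hx').2]
    have h1 := hyp _ (unionG_le H R q s hs Xr)
    rw [unionG_ncard H R q s hs t Xr hw hdisj] at h1
    have h2 := copies_unionG_le R.par R.dep q s hs t Xr hw
    apply tb_arith Xr.card (s.RS t).card e q a hq ha0 _ (hs.card_RS t)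
    refine h1.trans ?_
    apply mul_le_mul_of_nonneg_right _ (by positivity)
    exact_mod_cast h2
  have hsum : (X.card : ℝ) = ∑ r ∈ range (e + 1),
      ((X.filter fun x => R.dep x % (e + 1) = r).card : ℝ) := by
    have := Finset.card_eq_sum_card_fiberwise (s := X) (t := range (e + 1))
      (f := fun x => R.dep x % (e + 1))
      (fun x _ => Finset.mem_coe.mpr (Finset.mem_range.mpr (Nat.mod_lt _ (Nat.succ_pos e))))
    rw [this]
    push_cast
    rfl
  have hpow : ((e : ℝ) + 1) ≤ 2 ^ e := by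
    have : e + 1 ≤ 2 ^ e := Nat.lt_two_pow_self
    exact_mod_cast this
  calc (X.card : ℝ) ≤ ∑ _r ∈ range (e + 1), Real.exp 1 * a / 2 ^ e := by
        rw [hsum]; exact Finset.sum_le_sum fun r _ => hclass r
    _ = ((e : ℝ) + 1) * (Real.exp 1 * a / 2 ^ e) := by
        rw [Finset.sum_const, Finset.card_range, nsmul_eq_mul]; push_cast; ring
    _ ≤ 2 ^ e * (Real.exp 1 * a / 2 ^ e) := by
        apply mul_le_mul_of_nonneg_right hpow
        positivity
    _ = Real.exp 1 * a := by field_simp

end Vale.Agent.P064F
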