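import Vale.Agent.P064F.Defs
import Vale.Agent.P064F.InitGood
import Vale.Agent.P064F.StepB
import Vale.Agent.P064F.StepC
import Vale.Agent.P064F.TB

/-! # P064F glue: the induction over stages and the bound on the generating function -/

namespace Vale.Agent.P064F

open Finset Vale.Agent.P064

variable {V : Type} [Fintype V] [DecidableEq V]

theorem exists_stage (par : V → V) (dep : V → ℕ)
    (hdep : ∀ v, par v ≠ v → dep v = dep (par v) + 1) (q : ℝ) (hq : 0 ≤ q) (J : ℤ)
    (hz : zJ J * (2 * (Fintype.card V : ℝ) * q) ≤ 1 / 20000) (h : ℕ) :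
    ∃ (T : Type) (_ : DecidableEq T) (s : St V T),
      GoodB s par dep q ∧ GoodC s (chP par) J h := by
  induction h with
  | zero => exact ⟨Unit, inferInstance, St.init V, initB par dep q, initC (chP par) J⟩
  | succ h ih =>
    obtain ⟨T, _, s, hB, hC⟩ := ih
    refine ⟨Multiset T, inferInstance, s.next (chP par) (2 * (Fintype.card V : ℝ) * q) J, ?_, ?_⟩
    · exact stepB s par dep hdep q hq hB J _ (fun x => rcd_subset s (chP par) _ J x)
    · exact stepC s (chP par) J h hC _ (by positivity) hz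

theorem sum_Y_le (H : SimpleGraph V) (R : Rooting H) (q : ℝ) (hq : 0 ≤ q)
    (hyp : ∀ F : SimpleGraph V, F ≤ H → 1 ≤ (copies ⊤ F : ℝ) * q ^ F.edgeSet.ncard) (J : ℤ)
    (hz : zJ J * (2 * (Fintype.card V : ℝ) * q) ≤ 1 / 20000) (h : ℕ) :
    ∑ x, Y (chP R.par) (zJ J) h x ≤ 4 * Real.exp 1 * (Fintype.card V : ℝ) := by
  obtain ⟨T, _, s, hB, hC⟩ := exists_stage R.par R.dep R.dep_par q hq J hz h
  have h1 : ∑ x, Y (chP R.par) (zJ J) h x ≤ ∑ x, 2 * (2 : ℝ) ^ s.lev (s.wit x) :=
    Finset.sum_le_sum fun x _ => hC.val_le x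
  have h2 : ∑ x, 2 * (2 : ℝ) ^ s.lev (s.wit x) =
      ∑ t ∈ univ.image s.wit, ((univ.filter fun x => s.wit x = t).card : ℝ) *
        (2 * (2 : ℝ) ^ s.lev t) := by
    rw [← Finset.sum_fiberwise_of_maps_to (s := univ) (t := univ.image s.wit) (g := s.wit)
      (fun x _ => Finset.mem_image_of_mem _ (Finset.mem_univ x))]
    apply Finset.sum_congr rfl
    intro t _
    rw [Finset.sum_congr rfl (g := fun _ => 2 * (2 : ℝ) ^ s.lev t)
      (fun x hx => by rw [(Finset.mem_filter.mp hx).2])]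
    rw [Finset.sum_const, nsmul_eq_mul]
  have h3 : ∑ t ∈ univ.image s.wit, ((univ.filter fun x => s.wit x = t).card : ℝ) *
        (2 * (2 : ℝ) ^ s.lev t) ≤
      ∑ t ∈ univ.image s.wit, (2 * Real.exp 1 * (Fintype.card V : ℝ)) *
        ((2 : ℝ) ^ s.lev t * s.mu t) := by
    apply Finset.sum_le_sum
    intro t _
    have := tailBound H R q hq hyp s hB t
    calc ((univ.filter fun x => s.wit x = t).card : ℝ) * (2 * (2 : ℝ) ^ s.lev t)
        ≤ (Real.exp 1 * ((Fintype.card V : ℝ) * s.mu t)) * (2 * (2 : ℝ) ^ s.lev t) :=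
          mul_le_mul_of_nonneg_right this (by positivity)
      _ = _ := by ring
  have h4 := hC.sum_le
  calc ∑ x, Y (chP R.par) (zJ J) h x
      ≤ ∑ t ∈ univ.image s.wit, (2 * Real.exp 1 * (Fintype.card V : ℝ)) *
        ((2 : ℝ) ^ s.lev t * s.mu t) := by rw [h2] at h1; exact h1.trans h3
    _ = (2 * Real.exp 1 * (Fintype.card V : ℝ)) *
        ∑ t ∈ univ.image s.wit, (2 : ℝ) ^ s.lev t * s.mu t := by rw [Finset.mul_sum]
    _ ≤ (2 * Real.exp 1 * (Fintype.card V : ℝ)) * 2 :=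
        mul_le_mul_of_nonneg_left h4 (by positivity)
    _ = _ := by ring

end Vale.Agent.P064F
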