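import Vale.Agent.P064F.Defs
import Vale.Agent.P064F.Num
import Vale.Agent.P064F.Poly1
import Vale.Agent.P064F.Stage
import Vale.Agent.P064F.Glob4
import Vale.Agent.P064F.Orbit
import Vale.Agent.P064F.Orbit2
import Vale.Agent.P064F.Root
import Vale.Agent.P064F.FinalArith

/-! # P064F: the counting inequality for forests -/

namespace Vale.Agent.P064F

open Finset Vale.Agent.P064

variable {V : Type} [Fintype V] [DecidableEq V]

theorem PiSet_card_le (H : SimpleGraph V) (hH : H.IsAcyclic) (q : ℝ) (hq0 : 0 ≤ q)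
    (hyp : ∀ W : SimpleGraph V, W ≤ H → 1 ≤ (copies ⊤ W : ℝ) * q ^ W.edgeSet.ncard)
    (F : SimpleGraph V) (hF : 1 ≤ F.edgeSet.ncard) :
    ((PiSet F H).card : ℝ) ≤
      ((Fintype.card V).factorial : ℝ) * (30000000 * q) ^ F.edgeSet.ncard := by
  rcases hq0.eq_or_lt with rfl | hq
  · rw [PiSet_empty_of_zero H F hyp hF]
    simp only [Finset.card_empty, Nat.cast_zero]
    positivity
  rcases (PiSet F H).eq_empty_or_nonempty with he | ⟨π₀, hπ₀⟩
  · rw [he]
    simp only [Finset.card_empty, Nat.cast_zero]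
    positivity
  obtain ⟨R⟩ := exists_rooting H hH
  have hn : 1 ≤ Fintype.card V := by
    have : Nonempty V := by
      by_contra hne
      rw [not_nonempty_iff] at hne
      have : F.edgeSet = ∅ := by
        ext e
        induction e using Sym2.ind with
        | _ a b => exact hne.elim a
      rw [this] at hF
      simp at hF
    exact Fintype.card_pos
  have hδ : 0 < 2 * (Fintype.card V : ℝ) * q := by
    have : (0 : ℝ) < Fintype.card V := by exact_mod_cast hn
    positivity
  obtain ⟨J, hJ1, hJ2⟩ := exists_J _ hδ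
  set hh := univ.sup R.dep with hhh
  have hdep : ∀ v, R.dep v ≤ hh := fun v => Finset.le_sup (f := R.dep) (Finset.mem_univ v)
  have hS := sum_Y_le H R q hq0 hyp J hJ2 hh
  have hcount := perm_count_le H R F (zJ J) (zJ_pos J).le hh hdep
  have hev := edges_add_tops H R F π₀ hπ₀
  exact final_arith (Fintype.card V) (suppF F).card F.edgeSet.ncard _ _ (zJ J) q
    (Finset.card_le_univ _) (by omega) (supp_card_le F) hn hq (zJ_pos J) (by positivity) hJ1
    (Finset.sum_nonneg fun x _ => le_trans zero_le_one (one_le_Y _ _ (zJ_pos J).le hh x)) hS hcount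

/-- The Dubroff-Kahn-Park counting inequality for all forests `H`, with a universal constant. -/
theorem forest_spread (H : SimpleGraph V) (hH : H.IsAcyclic) (q : ℝ) (hq0 : 0 ≤ q)
    (hyp : ∀ W : SimpleGraph V, W ≤ H → 1 ≤ (copies ⊤ W : ℝ) * q ^ W.edgeSet.ncard)
    (F : SimpleGraph V) :
    (copies H F : ℝ) ≤ (copies ⊤ F : ℝ) * (min 1 (30000000 * q)) ^ F.edgeSet.ncard := by
  have htop : (copies H F : ℝ) ≤ (copies ⊤ F : ℝ) := by exact_mod_cast copies_le_top H F
  rcases Nat.eq_zero_or_pos F.edgeSet.ncard with h0 | hF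
  · rw [h0, pow_zero, mul_one]; exact htop
  by_cases hL : 1 ≤ 30000000 * q
  · rw [min_eq_left hL, one_pow, mul_one]; exact htop
  push Not at hL
  rw [min_eq_right hL.le]
  have h1 := PiSet_card_le H hH q hq0 hyp F hF
  have h2 : (copies H F : ℝ) * ((Fintype.card V).factorial : ℝ) =
      (copies ⊤ F : ℝ) * ((PiSet F H).card : ℝ) := by exact_mod_cast orbit_count H F
  have hfac : (0 : ℝ) < ((Fintype.card V).factorial : ℝ) := by positivity
  have h3 : (copies H F : ℝ) * ((Fintype.card V).factorial : ℝ) ≤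
      ((copies ⊤ F : ℝ) * (30000000 * q) ^ F.edgeSet.ncard) *
        ((Fintype.card V).factorial : ℝ) := by
    rw [h2]
    calc (copies ⊤ F : ℝ) * ((PiSet F H).card : ℝ)
        ≤ (copies ⊤ F : ℝ) * (((Fintype.card V).factorial : ℝ) *
          (30000000 * q) ^ F.edgeSet.ncard) := mul_le_mul_of_nonneg_left h1 (by positivity)
      _ = _ := by ring
  exact le_of_mul_le_mul_right h3 hfac

end Vale.Agent.P064F
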