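import Vale.Agent.P064F.PPDefs

/-! # P064F leaf (phase 2): minimum fragments -/

namespace Vale.Agent.P064F

open Finset

variable {α : Type*} [DecidableEq α]

lemma frag_sub (Hs : Finset (Finset α)) (W A T : Finset α) (h : IsFrag Hs W A T) :
    T ⊆ A ∧ Disjoint T W := by
  obtain ⟨⟨A', _, hsub, rfl⟩, _⟩ := h
  refine ⟨?_, Finset.sdiff_disjoint⟩
  intro x hx
  rw [Finset.mem_sdiff] at hx
  have := hsub hx.1
  rw [Finset.mem_union] at this
  rcases this with h1 | h1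
  · exact absurd h1 hx.2
  · exact h1

lemma frag_member (Hs : Finset (Finset α)) (W A T : Finset α) (h : IsFrag Hs W A T) :
    ∃ A' ∈ Hs, A' ⊆ W ∪ T := by
  obtain ⟨⟨A', hA', _, rfl⟩, _⟩ := h
  refine ⟨A', hA', ?_⟩
  intro x hx
  rw [Finset.mem_union, Finset.mem_sdiff]
  by_cases hW : x ∈ W
  · exact Or.inl hW
  · exact Or.inr ⟨hx, hW⟩

/-- If `A'' ⊆ W ∪ T ⊆ W ∪ A` then `A'' \ W ⊆ T` and `|T| ≤ |A'' \ W|`, so `T = A'' \ W ⊆ A''`. -/
lemma frag_min (Hs : Finset (Finset α)) (W A T : Finset α) (h : IsFrag Hs W A T)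
    (A'' : Finset α) (hA : A'' ∈ Hs) (hsub : A'' ⊆ W ∪ T) : T ⊆ A'' := by
  have hTA := (frag_sub Hs W A T h).1
  have h1 : A'' ⊆ W ∪ A := hsub.trans (Finset.union_subset_union_right hTA)
  have h2 : T.card ≤ (A'' \ W).card := h.2 A'' hA h1
  have h3 : A'' \ W ⊆ T := by
    intro x hx
    rw [Finset.mem_sdiff] at hx
    have := hsub hx.1
    rw [Finset.mem_union] at this
    rcases this with h4 | h4
    · exact absurd h4 hx.2
    · exact h4
  have h4 : A'' \ W = T := Finset.eq_of_subset_of_card_le h3 h2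
  rw [← h4]
  exact Finset.sdiff_subset

/-- Minimize `|A' \ W|` over the nonempty finite set of `A' ∈ Hs` with `A' ⊆ W ∪ A`
(`Finset.exists_min_image`). -/
lemma frag_exists (E : Finset α) (Hs : Finset (Finset α)) (W A : Finset α) (hA : A ∈ Hs)
    (hAE : A ⊆ E) : ∃ T ∈ frags E Hs W, T ⊆ A := by
  classical
  have hne : (Hs.filter fun A' => A' ⊆ W ∪ A).Nonempty :=
    ⟨A, Finset.mem_filter.2 ⟨hA, Finset.subset_union_right⟩⟩
  obtain ⟨A', hA', hmin⟩ :=
    Finset.exists_min_image (Hs.filter fun A' => A' ⊆ W ∪ A) (fun A' => (A' \ W).card) hne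
  rw [Finset.mem_filter] at hA'
  have hfrag : IsFrag Hs W A (A' \ W) :=
    ⟨⟨A', hA'.1, hA'.2, rfl⟩, fun A'' h1 h2 => hmin A'' (Finset.mem_filter.2 ⟨h1, h2⟩)⟩
  have hsub := (frag_sub Hs W A _ hfrag).1
  refine ⟨A' \ W, ?_, hsub⟩
  unfold frags
  rw [Finset.mem_filter, Finset.mem_powerset]
  exact ⟨hsub.trans hAE, A, hA, hfrag⟩

/-- Every member of `Hs` contains a big or a small fragment. -/
lemma covers_frags (E : Finset α) (Hs : Finset (Finset α)) (hE : ∀ A ∈ Hs, A ⊆ E) (W : Finset α)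
    (t : ℕ) (Us : Finset (Finset α)) (hUs : Covers Us (smallF E Hs W t)) :
    Covers (bigF E Hs W t ∪ Us) Hs := by
  intro A hA
  obtain ⟨T, hT, hTA⟩ := frag_exists E Hs W A hA (hE A hA)
  by_cases ht : t ≤ T.card
  · refine ⟨T, Finset.mem_union_left _ ?_, hTA⟩
    unfold bigF
    exact Finset.mem_filter.2 ⟨hT, ht⟩
  · have hs : T ∈ smallF E Hs W t := by
      unfold smallF
      exact Finset.mem_filter.2 ⟨hT, not_le.1 ht⟩
    obtain ⟨U, hU, hUT⟩ := hUs T hs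
    exact ⟨U, Finset.mem_union_right _ hU, hUT.trans hTA⟩

lemma smallF_prop (E : Finset α) (Hs : Finset (Finset α)) (W : Finset α) (t : ℕ) :
    ∀ T ∈ smallF E Hs W t, T ⊆ E ∧ T.card < t ∧ ∃ A ∈ Hs, A ⊆ W ∪ T := by
  classical
  intro T hT
  unfold smallF at hT
  rw [Finset.mem_filter] at hT
  obtain ⟨hT1, hT2⟩ := hT
  unfold frags at hT1
  rw [Finset.mem_filter, Finset.mem_powerset] at hT1
  obtain ⟨hTE, A, _, hfrag⟩ := hT1
  exact ⟨hTE, hT2, frag_member Hs W A T hfrag⟩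

end Vale.Agent.P064F
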