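import Vale.Agent.P064F.PPDefs
import Vale.Agent.P064F.PP1
import Vale.Agent.P064F.PP2

/-! # P064F leaf (phase 2): the expected cost of the big fragments -/

namespace Vale.Agent.P064F

open Finset

variable {α : Type*} [DecidableEq α]

/-- Consider the pairs `(W, T)` with `W ⊆ E`, `T ∈ bigF E Hs W t`, and put `Z = W ∪ T` (a disjoint
union, `frag_sub`).  For every `Z ⊆ E` containing a member of `Hs` fix such a member `χ Z`.  By
`frag_member` `Z` contains a member, and by `frag_min` `T ⊆ χ Z`.  The map `(W,T) ↦ (Z,T)` is injective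
(`W = Z \ T`).  By `bern_mul_pow_le`, `bern W κ^|T| ≤ bern Z (κ/p)^|T| ≤ bern Z (1/64)^t`, and `χ Z` has
at most `2^l` subsets.  Finally `∑_Z bern Z = 1`. -/
lemma big_cost_le (E : Finset α) (Hs : Finset (Finset α)) (l t : ℕ)
    (hHs : ∀ A ∈ Hs, A ⊆ E ∧ A.card ≤ l) (κ p : ℝ) (hκ : 0 ≤ κ) (hp0 : 0 < p) (hp1 : p ≤ 1)
    (hκp : 64 * κ ≤ p) :
    ∑ W ∈ E.powerset, bern E p W * cost κ (bigF E Hs W t) ≤ (2 : ℝ) ^ l * (1 / 64 : ℝ) ^ t := by
  classical
  -- the choice function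
  let χ : Finset α → Finset α := fun Z =>
    if h : ∃ A ∈ Hs, A ⊆ Z then h.choose else ∅
  have hχ : ∀ Z, (∃ A ∈ Hs, A ⊆ Z) → χ Z ∈ Hs ∧ χ Z ⊆ Z := by
    intro Z h
    have : χ Z = h.choose := dif_pos h
    rw [this]
    exact h.choose_spec
  have hχcard : ∀ Z, (χ Z).card ≤ l := by
    intro Z
    by_cases h : ∃ A ∈ Hs, A ⊆ Z
    · exact (hHs _ (hχ Z h).1).2
    · have : χ Z = ∅ := dif_neg h
      rw [this]; simp
  -- facts about members of `bigF`
  have hmem : ∀ W T, T ∈ bigF E Hs W t →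
      T ⊆ E ∧ t ≤ T.card ∧ Disjoint T W ∧ T ⊆ χ (W ∪ T) := by
    intro W T hT
    unfold bigF frags at hT
    rw [mem_filter, mem_filter, mem_powerset] at hT
    obtain ⟨⟨hTE, A, hA, hfr⟩, htT⟩ := hT
    have h1 := frag_sub Hs W A T hfr
    have h2 := frag_member Hs W A T hfr
    have h3 := hχ (W ∪ T) h2
    exact ⟨hTE, htT, h1.2, frag_min Hs W A T hfr _ h3.1 h3.2⟩
  set S : Finset (Σ _ : Finset α, Finset α) := E.powerset.sigma (fun W => bigF E Hs W t) with hS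
  set S' : Finset (Σ _ : Finset α, Finset α) := E.powerset.sigma (fun Z => (χ Z).powerset)
    with hS'
  let g : (Σ _ : Finset α, Finset α) → (Σ _ : Finset α, Finset α) := fun x => ⟨x.1 ∪ x.2, x.2⟩
  let F : (Σ _ : Finset α, Finset α) → ℝ := fun y => bern E p y.1 * (1 / 64 : ℝ) ^ t
  have hF0 : ∀ y, 0 ≤ F y := fun y =>
    mul_nonneg (bern_nonneg E p hp0.le hp1 _) (by positivity)
  have e1 : ∑ W ∈ E.powerset, bern E p W * cost κ (bigF E Hs W t)
      = ∑ x ∈ S, bern E p x.1 * κ ^ x.2.card := by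
    rw [hS, Finset.sum_sigma]
    apply Finset.sum_congr rfl
    intro W _
    unfold cost
    rw [Finset.mul_sum]
  have e2 : ∀ x ∈ S, bern E p x.1 * κ ^ x.2.card ≤ F (g x) := by
    rintro ⟨W, T⟩ hx
    rw [hS, Finset.mem_sigma] at hx
    obtain ⟨hW, hT⟩ := hx
    simp only at hW hT
    rw [mem_powerset] at hW
    obtain ⟨hTE, htT, hd, _⟩ := hmem W T hT
    show bern E p W * κ ^ T.card ≤ bern E p (W ∪ T) * (1 / 64 : ℝ) ^ t
    have hb0 := bern_nonneg E p hp0.le hp1 W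
    have h1 : κ ≤ p * (1 / 64) := by linarith
    have h2 : κ ^ T.card ≤ p ^ T.card * (1 / 64 : ℝ) ^ T.card := by
      rw [← mul_pow]
      exact pow_le_pow_left₀ hκ h1 _
    have h3 : (1 / 64 : ℝ) ^ T.card ≤ (1 / 64 : ℝ) ^ t :=
      pow_le_pow_of_le_one (by norm_num) (by norm_num) htT
    have h4 := bern_mul_pow_le E p hp0.le hp1 W T hd (union_subset hW hTE)
    calc bern E p W * κ ^ T.card ≤ bern E p W * (p ^ T.card * (1 / 64 : ℝ) ^ T.card) :=
          mul_le_mul_of_nonneg_left h2 hb0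
      _ = (bern E p W * p ^ T.card) * (1 / 64 : ℝ) ^ T.card := by ring
      _ ≤ bern E p (W ∪ T) * (1 / 64 : ℝ) ^ T.card :=
          mul_le_mul_of_nonneg_right h4 (by positivity)
      _ ≤ bern E p (W ∪ T) * (1 / 64 : ℝ) ^ t :=
          mul_le_mul_of_nonneg_left h3 (bern_nonneg E p hp0.le hp1 _)
  have hinj : Set.InjOn g (S : Set (Σ _ : Finset α, Finset α)) := by
    rintro ⟨W, T⟩ hx ⟨W', T'⟩ hx' hgg
    rw [Finset.mem_coe, hS, Finset.mem_sigma] at hx hx'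
    simp only at hx hx'
    have hd := (hmem W T hx.2).2.2.1
    have hd' := (hmem W' T' hx'.2).2.2.1
    simp only [g, Sigma.mk.injEq, heq_eq_eq] at hgg
    obtain ⟨hZ, hTT⟩ := hgg
    subst hTT
    have hW : W = (W ∪ T) \ T := by
      rw [union_sdiff_right]
      exact (sdiff_eq_self_of_disjoint hd.symm).symm
    have hW' : W' = (W' ∪ T) \ T := by
      rw [union_sdiff_right]
      exact (sdiff_eq_self_of_disjoint hd'.symm).symm
    have : W = W' := by rw [hW, hW', hZ]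
    subst this
    rfl
  have hsub : S.image g ⊆ S' := by
    intro y hy
    rw [mem_image] at hy
    obtain ⟨⟨W, T⟩, hx, rfl⟩ := hy
    rw [hS, Finset.mem_sigma] at hx
    simp only at hx
    obtain ⟨hTE, _, _, hTχ⟩ := hmem W T hx.2
    rw [hS', Finset.mem_sigma]
    simp only [g]
    exact ⟨mem_powerset.2 (union_subset (mem_powerset.1 hx.1) hTE), mem_powerset.2 hTχ⟩
  have e3 : ∑ y ∈ S', F y ≤ (2 : ℝ) ^ l * (1 / 64 : ℝ) ^ t := by
    rw [hS', Finset.sum_sigma]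
    have : ∀ Z ∈ E.powerset, ∑ T ∈ (χ Z).powerset, F ⟨Z, T⟩
        ≤ bern E p Z * ((2 : ℝ) ^ l * (1 / 64 : ℝ) ^ t) := by
      intro Z _
      show ∑ _T ∈ (χ Z).powerset, bern E p Z * (1 / 64 : ℝ) ^ t ≤ _
      rw [Finset.sum_const, card_powerset, nsmul_eq_mul]
      have h1 : ((2 ^ (χ Z).card : ℕ) : ℝ) ≤ (2 : ℝ) ^ l := by
        push_cast
        exact pow_le_pow_right₀ (by norm_num) (hχcard Z)
      have hb := bern_nonneg E p hp0.le hp1 Z
      calc ((2 ^ (χ Z).card : ℕ) : ℝ) * (bern E p Z * (1 / 64 : ℝ) ^ t)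
          ≤ (2 : ℝ) ^ l * (bern E p Z * (1 / 64 : ℝ) ^ t) :=
            mul_le_mul_of_nonneg_right h1 (mul_nonneg hb (by positivity))
        _ = bern E p Z * ((2 : ℝ) ^ l * (1 / 64 : ℝ) ^ t) := by ring
    refine (Finset.sum_le_sum this).trans ?_
    rw [← Finset.sum_mul, sum_bern, one_mul]
  calc ∑ W ∈ E.powerset, bern E p W * cost κ (bigF E Hs W t)
      = ∑ x ∈ S, bern E p x.1 * κ ^ x.2.card := e1
    _ ≤ ∑ x ∈ S, F (g x) := Finset.sum_le_sum e2
    _ = ∑ y ∈ S.image g, F y := (Finset.sum_image hinj).symm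
    _ ≤ ∑ y ∈ S', F y := Finset.sum_le_sum_of_subset_of_nonneg hsub (fun y _ _ => hF0 y)
    _ ≤ (2 : ℝ) ^ l * (1 / 64 : ℝ) ^ t := e3

end Vale.Agent.P064F
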