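import Vale.Agent.P064F.PPDefs
import Vale.Agent.P064F.PP2

/-! # P064F leaf (phase 2): the union of two independent random subsets -/

namespace Vale.Agent.P064F

open Finset

variable {α : Type*} [DecidableEq α]

lemma bern_insert_of_sub {E : Finset α} {x : α} (hx : x ∉ E) (p : ℝ) {W : Finset α}
    (hW : W ⊆ E) : bern (insert x E) p W = (1 - p) * bern E p W := by
  unfold bern
  have h1 : W.card ≤ E.card := Finset.card_le_card hW
  rw [Finset.card_insert_of_notMem hx]
  have h2 : E.card + 1 - W.card = (E.card - W.card) + 1 := by omega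
  rw [h2, pow_succ]; ring

lemma bern_insert_insert {E : Finset α} {x : α} (hx : x ∉ E) (p : ℝ) {W : Finset α}
    (hW : W ⊆ E) : bern (insert x E) p (insert x W) = p * bern E p W := by
  unfold bern
  have hxW : x ∉ W := fun h => hx (hW h)
  rw [Finset.card_insert_of_notMem hx, Finset.card_insert_of_notMem hxW]
  have h2 : E.card + 1 - (W.card + 1) = E.card - W.card := by omega
  rw [h2, pow_succ]; ring

/-- The union of independent random subsets of densities `a` and `b` has density
`1 - (1-a)(1-b)`.  Induction on `E` with `Finset.sum_powerset_insert`, or: for fixed `W` the pairs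
with union `W` have total weight `bern E c W`. -/
lemma bern_conv (E : Finset α) (a b : ℝ) (f : Finset α → ℝ) :
    ∑ W₁ ∈ E.powerset, ∑ W₂ ∈ E.powerset, bern E a W₁ * bern E b W₂ * f (W₁ ∪ W₂) =
      ∑ W ∈ E.powerset, bern E (1 - (1 - a) * (1 - b)) W * f W := by
  induction E using Finset.induction_on generalizing f with
  | empty => simp [bern]
  | insert x E hx ih =>
    have hR : ∑ W ∈ (insert x E).powerset, bern (insert x E) (1 - (1 - a) * (1 - b)) W * f W =
        ∑ W₁ ∈ E.powerset, ∑ W₂ ∈ E.powerset, bern E a W₁ * bern E b W₂ *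
          ((1 - a) * (1 - b) * f (W₁ ∪ W₂) +
            (1 - (1 - a) * (1 - b)) * f (insert x (W₁ ∪ W₂))) := by
      rw [Finset.sum_powerset_insert hx]
      have e1 : ∑ W ∈ E.powerset, bern (insert x E) (1 - (1 - a) * (1 - b)) W * f W =
          (1 - a) * (1 - b) * ∑ W ∈ E.powerset, bern E (1 - (1 - a) * (1 - b)) W * f W := by
        rw [Finset.mul_sum]
        refine Finset.sum_congr rfl fun W hW => ?_
        rw [bern_insert_of_sub hx _ (Finset.mem_powerset.mp hW)]; ring
      have e2 : ∑ W ∈ E.powerset,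
            bern (insert x E) (1 - (1 - a) * (1 - b)) (insert x W) * f (insert x W) =
          (1 - (1 - a) * (1 - b)) *
            ∑ W ∈ E.powerset, bern E (1 - (1 - a) * (1 - b)) W * f (insert x W) := by
        rw [Finset.mul_sum]
        refine Finset.sum_congr rfl fun W hW => ?_
        rw [bern_insert_insert hx _ (Finset.mem_powerset.mp hW)]; ring
      rw [e1, e2, ← ih f, ← ih (fun W => f (insert x W))]
      simp only [Finset.mul_sum, ← Finset.sum_add_distrib]
      refine Finset.sum_congr rfl fun W₁ _ => Finset.sum_congr rfl fun W₂ _ => ?_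
      ring
    rw [hR, Finset.sum_powerset_insert hx, ← Finset.sum_add_distrib]
    refine Finset.sum_congr rfl fun W₁ hW₁ => ?_
    rw [Finset.sum_powerset_insert hx, Finset.sum_powerset_insert hx, ← Finset.sum_add_distrib,
      ← Finset.sum_add_distrib, ← Finset.sum_add_distrib]
    refine Finset.sum_congr rfl fun W₂ hW₂ => ?_
    have h1 := Finset.mem_powerset.mp hW₁
    have h2 := Finset.mem_powerset.mp hW₂
    rw [bern_insert_of_sub hx _ h1, bern_insert_of_sub hx _ h2, bern_insert_insert hx _ h1,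
      bern_insert_insert hx _ h2]
    have u1 : W₁ ∪ insert x W₂ = insert x (W₁ ∪ W₂) := Finset.union_insert _ _ _
    have u2 : insert x W₁ ∪ W₂ = insert x (W₁ ∪ W₂) := Finset.insert_union _ _ _
    have u3 : insert x W₁ ∪ insert x W₂ = insert x (W₁ ∪ W₂) := by
      rw [Finset.insert_union, Finset.union_insert, Finset.insert_idem]
    rw [u1, u2, u3]
    ring

/-- If every `T ∈ Hs' W₁` satisfies `A ⊆ W₁ ∪ T` for some `A ∈ Hs`, then failing for `Hs` at
`W₁ ∪ W₂` implies failing for `Hs' W₁` at `W₂`. -/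
lemma failP_union_le (E : Finset α) (a b : ℝ) (ha0 : 0 ≤ a) (ha1 : a ≤ 1) (hb0 : 0 ≤ b)
    (hb1 : b ≤ 1) (Hs : Finset (Finset α)) (Hs' : Finset α → Finset (Finset α))
    (h : ∀ W ∈ E.powerset, ∀ T ∈ Hs' W, ∃ A ∈ Hs, A ⊆ W ∪ T) :
    failP E (1 - (1 - a) * (1 - b)) Hs ≤ ∑ W ∈ E.powerset, bern E a W * failP E b (Hs' W) := by
  classical
  have e : failP E (1 - (1 - a) * (1 - b)) Hs =
      ∑ W ∈ E.powerset, bern E (1 - (1 - a) * (1 - b)) W *
        (if (∃ A ∈ Hs, A ⊆ W) then 0 else 1) := by
    unfold failP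
    refine Finset.sum_congr rfl fun W _ => ?_
    split_ifs <;> simp
  rw [e, ← bern_conv]
  refine Finset.sum_le_sum fun W₁ hW₁ => ?_
  unfold failP
  rw [Finset.mul_sum]
  refine Finset.sum_le_sum fun W₂ _ => ?_
  have n1 := bern_nonneg E a ha0 ha1 W₁
  have n2 := bern_nonneg E b hb0 hb1 W₂
  by_cases h1 : ∃ A ∈ Hs' W₁, A ⊆ W₂
  · obtain ⟨T, hT, hTW⟩ := h1
    obtain ⟨A, hA, hAW⟩ := h W₁ hW₁ T hT
    have h2 : ∃ A ∈ Hs, A ⊆ W₁ ∪ W₂ :=
      ⟨A, hA, hAW.trans (Finset.union_subset_union_right hTW)⟩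
    rw [if_pos h2, if_pos ⟨T, hT, hTW⟩]
    simp
  · rw [if_neg h1]
    split_ifs
    · simp only [mul_zero]; exact mul_nonneg n1 n2
    · simp
end Vale.Agent.P064F
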