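import Vale.Agent.P064F.PPDefs

/-! # P064F leaf (phase 2): covers of a spread family are expensive -/

namespace Vale.Agent.P064F

open Finset

variable {α : Type*} [DecidableEq α]

/-- `|Ω| ≤ ∑_{U ∈ Us} |{ω : U ⊆ A ω}| ≤ |Ω| ∑_U κ^|U|`. -/
lemma cost_ge_one {Ω : Type*} [Fintype Ω] [Nonempty Ω] (A : Ω → Finset α) (κ : ℝ)
    (hs : ∀ S : Finset α, ((univ.filter fun ω => S ⊆ A ω).card : ℝ) ≤
      κ ^ S.card * (Fintype.card Ω : ℝ))
    (Us : Finset (Finset α)) (hc : Covers Us (univ.image A)) : 1 ≤ cost κ Us := by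
  classical
  have hpos : (0 : ℝ) < (Fintype.card Ω : ℝ) := by
    exact_mod_cast Fintype.card_pos
  have hsub : (univ : Finset Ω) ⊆ Us.biUnion fun U => univ.filter fun ω => U ⊆ A ω := by
    intro ω _
    obtain ⟨U, hU, hUA⟩ := hc (A ω) (Finset.mem_image_of_mem A (Finset.mem_univ ω))
    exact Finset.mem_biUnion.mpr ⟨U, hU, by simp [hUA]⟩
  have h1 : Fintype.card Ω ≤ ∑ U ∈ Us, (univ.filter fun ω => U ⊆ A ω).card := by
    calc Fintype.card Ω = (univ : Finset Ω).card := rfl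
      _ ≤ (Us.biUnion fun U => univ.filter fun ω => U ⊆ A ω).card := Finset.card_le_card hsub
      _ ≤ _ := Finset.card_biUnion_le
  have h2 : (Fintype.card Ω : ℝ) ≤ cost κ Us * (Fintype.card Ω : ℝ) := by
    calc (Fintype.card Ω : ℝ) ≤ ((∑ U ∈ Us, (univ.filter fun ω => U ⊆ A ω).card : ℕ) : ℝ) := by
          exact_mod_cast h1
      _ = ∑ U ∈ Us, ((univ.filter fun ω => U ⊆ A ω).card : ℝ) := by push_cast; rfl
      _ ≤ ∑ U ∈ Us, κ ^ U.card * (Fintype.card Ω : ℝ) := Finset.sum_le_sum fun U _ => hs U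
      _ = cost κ Us * (Fintype.card Ω : ℝ) := by rw [cost, Finset.sum_mul]
  by_contra hlt
  have hlt' : cost κ Us < 1 := not_le.mp hlt
  nlinarith

lemma cost_nonneg (κ : ℝ) (hκ : 0 ≤ κ) (Us : Finset (Finset α)) : 0 ≤ cost κ Us :=
  Finset.sum_nonneg fun _ _ => pow_nonneg hκ _

lemma cost_union_le (κ : ℝ) (hκ : 0 ≤ κ) (Us Vs : Finset (Finset α)) :
    cost κ (Us ∪ Vs) ≤ cost κ Us + cost κ Vs := by
  unfold cost
  rw [← Finset.sum_union_inter]
  have : 0 ≤ ∑ U ∈ Us ∩ Vs, κ ^ U.card := Finset.sum_nonneg fun _ _ => pow_nonneg hκ _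
  linarith

end Vale.Agent.P064F
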