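import Vale.Agent.P064F.PPDefs
import Vale.Agent.P064F.PP1
import Vale.Agent.P064F.PP2
import Vale.Agent.P064F.PP3
import Vale.Agent.P064F.PP4
import Vale.Agent.P064F.PP6

/-! # P064F glue (phase 2): cheap cover or small failure probability -/

namespace Vale.Agent.P064F

open Finset

variable {α : Type*} [DecidableEq α]

theorem pp_cover (E : Finset α) (κ p : ℝ) (hκ : 0 ≤ κ) (hp0 : 0 < p) (hp1 : p ≤ 1)
    (hκp : 64 * κ ≤ p) (g : ℕ) :
    ∀ Hs : Finset (Finset α), (∀ A ∈ Hs, A ⊆ E ∧ A.card < 2 ^ g) →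
      ∃ Us : Finset (Finset α), Covers Us Hs ∧ cost κ Us * failP E (rho p g) Hs ≤ errS g := by
  induction g with
  | zero =>
    intro Hs hHs
    rcases Hs.eq_empty_or_nonempty with rfl | ⟨A, hA⟩
    · refine ⟨∅, fun A hA => absurd hA (Finset.notMem_empty A), ?_⟩
      simp [cost, errS]
    · have hA0 : A = ∅ := by
        have := (hHs A hA).2
        simp only [pow_zero, Nat.lt_one_iff, Finset.card_eq_zero] at this
        exact this
      refine ⟨{∅}, fun B _ => ⟨∅, Finset.mem_singleton_self _, Finset.empty_subset _⟩, ?_⟩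
      rw [failP_eq_zero_of_empty_mem E _ Hs (hA0 ▸ hA)]
      simp [errS]
  | succ g ih =>
    intro Hs hHs
    set t := 2 ^ g with ht
    have hsm : ∀ W, ∀ T ∈ smallF E Hs W t, T ⊆ E ∧ T.card < 2 ^ g := fun W T hT =>
      ⟨(smallF_prop E Hs W t T hT).1, (smallF_prop E Hs W t T hT).2.1⟩
    choose Us' hcov hcost using fun W => ih (smallF E Hs W t) (hsm W)
    obtain ⟨hr0, hr1⟩ := rho_mem p hp0.le hp1 g
    -- the best round
    obtain ⟨W₀, hW₀, hmin⟩ := Finset.exists_min_image E.powerset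
      (fun W => cost κ (bigF E Hs W t ∪ Us' W)) ⟨∅, Finset.empty_mem_powerset E⟩
    refine ⟨bigF E Hs W₀ t ∪ Us' W₀,
      covers_frags E Hs (fun A hA => (hHs A hA).1) W₀ t (Us' W₀) (hcov W₀), ?_⟩
    have hfail : failP E (rho p (g + 1)) Hs ≤
        ∑ W ∈ E.powerset, bern E p W * failP E (rho p g) (smallF E Hs W t) := by
      rw [rho_succ]
      exact failP_union_le E p (rho p g) hp0.le hp1 hr0 hr1 Hs (fun W => smallF E Hs W t)
        (fun W _ T hT => (smallF_prop E Hs W t T hT).2.2)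
    have hc0 : 0 ≤ cost κ (bigF E Hs W₀ t ∪ Us' W₀) := cost_nonneg κ hκ _
    have hbig := big_cost_le E Hs (2 ^ (g + 1)) t
      (fun A hA => ⟨(hHs A hA).1, (hHs A hA).2.le⟩) κ p hκ hp0 hp1 hκp
    have hpow : (2 : ℝ) ^ (2 ^ (g + 1)) * (1 / 64 : ℝ) ^ t = (1 / 16 : ℝ) ^ (2 ^ g) := by
      rw [ht, pow_succ 2 g, mul_comm (2 ^ g) 2, pow_mul, ← mul_pow]
      norm_num
    calc cost κ (bigF E Hs W₀ t ∪ Us' W₀) * failP E (rho p (g + 1)) Hs
        ≤ cost κ (bigF E Hs W₀ t ∪ Us' W₀) *
          ∑ W ∈ E.powerset, bern E p W * failP E (rho p g) (smallF E Hs W t) :=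
          mul_le_mul_of_nonneg_left hfail hc0
      _ = ∑ W ∈ E.powerset, bern E p W *
          (cost κ (bigF E Hs W₀ t ∪ Us' W₀) * failP E (rho p g) (smallF E Hs W t)) := by
          rw [Finset.mul_sum]
          exact Finset.sum_congr rfl fun W _ => by ring
      _ ≤ ∑ W ∈ E.powerset, bern E p W * (cost κ (bigF E Hs W t) + errS g) := by
          apply Finset.sum_le_sum
          intro W hW
          apply mul_le_mul_of_nonneg_left _ (bern_nonneg E p hp0.le hp1 W)
          have hf0 := failP_nonneg E (rho p g) hr0 hr1 (smallF E Hs W t)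
          have hf1 := failP_le_one E (rho p g) hr0 hr1 (smallF E Hs W t)
          calc cost κ (bigF E Hs W₀ t ∪ Us' W₀) * failP E (rho p g) (smallF E Hs W t)
              ≤ cost κ (bigF E Hs W t ∪ Us' W) * failP E (rho p g) (smallF E Hs W t) :=
                mul_le_mul_of_nonneg_right (hmin W hW) hf0
            _ ≤ (cost κ (bigF E Hs W t) + cost κ (Us' W)) *
                failP E (rho p g) (smallF E Hs W t) :=
                mul_le_mul_of_nonneg_right (cost_union_le κ hκ _ _) hf0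
            _ = cost κ (bigF E Hs W t) * failP E (rho p g) (smallF E Hs W t) +
                cost κ (Us' W) * failP E (rho p g) (smallF E Hs W t) := by ring
            _ ≤ cost κ (bigF E Hs W t) * 1 + errS g :=
                add_le_add (mul_le_mul_of_nonneg_left hf1 (cost_nonneg κ hκ _)) (hcost W)
            _ = _ := by ring
      _ = ∑ W ∈ E.powerset, bern E p W * cost κ (bigF E Hs W t) +
          (∑ W ∈ E.powerset, bern E p W) * errS g := by
          rw [Finset.sum_mul, ← Finset.sum_add_distrib]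
          exact Finset.sum_congr rfl fun W _ => by ring
      _ ≤ (1 / 16 : ℝ) ^ (2 ^ g) + 1 * errS g := by
          rw [sum_bern, ← hpow]
          exact add_le_add hbig le_rfl
      _ = errS (g + 1) := by rw [errS_succ]; ring

/-- Park-Pham / Frankston-Kahn-Narayanan-Park for spread families, in the product measure. -/
theorem pp_spread {Ω : Type*} [Fintype Ω] [Nonempty Ω] (E : Finset α) (A : Ω → Finset α) (κ p : ℝ)
    (hκ : 0 ≤ κ) (hp0 : 0 < p) (hp1 : p ≤ 1) (hκp : 64 * κ ≤ p) (g : ℕ)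
    (hA : ∀ ω, A ω ⊆ E ∧ (A ω).card < 2 ^ g)
    (hs : ∀ S : Finset α, ((univ.filter fun ω => S ⊆ A ω).card : ℝ) ≤
      κ ^ S.card * (Fintype.card Ω : ℝ)) :
    failP E (rho p g) (univ.image A) ≤ 1 / 8 := by
  obtain ⟨Us, hcov, hcost⟩ := pp_cover E κ p hκ hp0 hp1 hκp g (univ.image A) (by
    intro B hB
    obtain ⟨ω, _, rfl⟩ := Finset.mem_image.mp hB
    exact hA ω)
  have h1 := cost_ge_one A κ hs Us hcov
  obtain ⟨hr0, hr1⟩ := rho_mem p hp0.le hp1 g
  have hf0 := failP_nonneg E (rho p g) hr0 hr1 (univ.image A)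
  calc failP E (rho p g) (univ.image A) = 1 * failP E (rho p g) (univ.image A) := by ring
    _ ≤ cost κ Us * failP E (rho p g) (univ.image A) := mul_le_mul_of_nonneg_right h1 hf0
    _ ≤ errS g := hcost
    _ ≤ 1 / 8 := errS_le g

end Vale.Agent.P064F
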