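import Vale.Agent.P064F.GnpDefs
import Vale.Agent.P064F.GnpTr
import Vale.Agent.P064F.GnpEx
import Vale.Agent.P064F.GnpSp
import Vale.Agent.P064F.GnpArith
import Vale.Agent.P064F.GnpMin
import Vale.Agent.P064F.PP5
import Vale.Agent.P064F.Main

/-! # P064F glue (phase 2): the second Kahn-Kalai conjecture for forests -/

namespace Vale.Agent.P064F

open Finset Vale.Agent.P064

/-- The hypothesis of the counting theorem at `q = 2p`. -/
lemma hyp_of_mem {n : ℕ} (H : SimpleGraph (Fin n)) (p : ℝ) (hp0 : 0 ≤ p)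
    (hp : ∀ F : SimpleGraph (Fin n), F ≤ H → 1 / 2 ≤ expN n F p) :
    ∀ W : SimpleGraph (Fin n), W ≤ H → 1 ≤ (copies ⊤ W : ℝ) * (2 * p) ^ W.edgeSet.ncard := by
  intro W hW
  have h1 := hp W hW
  rw [expN_eq] at h1
  have hc : (1 : ℝ) ≤ (copies ⊤ W : ℝ) := by exact_mod_cast one_le_copies_top W
  rcases Nat.eq_zero_or_pos W.edgeSet.ncard with h0 | hpos
  · rw [h0, pow_zero, mul_one]; exact hc
  · rw [mul_pow]
    have h2 : (2 : ℝ) ≤ 2 ^ W.edgeSet.ncard := by
      calc (2 : ℝ) = 2 ^ 1 := by norm_num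
        _ ≤ 2 ^ W.edgeSet.ncard := pow_le_pow_right₀ (by norm_num) hpos
    have h3 : 0 ≤ (copies ⊤ W : ℝ) * p ^ W.edgeSet.ncard := by positivity
    nlinarith

/-- A member of the `p_E`-set is positive when `H` has an edge. -/
lemma pos_of_mem {n : ℕ} (H : SimpleGraph (Fin n)) (hH : H ≠ ⊥) (p : ℝ) (hp0 : 0 ≤ p)
    (hp : ∀ F : SimpleGraph (Fin n), F ≤ H → 1 / 2 ≤ expN n F p) : 0 < p := by
  rcases hp0.eq_or_lt with rfl | h
  · exfalso
    have h1 := hp H le_rfl
    rw [expN_eq] at h1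
    have hne : H.edgeSet.ncard ≠ 0 := by
      intro h0
      apply hH
      have := (Set.ncard_eq_zero (Set.toFinite _)).mp h0
      exact SimpleGraph.edgeSet_eq_empty.mp this
    rw [zero_pow hne, mul_zero] at h1
    norm_num at h1
  · exact h

/-- The modified expectation threshold. -/
lemma pEt_mem {n : ℕ} (H : SimpleGraph (Fin n)) (hA : H.IsAcyclic) (p : ℝ) (hp0 : 0 ≤ p)
    (hp : ∀ F : SimpleGraph (Fin n), F ≤ H → 1 / 2 ≤ expN n F p)
    (F : SimpleGraph (Fin n)) :
    (copies H F : ℝ) / 2 ≤ expN n F (min 1 (60000000 * p)) := by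
  have h := forest_spread H hA (2 * p) (by positivity) (hyp_of_mem H p hp0 hp) F
  rw [expN_eq]
  have e : (30000000 : ℝ) * (2 * p) = 60000000 * p := by ring
  rw [e] at h
  have : (0 : ℝ) ≤ (copies H F : ℝ) := by positivity
  linarith

/-- The main probabilistic step. -/
lemma probHas_ge {n : ℕ} (H : SimpleGraph (Fin n)) (hA : H.IsAcyclic) (p : ℝ) (hp0 : 0 < p)
    (hp : ∀ F : SimpleGraph (Fin n), F ≤ H → 1 / 2 ≤ expN n F p)
    (hsmall : 3840000000 * p ≤ 1) :
    1 / 2 ≤ probHas n H (rho (3840000000 * p) (Nat.clog 2 (n + 1))) := by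
  have hsp := spread_of_PiSet H (60000000 * p) (by positivity) (by
    intro F hF
    have := PiSet_card_le H hA (2 * p) (by positivity) (hyp_of_mem H p hp0.le hp) F hF
    have e : (30000000 : ℝ) * (2 * p) = 60000000 * p := by ring
    rwa [e] at this)
  have hf := pp_spread (edgF (⊤ : SimpleGraph (Fin n))) (cpE H) (60000000 * p) (3840000000 * p)
    (by positivity) (by positivity) hsmall (by linarith) (Nat.clog 2 (n + 1)) (by
      intro π
      refine ⟨(cpE_prop H π).1, ?_⟩
      rw [(cpE_prop H π).2]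
      calc H.edgeSet.ncard ≤ n := acyclic_edges_le H hA
        _ < n + 1 := Nat.lt_succ_self n
        _ ≤ 2 ^ Nat.clog 2 (n + 1) := Nat.le_pow_clog (by norm_num) _) hsp
  rw [probHas_eq]
  linarith

theorem forest_threshold (n : ℕ) (hn : 2 ≤ n) (H : SimpleGraph (Fin n)) (hA : H.IsAcyclic)
    (hH : H ≠ ⊥) :
    pEt n H ≤ 60000000 * pE n H ∧ pC n H ≤ 20000000000 * pE n H * Real.log n := by
  obtain ⟨⟨hp0', hp1, hp⟩, -⟩ := pE_isLeast n H
  set p := pE n H with hpdef
  have hp0 : 0 < p := pos_of_mem H hH p hp0' hp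
  have hlog := one_le_two_log n hn
  constructor
  · have hmem : min 1 (60000000 * p) ∈ {p : ℝ | 0 ≤ p ∧ p ≤ 1 ∧
        ∀ F : SimpleGraph (Fin n), F ≤ H → (copies H F : ℝ) / 2 ≤ expN n F p} :=
      ⟨le_min zero_le_one (by positivity), min_le_left _ _, fun F _ => pEt_mem H hA p hp0' hp F⟩
    exact ((pEt_isLeast n H).2 hmem).trans (min_le_right _ _)
  · by_cases hsmall : 3840000000 * p ≤ 1
    · have hge := probHas_ge H hA p hp0 hp hsmall
      obtain ⟨hr0, hr1⟩ := rho_mem (3840000000 * p) (by positivity) hsmall (Nat.clog 2 (n + 1))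
      have hle := rho_le (3840000000 * p) (by positivity) hsmall (Nat.clog 2 (n + 1))
      have hc := clog_le_log n hn
      have h1 : pC n H ≤ rho (3840000000 * p) (Nat.clog 2 (n + 1)) :=
        (pC_isLeast n H).2 ⟨hr0, hr1, hge⟩
      have h2 : (Nat.clog 2 (n + 1) : ℝ) * (3840000000 * p) ≤
          5 * Real.log n * (3840000000 * p) :=
        mul_le_mul_of_nonneg_right hc (by positivity)
      have h3 : 0 ≤ p * Real.log n := by
        apply mul_nonneg hp0.le; linarith
      nlinarith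
    · push Not at hsmall
      have h1 : pC n H ≤ 1 := (pC_isLeast n H).1.2.1
      have h3 : p ≤ p * (2 * Real.log n) := le_mul_of_one_le_right hp0.le hlog
      nlinarith

end Vale.Agent.P064F
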