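import Vale.Agent.P064F.GnpMain

/-! # P064F application: Talagrand's fractional versus integral comparison for forest containment -/

namespace Vale.Agent.P064F

open Finset Vale.Agent.P064

/-- The copy of `H` given by `π`, as a graph. -/
noncomputable def cpG {n : ℕ} (H : SimpleGraph (Fin n)) (π : Equiv.Perm (Fin n)) :
    SimpleGraph (Fin n) :=
  SimpleGraph.fromEdgeSet (cpE H π : Set (Sym2 (Fin n)))

lemma edgF_cpG {n : ℕ} (H : SimpleGraph (Fin n)) (π : Equiv.Perm (Fin n)) :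
    edgF (cpG H π) = cpE H π :=
  edgF_fromEdgeSet _ (cpE_prop H π).1

lemma has_copy_iff {n : ℕ} (G H : SimpleGraph (Fin n)) :
    (∃ G' : SimpleGraph (Fin n), G' ≤ G ∧ Nonempty (G' ≃g H)) ↔ 0 < copies G H := by
  unfold copies
  rw [Set.ncard_pos (Set.toFinite _)]
  rfl

lemma cpG_has_copy {n : ℕ} (H : SimpleGraph (Fin n)) (π : Equiv.Perm (Fin n)) :
    ∃ G' : SimpleGraph (Fin n), G' ≤ cpG H π ∧ Nonempty (G' ≃g H) := by
  rw [has_copy_iff, copies_pos_iff]
  exact ⟨cpE H π, Finset.mem_image_of_mem _ (Finset.mem_univ _), (edgF_cpG H π).symm ▸ subset_rfl⟩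

/-- A subgraph of a graph isomorphic to `H` is isomorphic to a subgraph of `H`, and conversely every
graph containing a copy of `H` contains a copy of every `F ≤ H`. -/
lemma has_copy_mono {n : ℕ} (G H F : SimpleGraph (Fin n)) (hF : F ≤ H)
    (h : ∃ G' : SimpleGraph (Fin n), G' ≤ G ∧ Nonempty (G' ≃g H)) :
    ∃ G' : SimpleGraph (Fin n), G' ≤ G ∧ Nonempty (G' ≃g F) := by
  obtain ⟨G', hG', ⟨φ⟩⟩ := h
  refine ⟨F.comap φ, ?_, ⟨⟨φ.toEquiv, ?_⟩⟩⟩
  · intro a b hab
    have h1 : F.Adj (φ a) (φ b) := hab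
    exact hG' (φ.map_adj_iff.mp (hF h1))
  · intro a b
    rfl

open Classical in
theorem forest_talagrand (n : ℕ) (H : SimpleGraph (Fin n)) (hA : H.IsAcyclic)
    (g : SimpleGraph (Fin n) → ℝ) (p : ℝ) (hp0 : 0 ≤ p) (hg0 : ∀ S, 0 ≤ g S)
    (hcov : ∀ G : SimpleGraph (Fin n), (∃ G' : SimpleGraph (Fin n), G' ≤ G ∧ Nonempty (G' ≃g H)) →
      1 ≤ ∑ S ∈ univ.filter (fun S : SimpleGraph (Fin n) => S ≤ G), g S)
    (hcost : ∑ S : SimpleGraph (Fin n), g S * p ^ S.edgeSet.ncard ≤ 1 / 2) :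
    ∃ Gs : Finset (SimpleGraph (Fin n)),
      (∀ G : SimpleGraph (Fin n), (∃ G' : SimpleGraph (Fin n), G' ≤ G ∧ Nonempty (G' ≃g H)) →
        ∃ S ∈ Gs, S ≤ G) ∧
      ∑ S ∈ Gs, (p / 60000000) ^ S.edgeSet.ncard ≤ 1 / 2 := by
  set p' := p / 60000000 with hp'
  have hp'0 : 0 ≤ p' := by positivity
  by_cases hex : ∃ F : SimpleGraph (Fin n), F ≤ H ∧
      (copies ⊤ F : ℝ) * p' ^ F.edgeSet.ncard ≤ 1 / 2
  · obtain ⟨F, hFH, hF⟩ := hex
    refine ⟨univ.filter (fun G' : SimpleGraph (Fin n) => Nonempty (G' ≃g F)), ?_, ?_⟩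
    · intro G hG
      obtain ⟨G', hG', hiso⟩ := has_copy_mono G H F hFH hG
      exact ⟨G', Finset.mem_filter.mpr ⟨Finset.mem_univ _, hiso⟩, hG'⟩
    · have h1 : ∑ S ∈ univ.filter (fun G' : SimpleGraph (Fin n) => Nonempty (G' ≃g F)),
          p' ^ S.edgeSet.ncard =
          ∑ S ∈ univ.filter (fun G' : SimpleGraph (Fin n) => Nonempty (G' ≃g F)),
          p' ^ F.edgeSet.ncard := by
        refine Finset.sum_congr rfl (fun S hS => ?_)
        obtain ⟨φ⟩ := (Finset.mem_filter.mp hS).2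
        rw [ncard_edgeSet_of_iso φ]
      rw [h1, Finset.sum_const, nsmul_eq_mul]
      have h2 : ((univ.filter (fun G' : SimpleGraph (Fin n) => Nonempty (G' ≃g F))).card : ℝ) =
          (copies ⊤ F : ℝ) := by
        rw [copies_eq_sum, Finset.sum_boole]
        simp
      rw [h2]
      exact hF
  · exfalso
    push Not at hex
    have hyp : ∀ W : SimpleGraph (Fin n), W ≤ H →
        1 ≤ (copies ⊤ W : ℝ) * (2 * p') ^ W.edgeSet.ncard := by
      apply hyp_of_mem H p' hp'0
      intro F hF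
      rw [expN_eq]
      exact (hex F hF).le
    have hsp := spread_of_PiSet H p hp0 (by
      intro F hF
      have := PiSet_card_le H hA (2 * p') (by positivity) hyp F hF
      have e : (30000000 : ℝ) * (2 * p') = p := by rw [hp']; ring
      rwa [e] at this)
    -- double counting
    have hN : (0 : ℝ) < (Fintype.card (Equiv.Perm (Fin n)) : ℝ) := by
      exact_mod_cast Fintype.card_pos
    have h1 : (Fintype.card (Equiv.Perm (Fin n)) : ℝ) ≤
        ∑ π : Equiv.Perm (Fin n),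
          ∑ S ∈ univ.filter (fun S : SimpleGraph (Fin n) => S ≤ cpG H π), g S := by
      calc (Fintype.card (Equiv.Perm (Fin n)) : ℝ) = ∑ _π : Equiv.Perm (Fin n), (1 : ℝ) := by
            simp
        _ ≤ _ := Finset.sum_le_sum fun π _ => hcov _ (cpG_has_copy H π)
    have h2 : ∑ π : Equiv.Perm (Fin n),
          ∑ S ∈ univ.filter (fun S : SimpleGraph (Fin n) => S ≤ cpG H π), g S =
        ∑ S : SimpleGraph (Fin n), g S *
          ((univ.filter fun π : Equiv.Perm (Fin n) => edgF S ⊆ cpE H π).card : ℝ) := by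
      simp_rw [Finset.sum_filter]
      rw [Finset.sum_comm]
      refine Finset.sum_congr rfl (fun S _ => ?_)
      rw [← Finset.sum_filter, Finset.sum_const, nsmul_eq_mul, mul_comm]
      congr 3
      ext π
      simp only [Finset.mem_filter, Finset.mem_univ, true_and]
      rw [← edgF_cpG, edgF_subset_iff]
    have h3 : ∑ S : SimpleGraph (Fin n), g S *
          ((univ.filter fun π : Equiv.Perm (Fin n) => edgF S ⊆ cpE H π).card : ℝ) ≤
        ∑ S : SimpleGraph (Fin n), g S * (p ^ S.edgeSet.ncard *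
          (Fintype.card (Equiv.Perm (Fin n)) : ℝ)) := by
      refine Finset.sum_le_sum fun S _ => mul_le_mul_of_nonneg_left ?_ (hg0 S)
      have := hsp (edgF S)
      rwa [card_edgF] at this
    have h4 : ∑ S : SimpleGraph (Fin n), g S * (p ^ S.edgeSet.ncard *
          (Fintype.card (Equiv.Perm (Fin n)) : ℝ)) =
        (∑ S : SimpleGraph (Fin n), g S * p ^ S.edgeSet.ncard) *
          (Fintype.card (Equiv.Perm (Fin n)) : ℝ) := by
      rw [Finset.sum_mul]
      exact Finset.sum_congr rfl fun S _ => by ring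
    have h5 := h1.trans ((h2.le.trans h3).trans h4.le)
    nlinarith

end Vale.Agent.P064F
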